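import Crest.Agent.R258.Defs

/-! Second order Taylor expansion and circle averages along holomorphic discs. -/

set_option autoImplicit false

noncomputable section

namespace Crest.Agent.R258

open Filter Topology Metric Set Asymptotics Crest.AlgGeometry.QuadricBundle

section
variable {E : Type*} [NormedAddCommGroup E] [NormedSpace ℝ E]

theorem taylor_two {F : E → ℝ} {p : E} (hF : ContDiffAt ℝ 2 F p) :
    (fun x => F x - F p - fderiv ℝ F p (x - p) -
      (1 / 2) * fderiv ℝ (fderiv ℝ F) p (x - p) (x - p)) =o[𝓝 p] fun x => ‖x - p‖ ^ 2 := by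
  set D1 := fderiv ℝ F p with hD1
  set D2 := fderiv ℝ (fderiv ℝ F) p with hD2
  have hsymm : ∀ v w, D2 v w = D2 w v := hF.isSymmSndFDerivAt (by simp)
  have hev : ∀ᶠ x in 𝓝 p, DifferentiableAt ℝ F x := by
    filter_upwards [hF.eventually (by simp)] with x hx using hx.differentiableAt (by simp)
  obtain ⟨ρ, hρ, hball⟩ := Metric.eventually_nhds_iff_ball.1 hev
  have hd2 : HasFDerivAt (fderiv ℝ F) D2 p := by
    have : ContDiffAt ℝ 1 (fderiv ℝ F) p := hF.fderiv_right (m := 1) (by norm_num)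
    exact (this.differentiableAt (by simp)).hasFDerivAt
  let g : E → ℝ := fun x => F x - D1 (x - p) - (1 / 2) * D2 (x - p) (x - p)
  let g' : E → E →L[ℝ] ℝ := fun x => fderiv ℝ F x - D1 - D2 (x - p)
  have hg : ∀ x ∈ ball p ρ, HasFDerivWithinAt g (g' x) (ball p ρ) x := by
    intro x hx
    apply HasFDerivAt.hasFDerivWithinAt
    have h1 : HasFDerivAt (fun y : E => y - p) (ContinuousLinearMap.id ℝ E) x :=
      (hasFDerivAt_id x).sub_const p
    have h2 : HasFDerivAt (fun y => D1 (y - p)) D1 x := D1.hasFDerivAt.comp x h1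
    have h3 : HasFDerivAt (fun y => D2 (y - p)) D2 x := D2.hasFDerivAt.comp x h1
    have h4 := h3.clm_apply h1
    have h5 := ((hball x hx).hasFDerivAt.sub h2).sub (h4.const_mul (1 / 2))
    refine HasFDerivAt.congr_fderiv h5 ?_
    ext v
    have := hsymm v (x - p)
    simp only [g', map_sub, sub_apply] at this ⊢
    simp
    linarith
  have hg' : g' =o[𝓝[ball p ρ] p] fun x => ‖x - p‖ ^ 1 := by
    have := hd2.isLittleO
    apply IsLittleO.mono _ nhdsWithin_le_nhds
    simpa [g'] using this.norm_right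
  have := (convex_ball p ρ).isLittleO_pow_succ (mem_ball_self hρ) hg hg'
  rw [nhdsWithin_eq_nhds.2 (ball_mem_nhds p hρ)] at this
  refine IsLittleO.congr_left this fun x => ?_
  simp only [g, sub_self, map_zero]
  ring

theorem deriv_deriv_line {F : E → ℝ} {p : E} (hF : ContDiffAt ℝ 2 F p) (v : E) :
    deriv (deriv fun t : ℝ => F (p + t • v)) 0 = fderiv ℝ (fderiv ℝ F) p v v := by
  have hev : ∀ᶠ x in 𝓝 p, DifferentiableAt ℝ F x := by
    filter_upwards [hF.eventually (by simp)] with x hx using hx.differentiableAt (by simp)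
  have hl : ∀ t : ℝ, HasDerivAt (fun t : ℝ => p + t • v) v t := fun t => by
    simpa using ((hasDerivAt_id t).smul_const v).const_add p
  have hc : Tendsto (fun t : ℝ => p + t • v) (𝓝 0) (𝓝 p) := by
    have := (hl 0).continuousAt.tendsto
    simpa using this
  have h1 : (deriv fun t : ℝ => F (p + t • v)) =ᶠ[𝓝 0] fun t => fderiv ℝ F (p + t • v) v := by
    filter_upwards [hc.eventually hev] with t ht
    exact (ht.hasFDerivAt.comp_hasDerivAt t (hl t)).deriv
  rw [h1.deriv_eq]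
  have hd2 : HasFDerivAt (fderiv ℝ F) (fderiv ℝ (fderiv ℝ F) p) (p + (0 : ℝ) • v) := by
    have : ContDiffAt ℝ 1 (fderiv ℝ F) p := hF.fderiv_right (m := 1) (by norm_num)
    simpa using (this.differentiableAt (by simp)).hasFDerivAt
  have h2 := (hd2.comp_hasDerivAt (0 : ℝ) (hl 0)).clm_apply (hasDerivAt_const (0 : ℝ) v)
  simpa using h2.deriv

end

theorem leviAlong_eq {F : (Fin 2 → ℂ) → ℝ} {p : Fin 2 → ℂ} (hF : ContDiffAt ℝ 2 F p)
    (ξ : Fin 2 → ℂ) : leviAlong F p ξ = fderiv ℝ (fderiv ℝ F) p ξ ξ +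
      fderiv ℝ (fderiv ℝ F) p (Complex.I • ξ) (Complex.I • ξ) := by
  unfold leviAlong secondDerivAlong
  rw [← deriv_deriv_line hF, ← deriv_deriv_line hF]
  simp only [Complex.coe_smul]

/-- mean value property for real-linear functionals of analytic maps, on small circles. -/
theorem avg_lin_analytic {E : Type*} [NormedAddCommGroup E] [NormedSpace ℂ E] [CompleteSpace E]
    (L : E →L[ℝ] ℝ) {η : ℂ → E} {c : ℂ} (hη : AnalyticAt ℂ η c) :
    ∀ᶠ r in 𝓝[>] (0 : ℝ), ContinuousOn (fun ζ => L (η ζ)) (sphere c r) ∧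
      Real.circleAverage (fun ζ => L (η ζ)) c r = L (η c) := by
  obtain ⟨ρ, hρ, hball⟩ := Metric.eventually_nhds_iff_ball.1 hη.eventually_analyticAt
  filter_upwards [Ioo_mem_nhdsGT hρ] with r hr
  have hsub : closedBall c r ⊆ ball c ρ := closedBall_subset_ball hr.2
  have hd : DifferentiableOn ℂ η (closedBall c r) := fun z hz =>
    (hball z (hsub hz)).differentiableAt.differentiableWithinAt
  have hcont : ContinuousOn η (sphere c r) := hd.continuousOn.mono sphere_subset_closedBall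
  refine ⟨L.continuous.comp_continuousOn hcont, ?_⟩
  have h1 : DiffContOnCl ℂ η (ball c |r|) := by
    rw [abs_of_pos hr.1]
    apply DifferentiableOn.diffContOnCl
    rwa [closure_ball c hr.1.ne']
  have h2 := L.circleAverage_comp_comm (f := η) (c := c) (R := r) (hcont.circleIntegrable hr.1.le)
  rw [h1.circleAverage] at h2
  exact h2

/-- a `C²` function with non-positive Levi form has, along a holomorphic disc, circle averages at
most its value at the centre, up to `o(r²)`. -/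
theorem avg_le_of_levi {F : (Fin 2 → ℂ) → ℝ} {φ : ℂ → Fin 2 → ℂ} {c : ℂ}
    (hφ : AnalyticAt ℂ φ c) (hF : ContDiffAt ℝ 2 F (φ c))
    (hL : leviAlong F (φ c) (deriv φ c) ≤ 0) {δ : ℝ} (hδ : 0 < δ) :
    ∀ᶠ r in 𝓝[>] (0 : ℝ), Real.circleAverage (fun ζ => F (φ ζ)) c r ≤ F (φ c) + δ * r ^ 2 := by
  set p := φ c with hp
  set ξ := deriv φ c with hξ
  set D1 := fderiv ℝ F p with hD1
  set D2 := fderiv ℝ (fderiv ℝ F) p with hD2
  rw [leviAlong_eq hF] at hL
  have hder : HasDerivAt φ ξ c := hφ.differentiableAt.hasDerivAt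
  have hcont : Tendsto φ (𝓝 c) (𝓝 p) := hφ.continuousAt.tendsto
  have hO : (fun ζ => φ ζ - p) =O[𝓝 c] fun ζ => ζ - c := hder.isBigO_sub
  have ho : (fun ζ => φ ζ - p - (ζ - c) • ξ) =o[𝓝 c] fun ζ => ζ - c := hder.isLittleO
  have hO' : (fun ζ => (ζ - c) • ξ) =O[𝓝 c] fun ζ => ζ - c := by
    apply IsBigO.of_bound ‖ξ‖
    filter_upwards with ζ
    rw [norm_smul, mul_comm]
  have h1 : (fun ζ => F (φ ζ) - F p - D1 (φ ζ - p) - (1 / 2) * D2 (φ ζ - p) (φ ζ - p)) =o[𝓝 c]
      fun ζ => ‖ζ - c‖ ^ 2 :=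
    ((taylor_two hF).comp_tendsto hcont).trans_isBigO (hO.norm_norm.pow 2)
  have hbil : ∀ {a b : ℂ → Fin 2 → ℂ}, (a =O[𝓝 c] fun ζ => ζ - c) → (b =o[𝓝 c] fun ζ => ζ - c) →
      ((fun ζ => D2 (a ζ) (b ζ)) =o[𝓝 c] fun ζ => ‖ζ - c‖ ^ 2) ∧
      ((fun ζ => D2 (b ζ) (a ζ)) =o[𝓝 c] fun ζ => ‖ζ - c‖ ^ 2) := by
    intro a b ha hb
    have hab : (fun ζ => ‖a ζ‖ * ‖b ζ‖) =o[𝓝 c] fun ζ => ‖ζ - c‖ ^ 2 := by
      simpa [pow_two] using ha.norm_norm.mul_isLittleO hb.norm_norm
    constructor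
    · refine IsBigO.trans_isLittleO (IsBigO.of_bound ‖D2‖ ?_) hab
      filter_upwards with ζ
      have := D2.le_opNorm₂ (a ζ) (b ζ)
      rw [Real.norm_of_nonneg (by positivity : 0 ≤ ‖a ζ‖ * ‖b ζ‖), ← mul_assoc]
      exact this
    · refine IsBigO.trans_isLittleO (IsBigO.of_bound ‖D2‖ ?_) hab
      filter_upwards with ζ
      have := D2.le_opNorm₂ (b ζ) (a ζ)
      rw [Real.norm_of_nonneg (by positivity : 0 ≤ ‖a ζ‖ * ‖b ζ‖), mul_comm ‖a ζ‖, ← mul_assoc]
      exact this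
  have h2 : (fun ζ => D2 (φ ζ - p) (φ ζ - p) - D2 ((ζ - c) • ξ) ((ζ - c) • ξ)) =o[𝓝 c]
      fun ζ => ‖ζ - c‖ ^ 2 := by
    refine IsLittleO.congr_left ((hbil hO ho).1.add (hbil hO' ho).2) fun ζ => ?_
    generalize φ ζ - p = a
    generalize (ζ - c) • ξ = b
    simp only [map_sub, sub_apply]
    ring
  have h3 : (fun ζ => F (φ ζ) - F p - D1 (φ ζ - p) -
      (1 / 2) * D2 ((ζ - c) • ξ) ((ζ - c) • ξ)) =o[𝓝 c] fun ζ => ‖ζ - c‖ ^ 2 := by
    refine IsLittleO.congr_left (h1.add (h2.const_mul_left (1 / 2))) fun ζ => ?_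
    ring
  set A := D2 ξ ξ with hA
  set C := D2 (Complex.I • ξ) (Complex.I • ξ) with hC
  set B := D2 ξ (Complex.I • ξ) + D2 (Complex.I • ξ) ξ with hB
  let κ : ℂ := ⟨(A - C) / 4, -B / 4⟩
  have hquad : ∀ t : ℂ, (1 / 2) * D2 (t • ξ) (t • ξ) = (A + C) / 4 * ‖t‖ ^ 2 + (κ * t ^ 2).re := by
    intro t
    have ht : t • ξ = t.re • ξ + t.im • (Complex.I • ξ) := by
      conv_lhs => rw [← Complex.re_add_im t]
      rw [add_smul, mul_smul]
      simp only [Complex.coe_smul]
    rw [ht, Complex.sq_norm, Complex.normSq_apply]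
    simp only [map_add, map_smul, add_apply, smul_apply,
      smul_eq_mul, pow_two, Complex.mul_re, Complex.mul_im, κ]
    rw [hA, hB, hC]
    ring
  have h4 : ∀ᶠ ζ in 𝓝 c, F (φ ζ) ≤ F p + D1 (φ ζ - p) + Complex.reCLM (κ * (ζ - c) ^ 2) +
      δ * ‖ζ - c‖ ^ 2 := by
    filter_upwards [h3.bound hδ] with ζ hζ
    rw [hquad, Real.norm_of_nonneg (by positivity : 0 ≤ ‖ζ - c‖ ^ 2)] at hζ
    have h5 := (le_abs_self _).trans hζ
    have h6 : (A + C) / 4 * ‖ζ - c‖ ^ 2 ≤ 0 :=
      mul_nonpos_of_nonpos_of_nonneg (by linarith) (by positivity)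
    simp only [Complex.reCLM_apply]
    linarith
  have h5 : ∀ᶠ ζ in 𝓝 c, ContinuousAt (fun ζ => F (φ ζ)) ζ := by
    filter_upwards [hφ.eventually_analyticAt, hcont.eventually (hF.eventually (by simp))]
      with ζ h1 h2
    exact h2.continuousAt.comp h1.continuousAt
  obtain ⟨ρ, hρ, hball⟩ := Metric.eventually_nhds_iff_ball.1 (h4.and h5)
  have ha1 : AnalyticAt ℂ (fun ζ => φ ζ - p) c := hφ.sub analyticAt_const
  have ha2 : AnalyticAt ℂ (fun ζ => κ * (ζ - c) ^ 2) c := by fun_prop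
  filter_upwards [Ioo_mem_nhdsGT hρ, avg_lin_analytic D1 ha1, avg_lin_analytic Complex.reCLM ha2]
    with r hr ⟨hc1, he1⟩ ⟨hc2, he2⟩
  have hsub : sphere c r ⊆ ball c ρ := sphere_subset_ball hr.2
  have hi0 : CircleIntegrable (fun ζ => F (φ ζ)) c r :=
    ContinuousOn.circleIntegrable hr.1.le fun z hz => (hball z (hsub hz)).2.continuousWithinAt
  have hi1 := hc1.circleIntegrable hr.1.le
  have hi2 := hc2.circleIntegrable hr.1.le
  have hi3 : CircleIntegrable (fun _ : ℂ => F p + δ * r ^ 2) c r := circleIntegrable_const _ _ _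
  calc Real.circleAverage (fun ζ => F (φ ζ)) c r
      ≤ Real.circleAverage (fun ζ => (F p + δ * r ^ 2) + D1 (φ ζ - p) +
          Complex.reCLM (κ * (ζ - c) ^ 2)) c r := by
        apply Real.circleAverage_mono hi0 ((hi3.add hi1).add hi2)
        intro z hz
        rw [abs_of_pos hr.1] at hz
        have := (hball z (hsub hz)).1
        rw [mem_sphere_iff_norm.1 hz] at this
        simp only [Pi.add_apply]
        linarith
    _ = F p + δ * r ^ 2 := by
        have hi4 : CircleIntegrable (fun ζ => (F p + δ * r ^ 2) + D1 (φ ζ - p)) c r := hi3.add hi1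
        rw [Real.circleAverage_fun_add hi4 hi2, Real.circleAverage_fun_add hi3 hi1,
          he1, he2, Real.circleAverage_const]
        simp [hp]

end Crest.Agent.R258

end
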