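import Crest.Agent.R258.Defs

/-! Sub-mean value functions of one complex variable: closure properties, maximum principle,
Poisson majorant. -/

set_option autoImplicit false

noncomputable section

namespace Crest.Agent.R258

open Filter Topology Metric Set

/-- a property holding near `c` holds on all small closed discs around `c`. -/
theorem eventually_closedBall {P : ℂ → Prop} {c : ℂ} (h : ∀ᶠ ζ in 𝓝 c, P ζ) :
    ∀ᶠ r in 𝓝[>] (0 : ℝ), 0 < r ∧ ∀ ζ ∈ closedBall c r, P ζ := by
  obtain ⟨ε, hε, hball⟩ := Metric.eventually_nhds_iff_ball.1 h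
  filter_upwards [Ioo_mem_nhdsGT hε] with r hr
  exact ⟨hr.1, fun ζ hζ => hball ζ (closedBall_subset_ball hr.2 hζ)⟩

theorem circleIntegrable_of_forall_continuousAt {E : Type*} [NormedAddCommGroup E]
    {u : ℂ → E} {c : ℂ} {r : ℝ} (hr : 0 < r)
    (h : ∀ ζ ∈ closedBall c r, ContinuousAt u ζ) : CircleIntegrable u c r :=
  ContinuousOn.circleIntegrable hr.le fun ζ hζ =>
    (h ζ (sphere_subset_closedBall hζ)).continuousWithinAt

theorem LSM.eventually_circleIntegrable {u : ℂ → ℝ} {c : ℂ} (h : LSM u c) :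
    ∀ᶠ r in 𝓝[>] (0 : ℝ), CircleIntegrable u c r := by
  filter_upwards [eventually_closedBall h.1] with r hr
  exact circleIntegrable_of_forall_continuousAt hr.1 hr.2

theorem LSM.congr {u v : ℂ → ℝ} {c : ℂ} (h : LSM u c) (huv : u =ᶠ[𝓝 c] v) : LSM v c := by
  refine ⟨?_, fun δ hδ => ?_⟩
  · filter_upwards [h.1, huv.eventuallyEq_nhds] with ζ h1 h2
    exact h1.congr h2
  · filter_upwards [h.2 δ hδ, eventually_closedBall huv] with r h1 h2
    rw [← huv.self_of_nhds, ← Real.circleAverage_congr_sphere (f₁ := u) (f₂ := v)]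
    · exact h1
    · intro ζ hζ
      rw [abs_of_pos h2.1] at hζ
      exact h2.2 ζ (sphere_subset_closedBall hζ)

theorem LSM.add {u v : ℂ → ℝ} {c : ℂ} (hu : LSM u c) (hv : LSM v c) :
    LSM (fun ζ => u ζ + v ζ) c := by
  refine ⟨?_, fun δ hδ => ?_⟩
  · filter_upwards [hu.1, hv.1] with ζ h1 h2
    exact h1.add h2
  · filter_upwards [hu.2 (δ / 2) (by positivity), hv.2 (δ / 2) (by positivity),
      hu.eventually_circleIntegrable, hv.eventually_circleIntegrable] with r h1 h2 h3 h4
    rw [Real.circleAverage_fun_add h3 h4]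
    linarith

theorem LSM.const_mul {u : ℂ → ℝ} {c : ℂ} (hu : LSM u c) {a : ℝ} (ha : 0 ≤ a) :
    LSM (fun ζ => a * u ζ) c := by
  refine ⟨?_, fun δ hδ => ?_⟩
  · filter_upwards [hu.1] with ζ h1
    exact continuousAt_const.mul h1
  · have ha1 : 0 < a + 1 := by linarith
    filter_upwards [hu.2 (δ / (a + 1)) (by positivity)] with r h1
    have e : Real.circleAverage (fun ζ => a * u ζ) c r = a * Real.circleAverage u c r :=
      Real.circleAverage_fun_smul (a := a) (f := u)
    rw [e]
    have h2 := mul_le_mul_of_nonneg_left h1 ha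
    have h3 : a * (δ / (a + 1) * r ^ 2) ≤ δ * r ^ 2 := by
      rw [← mul_assoc]
      refine mul_le_mul_of_nonneg_right ?_ (sq_nonneg r)
      rw [← mul_div_assoc, div_le_iff₀ ha1]
      nlinarith
    linarith [mul_add a (Real.circleAverage u c r) (δ / (a + 1) * r ^ 2)]

theorem LSM.const (a : ℝ) (c : ℂ) : LSM (fun _ => a) c := by
  refine ⟨Eventually.of_forall fun _ => continuousAt_const, fun δ hδ => ?_⟩
  refine Eventually.of_forall fun r => ?_
  rw [Real.circleAverage_const]
  have : 0 ≤ δ * r ^ 2 := by positivity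
  linarith

theorem LSM.sum {ι : Type*} (s : Finset ι) {u : ι → ℂ → ℝ} {c : ℂ} (hu : ∀ i ∈ s, LSM (u i) c) :
    LSM (fun ζ => ∑ i ∈ s, u i ζ) c := by
  classical
  induction s using Finset.induction_on with
  | empty => simpa using LSM.const 0 c
  | insert a s ha ih =>
    simp only [Finset.sum_insert ha]
    exact (hu a (Finset.mem_insert_self a s)).add
      (ih fun i hi => hu i (Finset.mem_insert_of_mem hi))

/-- the real part of an analytic function has the (exact) mean value property. -/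
theorem LSM.re {F : ℂ → ℂ} {c : ℂ} (hF : AnalyticAt ℂ F c) : LSM (fun ζ => (F ζ).re) c := by
  refine ⟨?_, fun δ hδ => ?_⟩
  · filter_upwards [hF.eventually_analyticAt] with ζ h1
    exact Complex.continuous_re.continuousAt.comp h1.continuousAt
  · filter_upwards [eventually_closedBall hF.eventually_analyticAt] with r hr
    have hint : CircleIntegrable F c r :=
      circleIntegrable_of_forall_continuousAt hr.1 fun ζ hζ => (hr.2 ζ hζ).continuousAt
    have hd : DiffContOnCl ℂ F (ball c |r|) := by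
      rw [abs_of_pos hr.1]
      refine DifferentiableOn.diffContOnCl ?_
      rw [closure_ball c hr.1.ne']
      exact fun ζ hζ => (hr.2 ζ hζ).differentiableAt.differentiableWithinAt
    have e : Real.circleAverage (fun ζ => (F ζ).re) c r = (F c).re := by
      rw [← hd.circleAverage]
      exact Complex.reCLM.circleAverage_comp_comm hint
    rw [e]
    have : 0 ≤ δ * r ^ 2 := by positivity
    linarith

theorem LSM.sub_re {u : ℂ → ℝ} {c : ℂ} (hu : LSM u c) {F : ℂ → ℂ} (hF : AnalyticAt ℂ F c) :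
    LSM (fun ζ => u ζ - (F ζ).re) c := by
  have h := hu.add (LSM.re hF.neg)
  simpa [sub_eq_add_neg] using h

/-- maximum principle on a compact piece of a curve lying over the `ζ`-plane.
Proof: if `u c₀ > M`, maximise `u + δ ‖π‖²` over `K` for a small `δ`. -/
theorem maxPrinciple {Z : Type*} [TopologicalSpace Z] {K : Set Z} (hK : IsCompact K)
    (π : Z → ℂ) (hπ : ContinuousOn π K) (u : Z → ℝ) (hu : ContinuousOn u K) (M : ℝ)
    (h : ∀ c ∈ K, u c ≤ M ∨ ∃ γ : ℂ → Z, γ (π c) = c ∧
      (∀ᶠ ζ in 𝓝 (π c), γ ζ ∈ K ∧ π (γ ζ) = ζ) ∧ LSM (fun ζ => u (γ ζ)) (π c)) :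
    ∀ c ∈ K, u c ≤ M := by
  intro c₀ hc₀
  by_contra hlt
  push Not at hlt
  have hn : ContinuousOn (fun z => ‖π z‖ ^ 2) K := hπ.norm.pow 2
  obtain ⟨b, hb, hbmax⟩ := hK.exists_isMaxOn ⟨c₀, hc₀⟩ hn
  set B : ℝ := ‖π b‖ ^ 2 + 1 with hB
  have hBpos : 0 < B := by positivity
  set δ : ℝ := (u c₀ - M) / B with hδ
  have hδpos : 0 < δ := div_pos (by linarith) hBpos
  have hδB : δ * B = u c₀ - M := div_mul_cancel₀ _ hBpos.ne'
  have hv : ContinuousOn (fun z => u z + δ * ‖π z‖ ^ 2) K := hu.add (continuousOn_const.mul hn)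
  obtain ⟨c₁, hc₁, hmax⟩ := hK.exists_isMaxOn ⟨c₀, hc₀⟩ hv
  have h1 : u c₀ + δ * ‖π c₀‖ ^ 2 ≤ u c₁ + δ * ‖π c₁‖ ^ 2 := hmax hc₀
  have h2 : ‖π c₁‖ ^ 2 ≤ ‖π b‖ ^ 2 := hbmax hc₁
  have h3 : M < u c₁ := by
    have h4 : 0 ≤ δ * ‖π c₀‖ ^ 2 := by positivity
    have h5 : δ * ‖π c₁‖ ^ 2 < δ * B := mul_lt_mul_of_pos_left (by rw [hB]; linarith) hδpos
    linarith
  rcases h c₁ hc₁ with hle | ⟨γ, hγ, hev, hL⟩
  · linarith
  set a : ℂ := π c₁ with ha
  have hF : AnalyticAt ℂ (fun ζ : ℂ => -(2 * (δ : ℂ) * (starRingEnd ℂ) a * (ζ - a))) a := by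
    fun_prop
  have hL' := hL.sub_re hF
  obtain ⟨r, hr1, hr2, hr3⟩ := ((hL'.2 (δ / 2) (by positivity)).and
    ((eventually_closedBall hev).and hL'.eventually_circleIntegrable)).exists
  have hle : Real.circleAverage (fun ζ => u (γ ζ) -
      (-(2 * (δ : ℂ) * (starRingEnd ℂ) a * (ζ - a))).re) a r ≤ u c₁ - δ * r ^ 2 := by
    refine Real.circleAverage_mono_on_of_le_circle hr3 fun ζ hζ => ?_
    rw [abs_of_pos hr2.1] at hζ
    obtain ⟨hK', hπγ⟩ := hr2.2 ζ (sphere_subset_closedBall hζ)
    have h6 : u (γ ζ) + δ * ‖π (γ ζ)‖ ^ 2 ≤ u c₁ + δ * ‖a‖ ^ 2 := hmax hK'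
    rw [hπγ] at h6
    have h7 : ‖ζ - a‖ = r := mem_sphere_iff_norm.1 hζ
    have h8 : ‖ζ‖ ^ 2 = ‖a‖ ^ 2 + r ^ 2 + 2 * ((starRingEnd ℂ) a * (ζ - a)).re := by
      rw [← h7, Complex.sq_norm, Complex.sq_norm, Complex.sq_norm]
      simp only [Complex.normSq_apply, Complex.mul_re, Complex.conj_re, Complex.conj_im,
        Complex.sub_re, Complex.sub_im]
      ring
    have h9 : (-(2 * (δ : ℂ) * (starRingEnd ℂ) a * (ζ - a))).re =
        -(δ * (2 * ((starRingEnd ℂ) a * (ζ - a)).re)) := by
      simp only [Complex.neg_re, Complex.mul_re, Complex.mul_im, Complex.conj_re, Complex.conj_im,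
        Complex.sub_re, Complex.sub_im, Complex.ofReal_re, Complex.ofReal_im, Complex.re_ofNat,
        Complex.im_ofNat]
      ring
    rw [h9]
    rw [h8] at h6
    nlinarith
  simp only [hγ, sub_self, mul_zero, neg_zero, Complex.zero_re, sub_zero] at hr1
  have h10 : 0 < δ * r ^ 2 := by have := hr2.1; positivity
  linarith

/-- trigonometric polynomials are of the form `F + conj G` with `F`, `G` entire. -/
theorem exists_entire_of_mem_span_fourier {p : C(AddCircle (2 * Real.pi), ℂ)}
    (hp : p ∈ Submodule.span ℂ (range (@fourier (2 * Real.pi)))) :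
    ∃ F G : ℂ → ℂ, Differentiable ℂ F ∧ Differentiable ℂ G ∧
      ∀ x, p x = F (fourier 1 x) + (starRingEnd ℂ) (G (fourier 1 x)) := by
  have hpow : ∀ (k : ℕ) (x : AddCircle (2 * Real.pi)), fourier (k : ℤ) x = fourier 1 x ^ k := by
    intro k x
    induction k with
    | zero => simp
    | succ k ih => rw [Nat.cast_succ, fourier_add, ih, pow_succ]
  induction hp using Submodule.span_induction with
  | mem p hp =>
    obtain ⟨n, rfl⟩ := hp
    obtain ⟨k, rfl | rfl⟩ := Int.eq_nat_or_neg n
    · exact ⟨fun z => z ^ k, fun _ => 0, by fun_prop, by fun_prop, fun x => by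
        rw [hpow, map_zero, add_zero]⟩
    · exact ⟨fun _ => 0, fun z => z ^ k, by fun_prop, by fun_prop, fun x => by
        rw [fourier_neg, hpow, zero_add]⟩
  | zero => exact ⟨fun _ => 0, fun _ => 0, by fun_prop, by fun_prop, fun x => by simp⟩
  | add p q _ _ hp hq =>
    obtain ⟨F, G, hF, hG, e⟩ := hp
    obtain ⟨F', G', hF', hG', e'⟩ := hq
    refine ⟨fun z => F z + F' z, fun z => G z + G' z, hF.add hF', hG.add hG', fun x => ?_⟩
    rw [ContinuousMap.add_apply, e, e', map_add]
    ring
  | smul a p _ hp =>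
    obtain ⟨F, G, hF, hG, e⟩ := hp
    refine ⟨fun z => a * F z, fun z => (starRingEnd ℂ) a * G z, hF.const_mul _, hG.const_mul _,
      fun x => ?_⟩
    rw [ContinuousMap.smul_apply, e, map_mul, Complex.conj_conj, smul_eq_mul]
    ring

/-- a continuous real function on a circle is a uniform limit of real parts of entire
functions. -/
theorem exists_entire_re_near {u : ℂ → ℝ} {c : ℂ} {R : ℝ} (hR : 0 < R)
    (hu : ContinuousOn u (sphere c R)) {ε : ℝ} (hε : 0 < ε) :
    ∃ H : ℂ → ℂ, Differentiable ℂ H ∧ ∀ z ∈ sphere c R, |u z - (H z).re| ≤ ε := by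
  have : Fact (0 < 2 * Real.pi) := ⟨Real.two_pi_pos⟩
  have hmem : ∀ x : AddCircle (2 * Real.pi), c + R * fourier 1 x ∈ sphere c R := by
    intro x
    rw [mem_sphere_iff_norm, add_sub_cancel_left, norm_mul, fourier_one, Circle.norm_coe,
      Complex.norm_real, Real.norm_eq_abs, abs_of_pos hR, mul_one]
  have hcont : Continuous fun x : AddCircle (2 * Real.pi) => u (c + R * fourier 1 x) :=
    hu.comp_continuous (by fun_prop) hmem
  let g : C(AddCircle (2 * Real.pi), ℂ) :=
    ⟨fun x => (u (c + R * fourier 1 x) : ℂ), Complex.continuous_ofReal.comp hcont⟩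
  have hg : g ∈ closure (Submodule.span ℂ (range (@fourier (2 * Real.pi))) :
      Set C(AddCircle (2 * Real.pi), ℂ)) := by
    rw [← Submodule.topologicalClosure_coe, span_fourier_closure_eq_top]
    trivial
  obtain ⟨p, hp, hdist⟩ := Metric.mem_closure_iff.1 hg ε hε
  obtain ⟨F, G, hF, hG, e⟩ := exists_entire_of_mem_span_fourier hp
  have hR' : (R : ℂ) ≠ 0 := Complex.ofReal_ne_zero.2 hR.ne'
  refine ⟨fun z => F ((z - c) / R) + G ((z - c) / R), by fun_prop, fun z hz => ?_⟩
  have hz' : z ∈ range (circleMap c R) := by rwa [range_circleMap, abs_of_pos hR]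
  obtain ⟨θ, rfl⟩ := hz'
  have hπ : (Real.pi : ℂ) ≠ 0 := Complex.ofReal_ne_zero.2 Real.pi_ne_zero
  have h1 : fourier 1 ((θ : ℝ) : AddCircle (2 * Real.pi)) = Complex.exp (θ * Complex.I) := by
    rw [fourier_coe_apply]
    congr 1
    push_cast
    field_simp
  have h2 : c + R * fourier 1 ((θ : ℝ) : AddCircle (2 * Real.pi)) = circleMap c R θ := by
    rw [h1, circleMap]
  have h3 : (circleMap c R θ - c) / R = fourier 1 ((θ : ℝ) : AddCircle (2 * Real.pi)) := by
    rw [← h2]
    field_simp
    ring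
  have h4 := (ContinuousMap.dist_apply_le_dist (f := g) (g := p)
    ((θ : ℝ) : AddCircle (2 * Real.pi))).trans hdist.le
  rw [dist_eq_norm, e] at h4
  refine le_trans ?_ h4
  refine le_trans (le_of_eq ?_) (Complex.abs_re_le_norm _)
  simp only [g, ContinuousMap.coe_mk, h2, h3, Complex.sub_re, Complex.add_re, Complex.ofReal_re,
    Complex.conj_re]

theorem continuousOn_poissonKernel {c w : ℂ} {R : ℝ} (hw : w ∈ ball c R) :
    ContinuousOn (poissonKernel c w) (sphere c R) := by
  have hR : 0 < R := pos_of_mem_ball hw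
  have h := continuousOn_herglotzRieszKernel_sphere hw
  rw [abs_of_pos hR] at h
  rw [poissonKernel_eq_re_herglotzRieszKernel]
  exact Complex.continuous_re.comp_continuousOn h

theorem poissonKernel_le {c w z : ℂ} {R : ℝ} (hz : z ∈ sphere c R) (hw : w ∈ ball c R) :
    poissonKernel c w z ≤ (R + ‖w - c‖) / (R - ‖w - c‖) := by
  rw [poissonKernel_eq_re_herglotzRieszKernel]
  exact re_herglotzRieszKernel_le hz hw

theorem le_poissonKernel {c w z : ℂ} {R : ℝ} (hz : z ∈ sphere c R) (hw : w ∈ ball c R) :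
    (R - ‖w - c‖) / (R + ‖w - c‖) ≤ poissonKernel c w z := by
  rw [poissonKernel_eq_re_herglotzRieszKernel]
  exact le_re_herglotzRieszKernel hz hw

theorem poissonKernel_nonneg {c w z : ℂ} {R : ℝ} (hz : z ∈ sphere c R) (hw : w ∈ ball c R) :
    0 ≤ poissonKernel c w z := by
  refine le_trans ?_ (le_poissonKernel hz hw)
  have h := mem_ball_iff_norm.1 hw
  have h' := norm_nonneg (w - c)
  exact div_nonneg (by linarith) (by linarith)

/-- Poisson formula for the real part of an entire function. -/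
theorem circleAverage_poissonKernel_mul_re {c w : ℂ} {R : ℝ} (hw : w ∈ ball c R) {H : ℂ → ℂ}
    (hH : Differentiable ℂ H) :
    Real.circleAverage (fun z => poissonKernel c w z * (H z).re) c R = (H w).re := by
  have hR : 0 < R := pos_of_mem_ball hw
  have h1 := (hH.diffContOnCl (s := ball c R)).circleAverage_poissonKernel_smul hw
  have h2 : CircleIntegrable (poissonKernel c w • H) c R :=
    ContinuousOn.circleIntegrable hR.le
      ((continuousOn_poissonKernel hw).smul hH.continuous.continuousOn)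
  have h3 := Complex.reCLM.circleAverage_comp_comm h2
  rw [h1] at h3
  rw [← Complex.reCLM_apply (H w), ← h3]
  congr 1
  funext z
  simp

theorem circleAverage_poissonKernel_mul_const {c w : ℂ} {R : ℝ} (hw : w ∈ ball c R) (a : ℝ) :
    Real.circleAverage (fun z => poissonKernel c w z * a) c R = a := by
  simpa using circleAverage_poissonKernel_mul_re hw (H := fun _ => (a : ℂ)) (by fun_prop)

/-- Poisson majorant.  Proof: approximate `u` on the circle uniformly by a trigonometric
polynomial (`span_fourier_closure_eq_top`), i.e. by `re F` with `F` entire, apply the maximum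
principle to `u - re F` and the Poisson formula to `F`. -/
theorem le_poisson {u : ℂ → ℝ} {c : ℂ} {R : ℝ} (hR : 0 < R)
    (hu : ContinuousOn u (closedBall c R)) (h : ∀ ζ ∈ ball c R, LSM u ζ) {w : ℂ}
    (hw : w ∈ ball c R) :
    u w ≤ Real.circleAverage (fun z => poissonKernel c w z * u z) c R := by
  refine le_of_forall_pos_le_add fun ε hε => ?_
  have hus : ContinuousOn u (sphere c R) := hu.mono sphere_subset_closedBall
  obtain ⟨H, hH, hnear⟩ := exists_entire_re_near hR hus (half_pos hε)
  have hHre : Continuous fun z => (H z).re := Complex.continuous_re.comp hH.continuous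
  have hmax := maxPrinciple (isCompact_closedBall c R) id continuousOn_id
    (fun z => u z - (H z).re) (hu.sub hHre.continuousOn) (ε / 2) (by
      intro z hz
      rcases (mem_closedBall.1 hz).eq_or_lt with heq | hlt
      · exact Or.inl ((le_abs_self _).trans (hnear z heq))
      · refine Or.inr ⟨id, rfl, ?_, (h z hlt).sub_re (hH.analyticAt z)⟩
        filter_upwards [isOpen_ball.mem_nhds (mem_ball.2 hlt)] with ζ hζ
        exact ⟨ball_subset_closedBall hζ, rfl⟩) w (ball_subset_closedBall hw)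
  have hP := continuousOn_poissonKernel hw
  have i1 : CircleIntegrable (fun z => poissonKernel c w z * (H z).re) c R :=
    ContinuousOn.circleIntegrable hR.le (hP.mul hHre.continuousOn)
  have i2 : CircleIntegrable (fun z => poissonKernel c w z * u z) c R :=
    ContinuousOn.circleIntegrable hR.le (hP.mul hus)
  have i3 : CircleIntegrable (fun z => poissonKernel c w z * (ε / 2)) c R :=
    ContinuousOn.circleIntegrable hR.le (hP.mul continuousOn_const)
  have hle : Real.circleAverage (fun z => poissonKernel c w z * (H z).re) c R ≤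
      Real.circleAverage (fun z => poissonKernel c w z * u z + poissonKernel c w z * (ε / 2))
        c R := by
    refine Real.circleAverage_mono i1 (i2.add i3) fun z hz => ?_
    rw [abs_of_pos hR] at hz
    rw [← mul_add]
    refine mul_le_mul_of_nonneg_left ?_ (poissonKernel_nonneg hz hw)
    have := (abs_le.1 (hnear z hz)).1
    linarith
  rw [circleAverage_poissonKernel_mul_re hw hH, Real.circleAverage_fun_add i2 i3,
    circleAverage_poissonKernel_mul_const hw] at hle
  have hmax' : u w - (H w).re ≤ ε / 2 := hmax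
  linarith

theorem harnack_le {u : ℂ → ℝ} {c : ℂ} {R : ℝ} (hR : 0 < R)
    (hu : ContinuousOn u (closedBall c R)) (h : ∀ ζ ∈ ball c R, LSM u ζ)
    (h0 : ∀ ζ ∈ sphere c R, 0 ≤ u ζ) {w : ℂ} (hw : w ∈ ball c R) :
    u w ≤ (R + ‖w - c‖) / (R - ‖w - c‖) * Real.circleAverage u c R := by
  have hus : ContinuousOn u (sphere c R) := hu.mono sphere_subset_closedBall
  refine (le_poisson hR hu h hw).trans ?_
  have e : Real.circleAverage (fun z => (R + ‖w - c‖) / (R - ‖w - c‖) * u z) c R =
      (R + ‖w - c‖) / (R - ‖w - c‖) * Real.circleAverage u c R :=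
    Real.circleAverage_fun_smul (a := (R + ‖w - c‖) / (R - ‖w - c‖)) (f := u)
  rw [← e]
  refine Real.circleAverage_mono
    (ContinuousOn.circleIntegrable hR.le ((continuousOn_poissonKernel hw).mul hus))
    (ContinuousOn.circleIntegrable hR.le (continuousOn_const.mul hus)) fun z hz => ?_
  rw [abs_of_pos hR] at hz
  exact mul_le_mul_of_nonneg_right (poissonKernel_le hz hw) (h0 z hz)

theorem le_sub_deficit {u : ℂ → ℝ} {c : ℂ} {R : ℝ} (hR : 0 < R)
    (hu : ContinuousOn u (closedBall c R)) (h : ∀ ζ ∈ ball c R, LSM u ζ)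
    {χ : ℂ → ℝ} (hχ : ContinuousOn χ (sphere c R)) (hχ0 : ∀ ζ ∈ sphere c R, 0 ≤ χ ζ) {M : ℝ}
    (hM : ∀ ζ ∈ sphere c R, u ζ ≤ M - χ ζ) {w : ℂ} (hw : w ∈ ball c R) :
    u w ≤ M - (R - ‖w - c‖) / (R + ‖w - c‖) * Real.circleAverage χ c R := by
  have hus : ContinuousOn u (sphere c R) := hu.mono sphere_subset_closedBall
  refine (le_poisson hR hu h hw).trans ?_
  have hP := continuousOn_poissonKernel hw
  have e : Real.circleAverage (fun z => (R - ‖w - c‖) / (R + ‖w - c‖) * χ z) c R =
      (R - ‖w - c‖) / (R + ‖w - c‖) * Real.circleAverage χ c R :=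
    Real.circleAverage_fun_smul (a := (R - ‖w - c‖) / (R + ‖w - c‖)) (f := χ)
  have i1 : CircleIntegrable (fun z => poissonKernel c w z * M) c R :=
    ContinuousOn.circleIntegrable hR.le (hP.mul continuousOn_const)
  have i2 : CircleIntegrable (fun z => (R - ‖w - c‖) / (R + ‖w - c‖) * χ z) c R :=
    ContinuousOn.circleIntegrable hR.le (continuousOn_const.mul hχ)
  rw [← e, ← circleAverage_poissonKernel_mul_const hw M, ← Real.circleAverage_fun_sub i1 i2]
  refine Real.circleAverage_mono (ContinuousOn.circleIntegrable hR.le (hP.mul hus))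
    (i1.sub i2) fun z hz => ?_
  rw [abs_of_pos hR] at hz
  have h1 := mul_le_mul_of_nonneg_left (hM z hz) (poissonKernel_nonneg hz hw)
  have h2 := mul_le_mul_of_nonneg_right (le_poissonKernel hz hw) (hχ0 z hz)
  rw [mul_sub] at h1
  linarith

end Crest.Agent.R258

end
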