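import Crest.Agent.R258.Defs

/-! Algebra of the generic trivialisation, and Hermitian forms. -/

set_option autoImplicit false

noncomputable section

namespace Crest.Agent.R258

open Filter Topology Metric Set

theorem isOpen_good : IsOpen {p : Pt | good p} := by
  have h1 : IsOpen {p : Pt | p.1 ≠ 0} := isOpen_ne_fun (by fun_prop) (by fun_prop)
  have h2 : IsOpen {p : Pt | p.2.1 ≠ 0} := isOpen_ne_fun (by fun_prop) (by fun_prop)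
  have h3 : IsOpen {p : Pt | p.2.1 ^ 4 ≠ 1} := isOpen_ne_fun (by fun_prop) (by fun_prop)
  exact h1.inter (h2.inter h3)

theorem alg_sq_ne {Y : ℂ} (h : Y ^ 4 ≠ 1) : Y ^ 2 - 1 ≠ 0 ∧ Y ^ 2 + 1 ≠ 0 :=
  ⟨fun h' => h (by linear_combination (Y ^ 2 + 1) * h'),
    fun h' => h (by linear_combination (Y ^ 2 - 1) * h')⟩

theorem alg_bb_Psi (Y W₀ W₂ W₃ : ℂ) : bb Y (Psi Y W₀ W₂ W₃) 0 = Y ^ 5 * W₀ ∧
    bb Y (Psi Y W₀ W₂ W₃) 2 = (Y ^ 2 - 1) ^ 2 * W₂ ∧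
    bb Y (Psi Y W₀ W₂ W₃) 3 = -((Y ^ 2 + 1) ^ 2 * W₃) := by
  refine ⟨?_, ?_, ?_⟩ <;> simp only [bb, Psi, Matrix.cons_val_zero, Matrix.cons_val] <;> ring

theorem alg_bb_rel (Y : ℂ) (w : Wt) : bb Y w 0 + bb Y w 2 = bb Y w 1 + bb Y w 3 := by
  simp only [bb, Matrix.cons_val_zero, Matrix.cons_val_one, Matrix.cons_val]; ring

theorem over_zz (p : Pt) (hp : good p) : Over p.2.1 (wq p) (zz p) := by
  obtain ⟨-, hY, hY'⟩ := hp
  obtain ⟨h1, h2⟩ := alg_sq_ne hY'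
  obtain ⟨a0, a2, a3⟩ := alg_bb_Psi p.2.1 (zz p 0 ^ 2 / p.2.1 ^ 5)
    (zz p 2 ^ 2 / (p.2.1 ^ 2 - 1) ^ 2) (-(zz p 3 ^ 2) / (p.2.1 ^ 2 + 1) ^ 2)
  have b0 : zz p 0 ^ 2 = bb p.2.1 (wq p) 0 := by rw [wq, a0]; field_simp
  have b2 : zz p 2 ^ 2 = bb p.2.1 (wq p) 2 := by rw [wq, a2]; field_simp
  have b3 : zz p 3 ^ 2 = bb p.2.1 (wq p) 3 := by rw [wq, a3]; field_simp
  have b1 : zz p 1 ^ 2 = bb p.2.1 (wq p) 1 := by
    have r := alg_bb_rel p.2.1 (wq p)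
    have r' : zz p 0 ^ 2 + zz p 2 ^ 2 = zz p 1 ^ 2 + zz p 3 ^ 2 := by simp [zz]; ring
    linear_combination r - r' + b0 + b2 - b3
  intro i
  fin_cases i
  exacts [b0, b1, b2, b3]

theorem bb_rel (Y : ℂ) (w : Wt) : bb Y w 0 + bb Y w 2 = bb Y w 1 + bb Y w 3 := by
  exact alg_bb_rel Y w

theorem good_of_RR {Y : ℂ} {w : Wt} (hR : RR Y w ≠ 0) : Y ≠ 0 ∧ Y ^ 4 ≠ 1 := by
  refine ⟨fun h => hR ?_, fun h => hR ?_⟩
  · simp [RR, bb, h]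
  · have h1 : (Y ^ 2 - 1) * (Y ^ 2 + 1) = 0 := by linear_combination h
    rcases mul_eq_zero.1 h1 with h2 | h2
    · simp [RR, bb, h2]
    · simp [RR, bb, h2]

theorem bb_ne_of_RR {Y : ℂ} {w : Wt} (hR : RR Y w ≠ 0) :
    (∀ i, bb Y w i ≠ 0) ∧ bb Y w 1 - bb Y w 0 ≠ 0 := by
  simp only [RR, ne_eq, mul_eq_zero, not_or, pow_eq_zero_iff (two_ne_zero)] at hR
  obtain ⟨⟨⟨⟨h0, h1⟩, h2⟩, h3⟩, h4⟩ := hR
  refine ⟨fun i => ?_, h4⟩
  fin_cases i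
  exacts [h0, h1, h2, h3]

theorem alg_over_facts {Y : ℂ} {w : Wt} {z : Fin 4 → ℂ} (hz : Over Y w z)
    (hD : bb Y w 1 - bb Y w 0 ≠ 0) :
    z 0 ^ 2 + z 2 ^ 2 = z 1 ^ 2 + z 3 ^ 2 ∧ z 0 + z 1 ≠ 0 ∧ z 2 - z 3 ≠ 0 := by
  have r : z 0 ^ 2 + z 2 ^ 2 = z 1 ^ 2 + z 3 ^ 2 := by
    rw [hz 0, hz 1, hz 2, hz 3, bb_rel]
  rw [← hz 0, ← hz 1] at hD
  exact ⟨r, fun h => hD (by linear_combination (z 1 - z 0) * h),
    fun h => hD (by linear_combination (z 2 + z 3) * h - r)⟩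

/-- only `z 1 ^ 2 ≠ z 0 ^ 2` is needed (not `RR ≠ 0`: this is also used at the branch point). -/
theorem zz_kap {Y : ℂ} {w : Wt} {z : Fin 4 → ℂ} (hz : Over Y w z)
    (hD : bb Y w 1 - bb Y w 0 ≠ 0) : zz (kap Y z) = z ∧ (kap Y z).1 ≠ 0 := by
  obtain ⟨r, hs, hd⟩ := alg_over_facts hz hD
  refine ⟨?_, div_ne_zero hd hs⟩
  funext i
  fin_cases i <;> simp [zz, kap] <;> field_simp
  · linear_combination -r
  · linear_combination r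
  · ring
  · ring

theorem wq_kap {Y : ℂ} {w : Wt} {z : Fin 4 → ℂ} (hz : Over Y w z)
    (hD : bb Y w 1 - bb Y w 0 ≠ 0) (hY : Y ≠ 0) (hY' : Y ^ 4 ≠ 1) :
    good (kap Y z) ∧ wq (kap Y z) = w := by
  obtain ⟨h1, h2⟩ := zz_kap hz hD
  obtain ⟨h3, h4⟩ := alg_sq_ne hY'
  refine ⟨⟨h2, hY, hY'⟩, ?_⟩
  have e : (kap Y z).2.1 = Y := rfl
  rw [wq, h1, e, hz 0, hz 2, hz 3]
  have a0 : bb Y w 0 / Y ^ 5 = 4 * w.1 * Y + 2 * w.2.2 := by simp [bb]; field_simp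
  have a2 : bb Y w 2 / (Y ^ 2 - 1) ^ 2 =
      -(w.1 * (1 + 2 * Y ^ 2) + w.2.1 * (2 + Y ^ 2) + w.2.2 * Y) := by
    simp only [bb, Matrix.cons_val]; field_simp
  have a3 : -bb Y w 3 / (Y ^ 2 + 1) ^ 2 =
      -(w.1 * (2 * Y ^ 2 - 1) + w.2.1 * (2 - Y ^ 2) + w.2.2 * Y) := by
    simp only [bb, Matrix.cons_val]; field_simp
  rw [a0, a2, a3]
  ext <;> simp only [Psi] <;> ring

theorem kap_zz (p : Pt) (h : p.2.2.1 ≠ 0) : kap p.2.1 (zz p) = p := by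
  obtain ⟨x, Y, v₀, v₁⟩ := p
  simp only at h
  ext <;> simp [kap, zz]
  field_simp

theorem kap_norm_le {Y : ℂ} {w : Wt} {z : Fin 4 → ℂ} (hz : Over Y w z)
    (hD : bb Y w 1 - bb Y w 0 ≠ 0) :
    (1 + ‖(kap Y z).1‖) * (1 + ‖(kap Y z).1‖⁻¹) * ‖bb Y w 1 - bb Y w 0‖ ^ 2 ≤
      (2 * ∑ i, ‖bb Y w i‖) ^ 2 := by
  obtain ⟨r, hs, hd⟩ := alg_over_facts hz hD
  have e1 : ‖bb Y w 1 - bb Y w 0‖ ^ 2 =
      ‖z 0 + z 1‖ * ‖z 2 - z 3‖ * (‖z 1 - z 0‖ * ‖z 2 + z 3‖) := by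
    rw [← norm_pow, ← norm_mul, ← norm_mul, ← norm_mul, ← hz 0, ← hz 1]
    congr 1
    linear_combination (z 0 ^ 2 - z 1 ^ 2) * r
  have e2 : ∑ i, ‖bb Y w i‖ = ‖z 0‖ ^ 2 + ‖z 1‖ ^ 2 + ‖z 2‖ ^ 2 + ‖z 3‖ ^ 2 := by
    simp only [← hz _, norm_pow, Fin.sum_univ_four]
  have hs' := norm_pos_iff.2 hs
  have hd' := norm_pos_iff.2 hd
  have e3 : (1 + ‖(kap Y z).1‖) * (1 + ‖(kap Y z).1‖⁻¹) * ‖bb Y w 1 - bb Y w 0‖ ^ 2 =
      (‖z 0 + z 1‖ + ‖z 2 - z 3‖) ^ 2 * (‖z 1 - z 0‖ * ‖z 2 + z 3‖) := by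
    rw [e1]
    simp only [kap, norm_div]
    field_simp
    ring
  rw [e3, e2]
  have a1 := norm_add_le (z 0) (z 1)
  have a2 := norm_sub_le (z 2) (z 3)
  have a3 := norm_sub_le (z 1) (z 0)
  have a4 := norm_add_le (z 2) (z 3)
  set a := ‖z 0‖
  set b := ‖z 1‖
  set c := ‖z 2‖
  set d := ‖z 3‖
  have b1 : (‖z 0 + z 1‖ + ‖z 2 - z 3‖) ^ 2 ≤ 4 * (a ^ 2 + b ^ 2 + c ^ 2 + d ^ 2) := by
    refine (pow_le_pow_left₀ (by positivity) (add_le_add a1 a2) 2).trans ?_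
    nlinarith [sq_nonneg (a - b), sq_nonneg (a - c), sq_nonneg (a - d), sq_nonneg (b - c),
      sq_nonneg (b - d), sq_nonneg (c - d)]
  have b2 : ‖z 1 - z 0‖ * ‖z 2 + z 3‖ ≤ a ^ 2 + b ^ 2 + c ^ 2 + d ^ 2 := by
    refine (mul_le_mul a3 a4 (norm_nonneg _) (by positivity)).trans ?_
    nlinarith [sq_nonneg (a - c), sq_nonneg (a - d), sq_nonneg (b - c), sq_nonneg (b - d)]
  refine (mul_le_mul b1 b2 (by positivity) (by positivity)).trans (le_of_eq ?_)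
  ring

theorem good_sig1 {p : Pt} (hp : good p) : good (sig1 p) := by
  exact ⟨neg_ne_zero.2 hp.1, hp.2⟩

theorem good_sig2 {p : Pt} (hp : good p) : good (sig2 p) := by
  exact ⟨inv_ne_zero hp.1, hp.2⟩

theorem wq_sig1 (p : Pt) : wq (sig1 p) = wq p := by
  have h0 : zz (sig1 p) 0 = zz p 0 := by simp [zz, sig1]
  have h2 : zz (sig1 p) 2 ^ 2 = zz p 2 ^ 2 := by simp [zz, sig1]; ring
  have h3 : zz (sig1 p) 3 ^ 2 = zz p 3 ^ 2 := by simp [zz, sig1]; ring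
  rw [wq, h0, h2, h3]
  rfl

theorem wq_sig2 {p : Pt} (hp : good p) : wq (sig2 p) = wq p := by
  have hx := hp.1
  have h0 : zz (sig2 p) 0 ^ 2 = zz p 0 ^ 2 := by simp [zz, sig2]; field_simp; ring
  have h2 : zz (sig2 p) 2 ^ 2 = zz p 2 ^ 2 := by simp [zz, sig2]; field_simp; ring
  have h3 : zz (sig2 p) 3 ^ 2 = zz p 3 ^ 2 := by simp [zz, sig2]; field_simp; ring
  rw [wq, h0, h2, h3]
  rfl

attribute [local fun_prop] analyticAt_fst analyticAt_snd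

theorem wq_analyticAt {p : Pt} (hp : good p) : AnalyticAt ℂ wq p := by
  obtain ⟨-, hY, hY'⟩ := hp
  obtain ⟨h1, h2⟩ := alg_sq_ne hY'
  have a0 : AnalyticAt ℂ (fun p : Pt => zz p 0 ^ 2 / p.2.1 ^ 5) p := by
    refine AnalyticAt.fun_div ?_ (by fun_prop) (pow_ne_zero _ hY)
    simp only [zz, Matrix.cons_val_zero]; fun_prop
  have a2 : AnalyticAt ℂ (fun p : Pt => zz p 2 ^ 2 / (p.2.1 ^ 2 - 1) ^ 2) p := by
    refine AnalyticAt.fun_div ?_ (by fun_prop) (pow_ne_zero _ h1)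
    simp only [zz, Matrix.cons_val]; fun_prop
  have a3 : AnalyticAt ℂ (fun p : Pt => -(zz p 3 ^ 2) / (p.2.1 ^ 2 + 1) ^ 2) p := by
    refine AnalyticAt.fun_div ?_ (by fun_prop) (pow_ne_zero _ h2)
    simp only [zz, Matrix.cons_val]; fun_prop
  have a4 : AnalyticAt ℂ (fun q : ℂ × ℂ × ℂ × ℂ => Psi q.1 q.2.1 q.2.2.1 q.2.2.2)
      (p.2.1, zz p 0 ^ 2 / p.2.1 ^ 5, zz p 2 ^ 2 / (p.2.1 ^ 2 - 1) ^ 2,
        -(zz p 3 ^ 2) / (p.2.1 ^ 2 + 1) ^ 2) := by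
    simp only [Psi, div_eq_mul_inv]
    fun_prop
  have a5 : AnalyticAt ℂ (fun p : Pt => p.2.1) p := by fun_prop
  exact a4.comp_of_eq (a5.prod (a0.prod (a2.prod a3))) rfl

theorem kap_analyticAt {Y : ℂ} {z : Fin 4 → ℂ} (h : z 0 + z 1 ≠ 0) :
    AnalyticAt ℂ (fun q : ℂ × (Fin 4 → ℂ) => kap q.1 q.2) (Y, z) := by
  have hc : ∀ i, AnalyticAt ℂ (fun q : ℂ × (Fin 4 → ℂ) => q.2 i) (Y, z) := fun i =>
    ((ContinuousLinearMap.proj (R := ℂ) (φ := fun _ : Fin 4 => ℂ) i).analyticAt _).comp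
      analyticAt_snd
  exact (((hc 2).sub (hc 3)).fun_div ((hc 0).add (hc 1)) h).prod (analyticAt_fst.prod
    ((((hc 0).add (hc 1)).fun_div analyticAt_const two_ne_zero).prod
      (((hc 2).add (hc 3)).fun_div analyticAt_const two_ne_zero)))

/-- local holomorphic branch of the fibre curve, jointly in `(Y, w)`; every point of a nearby
fibre is the branch up to signs.  (`ζ i = z i * (bb Y' w' i / bb Y w i) ^ (1/2)`.) -/
theorem exists_branch {Y : ℂ} {w : Wt} {z : Fin 4 → ℂ} (hz : Over Y w z)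
    (hb : ∀ i, bb Y w i ≠ 0) :
    ∃ ζ : ℂ × Wt → Fin 4 → ℂ, AnalyticAt ℂ ζ (Y, w) ∧ ζ (Y, w) = z ∧
      ∀ᶠ q in 𝓝 (Y, w), Over q.1 q.2 (ζ q) := by
  have ha : ∀ i, AnalyticAt ℂ (fun q : ℂ × Wt => bb q.1 q.2 i) (Y, w) := fun i => by
    fin_cases i <;> simp only [bb, Fin.zero_eta, Fin.mk_one, Fin.reduceFinMk, Matrix.cons_val_zero,
      Matrix.cons_val_one, Matrix.cons_val] <;> fun_prop
  refine ⟨fun q i => z i * (bb q.1 q.2 i / bb Y w i) ^ (((2 : ℕ) : ℂ)⁻¹), ?_, ?_,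
    Eventually.of_forall fun q i => ?_⟩
  · refine analyticAt_pi_iff.2 fun i => analyticAt_const.mul (AnalyticAt.cpow
      ((ha i).fun_div analyticAt_const (hb i)) analyticAt_const ?_)
    simp [div_self (hb i)]
  · funext i
    simp [div_self (hb i)]
  · rw [mul_pow, Complex.cpow_nat_inv_pow _ two_ne_zero, hz i]
    field_simp [hb i]

theorem Over.eq_sign {Y : ℂ} {w : Wt} {z z' : Fin 4 → ℂ} (hz : Over Y w z) (hz' : Over Y w z') :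
    ∃ ε : Fin 4 → ℤˣ, z' = fun i => ((ε i : ℤ) : ℂ) * z i := by
  have : ∀ i, ∃ e : ℤˣ, z' i = ((e : ℤ) : ℂ) * z i := fun i => by
    rcases sq_eq_sq_iff_eq_or_eq_neg.1 ((hz' i).trans (hz i).symm) with h | h
    · exact ⟨1, by simp [h]⟩
    · exact ⟨-1, by simp [h]⟩
  choose ε hε using this
  exact ⟨ε, funext hε⟩

theorem Over.sign {Y : ℂ} {w : Wt} {z : Fin 4 → ℂ} (hz : Over Y w z) (ε : Fin 4 → ℤˣ) :
    Over Y w fun i => ((ε i : ℤ) : ℂ) * z i := by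
  intro i
  rcases Int.units_eq_one_or (ε i) with h | h <;> simp [h, hz i]

theorem exists_over (Y : ℂ) (w : Wt) : ∃ z, Over Y w z := by
  exact ⟨fun i => bb Y w i ^ (((2 : ℕ) : ℂ)⁻¹), fun i => Complex.cpow_nat_inv_pow _ two_ne_zero⟩

/-! ### Hermitian forms -/

theorem Herm.add {f g : ℂ → ℂ → ℝ} (hf : Herm f) (hg : Herm g) :
    Herm fun a b => f a b + g a b := by
  obtain ⟨a, d, b, h⟩ := hf
  obtain ⟨a', d', b', h'⟩ := hg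
  refine ⟨a + a', d + d', b + b', fun v₀ v₁ => ?_⟩
  simp only [h, h', add_mul, Complex.add_re]
  ring

theorem Herm.const_mul {f : ℂ → ℂ → ℝ} (hf : Herm f) (t : ℝ) : Herm fun a b => t * f a b := by
  obtain ⟨a, d, b, h⟩ := hf
  refine ⟨t * a, t * d, t * b, fun v₀ v₁ => ?_⟩
  simp only [h, mul_assoc (t : ℂ), Complex.re_ofReal_mul]
  ring

theorem Herm.sum {ι : Type*} (s : Finset ι) {f : ι → ℂ → ℂ → ℝ} (hf : ∀ i ∈ s, Herm (f i)) :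
    Herm fun a b => ∑ i ∈ s, f i a b := by
  classical
  induction s using Finset.induction_on with
  | empty => exact ⟨0, 0, 0, fun _ _ => by simp⟩
  | insert i s hi ih =>
    simp only [Finset.sum_insert hi]
    exact (hf i (Finset.mem_insert_self _ _)).add
      (ih fun j hj => hf j (Finset.mem_insert_of_mem hj))

/-- composition with a linear map. -/
theorem Herm.comp {f : ℂ → ℂ → ℝ} (hf : Herm f) (m₀₀ m₀₁ m₁₀ m₁₁ : ℂ) :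
    Herm fun a b => f (m₀₀ * a + m₀₁ * b) (m₁₀ * a + m₁₁ * b) := by
  obtain ⟨a, d, b, h⟩ := hf
  refine ⟨f m₀₀ m₁₀, f m₀₁ m₁₁, 2 * a * m₀₀ * (starRingEnd ℂ) m₀₁ +
    2 * d * m₁₀ * (starRingEnd ℂ) m₁₁ + b * m₀₀ * (starRingEnd ℂ) m₁₁ +
    (starRingEnd ℂ) b * (starRingEnd ℂ) m₀₁ * m₁₀, fun v₀ v₁ => ?_⟩
  simp only [h, Complex.normSq_apply, Complex.add_re, Complex.add_im, Complex.mul_re,
    Complex.mul_im, Complex.conj_re, Complex.conj_im, Complex.ofReal_re, Complex.ofReal_im,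
    Complex.re_ofNat, Complex.im_ofNat]
  ring

theorem Herm.smul {f : ℂ → ℂ → ℝ} (hf : Herm f) (t a b : ℂ) :
    f (t * a) (t * b) = ‖t‖ ^ 2 * f a b := by
  obtain ⟨a', d, b', h⟩ := hf
  simp only [h, Complex.sq_norm, Complex.normSq_apply, Complex.mul_re,
    Complex.mul_im, Complex.conj_re, Complex.conj_im]
  ring

theorem Herm.continuous {f : ℂ → ℂ → ℝ} (hf : Herm f) :
    Continuous fun q : ℂ × ℂ => f q.1 q.2 := by
  obtain ⟨a', d, b', h⟩ := hf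
  simp only [h]
  fun_prop

theorem Herm.le_of_nonneg {f : ℂ → ℂ → ℝ} (hf : Herm f) (h0 : ∀ a b, 0 ≤ f a b) (a b : ℂ) :
    f a b ≤ 2 * (‖a‖ ^ 2 * f 1 0 + ‖b‖ ^ 2 * f 0 1) := by
  have h1 := h0 a (-b)
  obtain ⟨a', d, b', h⟩ := hf
  simp only [h, Complex.sq_norm, map_neg, mul_neg, Complex.neg_re, Complex.normSq_neg, map_one,
    map_zero, mul_zero, zero_mul, Complex.zero_re, mul_one, add_zero, zero_add] at h1 ⊢
  linarith

/-- interpolation of Hermitian forms at the four vectors `(1, s₀ + δ t)`, `t = 0, 1, -1, i`. -/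
theorem herm_interp (s₀ : ℂ) (δ : ℝ) (hδ : δ ≠ 0) : ∃ lam : Fin 4 → ℂ → ℂ → ℝ,
    (∀ j, Herm (lam j)) ∧ ∀ f, Herm f → ∀ a b,
      f a b = ∑ j, lam j a b * f 1 (s₀ + δ * ![0, 1, -1, Complex.I] j) := by
  let L : ℝ → ℝ → ℂ → ℂ → ℂ → ℝ := fun a d b v₀ v₁ =>
    a * Complex.normSq v₀ + d * Complex.normSq v₁ + (b * v₀ * (starRingEnd ℂ) v₁).re
  have hL : ∀ a d b, Herm (L a d b) := fun a d b => ⟨a, d, b, fun _ _ => rfl⟩
  let M : Fin 4 → ℂ → ℂ → ℝ := ![L 1 (-1) 0, L 0 (1 / 2) ⟨1 / 2, -1 / 2⟩,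
    L 0 (1 / 2) ⟨-1 / 2, -1 / 2⟩, L 0 0 Complex.I]
  have hM : ∀ j, Herm (M j) := fun j => by fin_cases j <;> exact hL _ _ _
  refine ⟨fun j a b => M j (1 * a + 0 * b) (-s₀ / δ * a + 1 / δ * b),
    fun j => (hM j).comp _ _ _ _, fun f hf a b => ?_⟩
  obtain ⟨A, D, B, h⟩ := hf.comp 1 0 s₀ δ
  have hδ' : (δ : ℂ) ≠ 0 := Complex.ofReal_ne_zero.2 hδ
  have h1 : ∀ t, f 1 (s₀ + δ * t) = A + D * Complex.normSq t + (B * (starRingEnd ℂ) t).re :=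
    fun t => by simpa using h 1 t
  set c := -s₀ / δ * a + 1 / δ * b with hc
  have h2 : f a b = A * Complex.normSq a + D * Complex.normSq c +
      (B * a * (starRingEnd ℂ) c).re := by
    rw [← h a c]
    congr 1
    · ring
    · rw [hc]; field_simp; ring
  rw [h2, Fin.sum_univ_four]
  simp only [h1, M, L, Matrix.cons_val_zero, Matrix.cons_val_one, Matrix.cons_val, one_mul,
    zero_mul, add_zero, Complex.normSq_apply, Complex.mul_re, Complex.mul_im, Complex.conj_re,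
    Complex.conj_im, Complex.I_re, Complex.I_im, Complex.zero_re, Complex.zero_im, Complex.one_re,
    Complex.one_im, Complex.neg_re, Complex.neg_im]
  ring

end Crest.Agent.R258

end
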