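import Crest.Agent.R258.BundleAlg

/-! Ampleness of `E_k`.

Plan.  For `n : ℕ`, `a b : ℤ` call `Q` a section of `Symⁿ E_k (a,b)` if it satisfies
`IsGlobalSection` with `lineTrans a b` in place of `lineTrans (-k) (-k)`; such sections form a
graded algebra (`frameSubst` is multiplicative; check compatibility through
`MvPolynomial.funext`, `eval u (frameSubst M Q) = eval (Mᵀ u) Q`).  `Zᵢ` (linear form
`C (ZZ .. e₀ i) * X 0 + C (ZZ .. e₁ i) * X 1` at `x = p 0 ^ k`, `y = p 1 ^ k`) is a section with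
`(n,a,b) = (1,-1,k δᵢ - 1)` (`ZZ_MM`), the components of `q` are sections with `(2,-2,-2)`
(`qq_MM`), and for `a, b ≥ 0` and every point some section with `n = 0` has value `1` there.
At a fixed point the values of sections form submodules `Val n a b` with
`Val n a b * Val n' a' b' ≤ Val (n+n') (a+a') (b+b')`; `Zᵢ² ∈ Val 2 (-2) (-2)` by `ZZ_sq`, so
`Zᵢ^m ∈ Val m (-m) (2k-m)`, every monomial of degree `n` in the four `Zᵢ` is in
`Val n (-n) (8k-n)`, hence in `Val n (-j) (-j)` for `n ≥ j + 8k`; these monomials span all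
homogeneous polynomials of degree `n` by `u_eq_ZZ`. -/

set_option autoImplicit false

noncomputable section

namespace Crest.Agent.R258

open Crest.AlgGeometry.QuadricBundle

open MvPolynomial

/-- `f p u` is a homogeneous polynomial of degree `n` in `u` with coefficients holomorphic in `p`. -/
def AmpRep (n : ℕ) (f : (Fin 2 → ℂ) → (Fin 2 → ℂ) → ℂ) : Prop :=
  ∃ F : (Fin 2 → ℂ) → MvPolynomial (Fin 2) ℂ, (∀ p, (F p).IsHomogeneous n) ∧
    (∀ m, Differentiable ℂ fun p => coeff m (F p)) ∧ ∀ p u, eval u (F p) = f p u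

namespace AmpRep

variable {n n' : ℕ} {f g : (Fin 2 → ℂ) → (Fin 2 → ℂ) → ℂ}

lemma congr (h : AmpRep n f) (hfg : ∀ p u, g p u = f p u) : AmpRep n g := by
  have : g = f := by funext p u; exact hfg p u
  rwa [this]

lemma const {c : (Fin 2 → ℂ) → ℂ} (hc : Differentiable ℂ c) : AmpRep 0 fun p _ => c p := by
  refine ⟨fun p => C (c p), fun p => isHomogeneous_C _ _, fun m => ?_, fun p u => by simp⟩
  simp only [coeff_C]
  split_ifs
  · exact hc
  · exact differentiable_const _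

lemma coord (j : Fin 2) : AmpRep 1 fun _ u => u j :=
  ⟨fun _ => X j, fun _ => isHomogeneous_X _ _, fun _ => differentiable_const _,
    fun p u => by simp⟩

lemma zero (n : ℕ) : AmpRep n fun _ _ => 0 :=
  ⟨fun _ => 0, fun _ => isHomogeneous_zero _ _ _, fun _ => differentiable_const _,
    fun p u => by simp⟩

lemma add (hf : AmpRep n f) (hg : AmpRep n g) : AmpRep n fun p u => f p u + g p u := by
  obtain ⟨F, h1, h2, h3⟩ := hf
  obtain ⟨G, g1, g2, g3⟩ := hg
  refine ⟨fun p => F p + G p, fun p => (h1 p).add (g1 p), fun m => ?_, fun p u => by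
    simp [h3, g3]⟩
  simp only [coeff_add]
  exact (h2 m).add (g2 m)

lemma mul (hf : AmpRep n f) (hg : AmpRep n' g) : AmpRep (n + n') fun p u => f p u * g p u := by
  classical
  obtain ⟨F, h1, h2, h3⟩ := hf
  obtain ⟨G, g1, g2, g3⟩ := hg
  refine ⟨fun p => F p * G p, fun p => (h1 p).mul (g1 p), fun m => ?_, fun p u => by
    simp [h3, g3]⟩
  simp only [coeff_mul]
  exact Differentiable.fun_sum fun x _ => (h2 _).mul (g2 _)

lemma smul {c : (Fin 2 → ℂ) → ℂ} (hc : Differentiable ℂ c) (hf : AmpRep n f) :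
    AmpRep n fun p u => c p * f p u := by
  have := (const hc).mul hf
  rwa [zero_add] at this

/-- linear forms -/
lemma lin {c d : (Fin 2 → ℂ) → ℂ} (hc : Differentiable ℂ c) (hd : Differentiable ℂ d) :
    AmpRep 1 fun p u => c p * u 0 + d p * u 1 :=
  ((coord 0).smul hc).add ((coord 1).smul hd)

/-- combinations of three squares of linear forms -/
lemma quad {f₁ f₂ f₃ : (Fin 2 → ℂ) → (Fin 2 → ℂ) → ℂ} (h₁ : AmpRep 1 f₁) (h₂ : AmpRep 1 f₂)
    (h₃ : AmpRep 1 f₃) {c₁ c₂ c₃ : (Fin 2 → ℂ) → ℂ} (d₁ : Differentiable ℂ c₁)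
    (d₂ : Differentiable ℂ c₂) (d₃ : Differentiable ℂ c₃) :
    AmpRep 2 fun p u => c₁ p * (f₁ p u * f₁ p u) + c₂ p * (f₂ p u * f₂ p u) +
      c₃ p * (f₃ p u * f₃ p u) :=
  (((h₁.mul h₁).smul d₁).add ((h₂.mul h₂).smul d₂)).add ((h₃.mul h₃).smul d₃)

end AmpRep

lemma amp_eval_smul {Q : MvPolynomial (Fin 2) ℂ} {n : ℕ} (hQ : Q.IsHomogeneous n) (c : ℂ)
    (u : Fin 2 → ℂ) : eval (c • u) Q = c ^ n * eval u Q := by
  rw [eval_eq', eval_eq', Finset.mul_sum]
  refine Finset.sum_congr rfl fun m hm => ?_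
  have h : m.degree = n := by
    by_contra h
    exact (mem_support_iff.1 hm) (hQ.coeff_eq_zero h)
  rw [Finsupp.degree_eq_sum, Fin.sum_univ_two] at h
  simp only [Fin.prod_univ_two, Pi.smul_apply, smul_eq_mul, mul_pow, ← h]
  ring

lemma amp_eval_frameSubst (M : Matrix (Fin 2) (Fin 2) ℂ) (Q : MvPolynomial (Fin 2) ℂ)
    (u : Fin 2 → ℂ) : eval u (frameSubst M Q) = eval (M.transpose.mulVec u) Q := by
  unfold frameSubst
  rw [← aeval_eq_eval, aeval_bind₁, aeval_eq_eval]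
  congr 2
  funext j
  simp [Matrix.mulVec, dotProduct]

/-- transition scalar of `O(a,b)` with natural exponents -/
def ampLt (a b : ℕ) (α β : Chart) (p : Fin 2 → ℂ) : ℂ :=
  (if α.1 = β.1 then 1 else p 0 ^ a) * (if α.2 = β.2 then 1 else p 1 ^ b)

lemma ampLt_add (a b a' b' : ℕ) (α β : Chart) (p : Fin 2 → ℂ) :
    ampLt (a + a') (b + b') α β p = ampLt a b α β p * ampLt a' b' α β p := by
  unfold ampLt
  split_ifs <;> ring

/-- global sections of `Symⁿ (pull-back of E₀) ⊗ O(a,b)`, as functions on the dual bundle -/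
def AmpSec (k n a b : ℕ) (f : Chart → (Fin 2 → ℂ) → (Fin 2 → ℂ) → ℂ) : Prop :=
  (∀ α, AmpRep n (f α)) ∧ ∀ α β, ∀ p ∈ overlap α β, ∀ u,
    f α p u = ampLt a b α β p * f β (tau α β p) ((MM α β (p 0 ^ k) (p 1 ^ k)).mulVec u)

/-- values of global sections at a point -/
def AmpVal (k : ℕ) (α : Chart) (p : Fin 2 → ℂ) (n a b : ℕ) (v : (Fin 2 → ℂ) → ℂ) : Prop :=
  ∃ f, AmpSec k n a b f ∧ ∀ u, f α p u = v u

namespace AmpVal

variable {k : ℕ} {α : Chart} {p : Fin 2 → ℂ} {n a b n' a' b' : ℕ} {v w : (Fin 2 → ℂ) → ℂ}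

lemma congr (h : AmpVal k α p n a b v) (hvw : ∀ u, w u = v u) : AmpVal k α p n a b w := by
  have : w = v := funext hvw
  rwa [this]

lemma zero : AmpVal k α p n a b fun _ => 0 :=
  ⟨fun _ _ _ => 0, ⟨fun _ => AmpRep.zero n, fun _ _ _ _ _ => by simp⟩, fun _ => rfl⟩

lemma add (hv : AmpVal k α p n a b v) (hw : AmpVal k α p n a b w) :
    AmpVal k α p n a b fun u => v u + w u := by
  obtain ⟨f, ⟨f1, f2⟩, f3⟩ := hv
  obtain ⟨g, ⟨g1, g2⟩, g3⟩ := hw
  refine ⟨fun α p u => f α p u + g α p u, ⟨fun α => (f1 α).add (g1 α), fun α β p hp u => ?_⟩,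
    fun u => by simp only [f3, g3]⟩
  simp only
  rw [f2 α β p hp, g2 α β p hp]; ring

lemma mul (hv : AmpVal k α p n a b v) (hw : AmpVal k α p n' a' b' w) :
    AmpVal k α p (n + n') (a + a') (b + b') fun u => v u * w u := by
  obtain ⟨f, ⟨f1, f2⟩, f3⟩ := hv
  obtain ⟨g, ⟨g1, g2⟩, g3⟩ := hw
  refine ⟨fun α p u => f α p u * g α p u, ⟨fun α => (f1 α).mul (g1 α), fun α β p hp u => ?_⟩,
    fun u => by simp only [f3, g3]⟩
  simp only
  rw [f2 α β p hp, g2 α β p hp, ampLt_add]; ring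

/-- constants are values of sections of `O(a,b)` -/
lemma const (c : ℂ) : AmpVal k α p 0 a b fun _ => c := by
  refine ⟨fun β q _ => c * ((if β.1 = α.1 then 1 else q 0 ^ a) *
    (if β.2 = α.2 then 1 else q 1 ^ b)), ⟨fun β => AmpRep.const ?_, fun β γ q hq u => ?_⟩,
    fun u => by simp⟩
  · split_ifs <;> fun_prop
  · obtain ⟨h1, h2⟩ := hq
    have e1 : (if β.1 = α.1 then 1 else q 0 ^ a) = (if β.1 = γ.1 then 1 else q 0 ^ a) *
        (if γ.1 = α.1 then 1 else tau β γ q 0 ^ a) := by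
      by_cases h : β.1 = γ.1
      · simp [tau, h]
      · by_cases h' : γ.1 = α.1
        · have : ¬ β.1 = α.1 := fun h'' => h (h''.trans h'.symm)
          simp [h, h', this]
        · have : β.1 = α.1 := by omega
          have h0 := h1 h
          simp only [tau, h, h', this, if_true, if_false, Matrix.cons_val_zero]
          rw [if_neg (fun h'' => h' h''.symm), ← mul_pow, if_neg (fun h'' => h' h''.symm),
            mul_inv_cancel₀ h0, one_pow]
    have e2 : (if β.2 = α.2 then 1 else q 1 ^ b) = (if β.2 = γ.2 then 1 else q 1 ^ b) *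
        (if γ.2 = α.2 then 1 else tau β γ q 1 ^ b) := by
      by_cases h : β.2 = γ.2
      · simp [tau, h]
      · by_cases h' : γ.2 = α.2
        · have : ¬ β.2 = α.2 := fun h'' => h (h''.trans h'.symm)
          simp [h, h', this]
        · have : β.2 = α.2 := by omega
          have h0 := h2 h
          simp only [tau, h, h', this, if_true, if_false, Matrix.cons_val_one,
            Matrix.cons_val_zero]
          rw [if_neg (fun h'' => h' h''.symm), ← mul_pow, if_neg (fun h'' => h' h''.symm),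
            mul_inv_cancel₀ h0, one_pow]
    simp only [ampLt]
    rw [e1, e2]; ring

lemma smul (c : ℂ) (hv : AmpVal k α p n a b v) : AmpVal k α p n a b fun u => c * v u := by
  have := (const (k := k) (α := α) (p := p) (a := 0) (b := 0) c).mul hv
  simpa using this

lemma mono (hv : AmpVal k α p n a b v) (ha : a ≤ a') (hb : b ≤ b') : AmpVal k α p n a' b' v := by
  have := (const (k := k) (α := α) (p := p) (a := a' - a) (b := b' - b) 1).mul hv
  rw [Nat.sub_add_cancel ha, Nat.sub_add_cancel hb] at this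
  simpa using this

lemma sum {ι : Type} (s : Finset ι) {v : ι → (Fin 2 → ℂ) → ℂ}
    (hv : ∀ i ∈ s, AmpVal k α p n a b (v i)) : AmpVal k α p n a b fun u => ∑ i ∈ s, v i u := by
  classical
  induction s using Finset.induction_on with
  | empty => simpa using zero
  | insert i s hi ih =>
    simp only [Finset.sum_insert hi]
    exact (hv i (Finset.mem_insert_self _ _)).add
      (ih fun j hj => hv j (Finset.mem_insert_of_mem hj))

end AmpVal

lemma amp_Za (k : ℕ) (η : ℂ) : AmpRep 1 fun p u => Za η (p 0 ^ k) (p 1 ^ k) u :=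
  (AmpRep.lin (c := fun p => Za η (p 0 ^ k) (p 1 ^ k) ![1, 0])
    (d := fun p => Za η (p 0 ^ k) (p 1 ^ k) ![0, 1])
    (by simp only [Za, al]; fun_prop) (by simp only [Za, al]; fun_prop)).congr fun p u => by
      simp only [Za, al, Matrix.cons_val_zero, Matrix.cons_val_one]; ring

lemma amp_Zb (k : ℕ) (η : ℂ) : AmpRep 1 fun p u => Zb η (p 0 ^ k) (p 1 ^ k) u :=
  (AmpRep.lin (c := fun p => Zb η (p 0 ^ k) (p 1 ^ k) ![1, 0])
    (d := fun p => Zb η (p 0 ^ k) (p 1 ^ k) ![0, 1])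
    (by simp only [Zb, be, al]; fun_prop) (by simp only [Zb, be, al]; fun_prop)).congr
    fun p u => by simp only [Zb, be, al, Matrix.cons_val_zero, Matrix.cons_val_one]; ring

lemma amp_Zc (k : ℕ) (η : ℂ) : AmpRep 1 fun p u => Zc η (p 0 ^ k) (p 1 ^ k) u :=
  (AmpRep.lin (c := fun p => Zc η (p 0 ^ k) (p 1 ^ k) ![1, 0])
    (d := fun p => Zc η (p 0 ^ k) (p 1 ^ k) ![0, 1])
    (by simp only [Zc, al]; fun_prop) (by simp only [Zc, al]; fun_prop)).congr fun p u => by
      simp only [Zc, al, Matrix.cons_val_zero, Matrix.cons_val_one]; ring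

lemma amp_Zd (k : ℕ) (η : ℂ) : AmpRep 1 fun p u => Zd η (p 0 ^ k) (p 1 ^ k) u :=
  (AmpRep.lin (c := fun p => Zd η (p 0 ^ k) (p 1 ^ k) ![1, 0])
    (d := fun p => Zd η (p 0 ^ k) (p 1 ^ k) ![0, 1])
    (by simp only [Zd, al]; fun_prop) (by simp only [Zd, al]; fun_prop)).congr fun p u => by
      simp only [Zd, al, Matrix.cons_val_zero, Matrix.cons_val_one]; ring

lemma amp_tau0 (k : ℕ) (α β : Chart) (p : Fin 2 → ℂ) :
    tau α β p 0 ^ k = if α.1 = β.1 then p 0 ^ k else (p 0 ^ k)⁻¹ := by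
  by_cases h : α.1 = β.1 <;> simp [tau, h]

lemma amp_tau1 (k : ℕ) (α β : Chart) (p : Fin 2 → ℂ) :
    tau α β p 1 ^ k = if α.2 = β.2 then p 1 ^ k else (p 1 ^ k)⁻¹ := by
  by_cases h : α.2 = β.2 <;> simp [tau, h]

lemma amp_sec_ZZ (k : ℕ) (i : Fin 4) :
    AmpSec k 1 0 (k * dl i) fun α p u => ZZ α (p 0 ^ k) (p 1 ^ k) u i := by
  refine ⟨fun α => ?_, fun α β p hp u => ?_⟩
  · by_cases h : α.2 = 0
    · fin_cases i
      · exact ((amp_Za k 1).smul (differentiable_const (sgn α.1))).congr fun p u => by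
          simp [ZZ, h]
      · exact (amp_Zb k 1).congr fun p u => by simp [ZZ, h]
      · exact ((amp_Zc k (sgn α.2)).smul (differentiable_const (sgn α.2))).congr fun p u => by
          simp [ZZ]
      · exact ((amp_Zd k (sgn α.2)).smul (differentiable_const (sgn α.1))).congr fun p u => by
          simp [ZZ]
    · fin_cases i
      · exact ((amp_Zb k (-1)).smul (differentiable_const (sgn α.1))).congr fun p u => by
          simp [ZZ, h]
      · exact (amp_Za k (-1)).congr fun p u => by simp [ZZ, h]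
      · exact ((amp_Zc k (sgn α.2)).smul (differentiable_const (sgn α.2))).congr fun p u => by
          simp [ZZ]
      · exact ((amp_Zd k (sgn α.2)).smul (differentiable_const (sgn α.1))).congr fun p u => by
          simp [ZZ]
  · simp only
    rw [ZZ_MM α β (fun h => pow_ne_zero k (hp.1 h)) (fun h => pow_ne_zero k (hp.2 h)) u i,
      amp_tau0, amp_tau1]
    simp [ampLt, pow_mul]

lemma amp_Psi (k : ℕ) (η : ℂ) :
    (AmpRep 2 fun p u => (Psi ((p 1 ^ k) ^ 2) (η * Za η (p 0 ^ k) (p 1 ^ k) u ^ 2)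
      (Zc η (p 0 ^ k) (p 1 ^ k) u ^ 2) (-(Zd η (p 0 ^ k) (p 1 ^ k) u ^ 2))).1) ∧
    (AmpRep 2 fun p u => (Psi ((p 1 ^ k) ^ 2) (η * Za η (p 0 ^ k) (p 1 ^ k) u ^ 2)
      (Zc η (p 0 ^ k) (p 1 ^ k) u ^ 2) (-(Zd η (p 0 ^ k) (p 1 ^ k) u ^ 2))).2.1) ∧
    (AmpRep 2 fun p u => (Psi ((p 1 ^ k) ^ 2) (η * Za η (p 0 ^ k) (p 1 ^ k) u ^ 2)
      (Zc η (p 0 ^ k) (p 1 ^ k) u ^ 2) (-(Zd η (p 0 ^ k) (p 1 ^ k) u ^ 2))).2.2) := by
  refine ⟨?_, ?_, ?_⟩
  · exact (AmpRep.quad (amp_Za k η) (amp_Zc k η) (amp_Zd k η)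
      (c₁ := fun p => (Psi ((p 1 ^ k) ^ 2) η 0 0).1) (c₂ := fun p => (Psi ((p 1 ^ k) ^ 2) 0 1 0).1)
      (c₃ := fun p => (Psi ((p 1 ^ k) ^ 2) 0 0 (-1)).1) (by simp only [Psi]; fun_prop)
      (by simp only [Psi]; fun_prop) (by simp only [Psi]; fun_prop)).congr fun p u => by
        simp only [Psi]; ring
  · exact (AmpRep.quad (amp_Za k η) (amp_Zc k η) (amp_Zd k η)
      (c₁ := fun p => (Psi ((p 1 ^ k) ^ 2) η 0 0).2.1)
      (c₂ := fun p => (Psi ((p 1 ^ k) ^ 2) 0 1 0).2.1)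
      (c₃ := fun p => (Psi ((p 1 ^ k) ^ 2) 0 0 (-1)).2.1) (by simp only [Psi]; fun_prop)
      (by simp only [Psi]; fun_prop) (by simp only [Psi]; fun_prop)).congr fun p u => by
        simp only [Psi]; ring
  · exact (AmpRep.quad (amp_Za k η) (amp_Zc k η) (amp_Zd k η)
      (c₁ := fun p => (Psi ((p 1 ^ k) ^ 2) η 0 0).2.2)
      (c₂ := fun p => (Psi ((p 1 ^ k) ^ 2) 0 1 0).2.2)
      (c₃ := fun p => (Psi ((p 1 ^ k) ^ 2) 0 0 (-1)).2.2) (by simp only [Psi]; fun_prop)
      (by simp only [Psi]; fun_prop) (by simp only [Psi]; fun_prop)).congr fun p u => by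
        simp only [Psi]; ring

lemma amp_sec_qq (k : ℕ) :
    (AmpSec k 2 0 0 fun α p u => (qq α (p 0 ^ k) (p 1 ^ k) u).1) ∧
    (AmpSec k 2 0 0 fun α p u => (qq α (p 0 ^ k) (p 1 ^ k) u).2.1) ∧
    (AmpSec k 2 0 0 fun α p u => (qq α (p 0 ^ k) (p 1 ^ k) u).2.2) := by
  have key : ∀ α β : Chart, ∀ p ∈ overlap α β, ∀ u, qq α (p 0 ^ k) (p 1 ^ k) u =
      qq β (tau α β p 0 ^ k) (tau α β p 1 ^ k) ((MM α β (p 0 ^ k) (p 1 ^ k)).mulVec u) := by
    intro α β p hp u
    rw [qq_MM α β (fun h => pow_ne_zero k (hp.1 h)) (fun h => pow_ne_zero k (hp.2 h)) u,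
      amp_tau0, amp_tau1]
  refine ⟨⟨fun α => ?_, fun α β p hp u => ?_⟩, ⟨fun α => ?_, fun α β p hp u => ?_⟩,
    ⟨fun α => ?_, fun α β p hp u => ?_⟩⟩
  · by_cases h : α.2 = 0
    · exact (amp_Psi k (sgn α.2)).1.congr fun p u => by simp only [qq, if_pos h]
    · exact (amp_Psi k (sgn α.2)).2.1.congr fun p u => by simp only [qq, if_neg h]
  · simp only; rw [key α β p hp u]; simp [ampLt]
  · by_cases h : α.2 = 0
    · exact (amp_Psi k (sgn α.2)).2.1.congr fun p u => by simp only [qq, if_pos h]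
    · exact (amp_Psi k (sgn α.2)).1.congr fun p u => by simp only [qq, if_neg h]
  · simp only; rw [key α β p hp u]; simp [ampLt]
  · by_cases h : α.2 = 0
    · exact (amp_Psi k (sgn α.2)).2.2.congr fun p u => by simp only [qq, if_pos h]
    · exact (amp_Psi k (sgn α.2)).2.2.congr fun p u => by simp only [qq, if_neg h]
  · simp only; rw [key α β p hp u]; simp [ampLt]

lemma amp_val_pow (k : ℕ) (α : Chart) (p : Fin 2 → ℂ) (i : Fin 4) (m : ℕ) :
    AmpVal k α p m 0 (2 * k) fun u => ZZ α (p 0 ^ k) (p 1 ^ k) u i ^ m := by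
  have h1 : AmpVal k α p 1 0 (2 * k) fun u => ZZ α (p 0 ^ k) (p 1 ^ k) u i := by
    refine AmpVal.mono ⟨_, amp_sec_ZZ k i, fun _ => rfl⟩ le_rfl ?_
    have : dl i ≤ 2 := by fin_cases i <;> simp [dl]
    nlinarith
  have h2 : AmpVal k α p 2 0 0 fun u => ZZ α (p 0 ^ k) (p 1 ^ k) u i ^ 2 := by
    obtain ⟨c₁, c₂, c₃, -, h⟩ := ZZ_sq α (p 1 ^ k) i
    obtain ⟨q1, q2, q3⟩ := amp_sec_qq k
    exact (((AmpVal.smul c₁ ⟨_, q1, fun _ => rfl⟩).add (AmpVal.smul c₂ ⟨_, q2, fun _ => rfl⟩)).add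
      (AmpVal.smul c₃ ⟨_, q3, fun _ => rfl⟩)).congr fun u => h _ u
  induction m using Nat.twoStepInduction with
  | zero => exact (AmpVal.const 1).congr fun u => by simp
  | one => exact h1.congr fun u => by simp
  | more m ih _ => exact (ih.mul h2).congr fun u => by ring

lemma amp_val_hom (k : ℕ) (α : Chart) (p : Fin 2 → ℂ) {n : ℕ} {R : MvPolynomial (Fin 2) ℂ}
    (hR : R.IsHomogeneous n) : AmpVal k α p n 0 (8 * k) fun u => eval u R := by
  choose c _ hc using fun j => u_eq_ZZ α (p 0 ^ k) (p 1 ^ k) j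
  set R' : MvPolynomial (Fin 4) ℂ := aeval (fun j => ∑ i, C (c j i) * X i) R with hR'
  have h1 : R'.IsHomogeneous n := by
    have := hR.aeval (fun j => (∑ i, C (c j i) * X i : MvPolynomial (Fin 4) ℂ)) (n := 1)
      (fun j => IsHomogeneous.sum _ _ _ fun i _ => isHomogeneous_C_mul_X _ _)
    rwa [one_mul] at this
  have h2 : ∀ u, eval u R = eval (ZZ α (p 0 ^ k) (p 1 ^ k) u) R' := by
    intro u
    rw [hR', aeval_eq_bind₁, ← aeval_eq_eval (ZZ _ _ _ _), aeval_bind₁, aeval_eq_eval]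
    congr 2
    funext j
    rw [hc j u]
    simp
  simp only [h2, eval_eq']
  refine AmpVal.sum _ fun m hm => AmpVal.smul _ ?_
  have h : m.degree = n := by
    by_contra h
    exact (mem_support_iff.1 hm) (h1.coeff_eq_zero h)
  rw [Finsupp.degree_eq_sum, Fin.sum_univ_four] at h
  have := (((amp_val_pow k α p 0 (m 0)).mul (amp_val_pow k α p 1 (m 1))).mul
    (amp_val_pow k α p 2 (m 2))).mul (amp_val_pow k α p 3 (m 3))
  rw [h] at this
  exact (this.mono le_rfl (by omega)).congr fun u => by rw [Fin.prod_univ_four]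

theorem gk_ample (k : ℕ) (hk : k ≠ 0) : IsAmple (gk k) := by
  intro j
  refine ⟨j + 8 * k, fun n hn α p R hR => ?_⟩
  obtain ⟨d, rfl⟩ : ∃ d, n = j + d := ⟨n - j, by omega⟩
  obtain ⟨f, ⟨f1, f2⟩, f3⟩ :=
    (amp_val_hom k α p hR).mono (a' := d) (b' := d) (Nat.zero_le _) (by omega)
  choose F F1 F2 F3 using f1
  refine ⟨F, ⟨F1, F2, fun β γ q hq => ?_⟩, ?_⟩
  · refine MvPolynomial.funext fun u => ?_
    rw [smul_eval, amp_eval_frameSubst, gk, Matrix.transpose_smul, Matrix.transpose_transpose,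
      Matrix.smul_mulVec, amp_eval_smul (F1 _ _), F3, F3, f2 β γ q hq, ← mul_assoc]
    congr 1
    obtain ⟨h1, h2⟩ := hq
    unfold ampLt lineTrans
    by_cases ha : β.1 = γ.1 <;> by_cases hb : β.2 = γ.2
    · simp [ha, hb]
    · have := h2 hb
      simp only [ha, hb, if_true, if_false, zpow_neg, zpow_natCast, zpow_one]
      field_simp; ring
    · have := h1 ha
      simp only [ha, hb, if_true, if_false, zpow_neg, zpow_natCast, zpow_one]
      field_simp; ring
    · have := h1 ha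
      have := h2 hb
      simp only [ha, hb, if_false, zpow_neg, zpow_natCast, zpow_one]
      field_simp; ring
  · exact MvPolynomial.funext fun u => by rw [F3, f3]

end Crest.Agent.R258

end
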