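import Crest.Agent.R258.Poly
import Crest.Agent.R258.Alg

/-! Consequences of `liouville` for one admissible function. -/

set_option autoImplicit false

noncomputable section

namespace Crest.Agent.R258

open Filter Topology Metric Set

theorem Adm0.nonneg {ε : ℝ} {h : Pt → ℝ} (hh : Adm0 ε h) (p : Pt) (hp : good p) : 0 ≤ h p := by
  obtain ⟨x, Y, v₀, v₁⟩ := p
  by_cases hv : v₀ ≠ 0 ∨ v₁ ≠ 0
  · exact (hh.pos _ hp hv).le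
  · push Not at hv
    obtain ⟨rfl, rfl⟩ := hv
    obtain ⟨a, d, b, e⟩ := hh.herm x Y hp
    have := e 0 0
    simp only [map_zero, mul_zero, Complex.zero_re, add_zero] at this
    exact this.ge

theorem Adm0.smul {ε : ℝ} {h : Pt → ℝ} (hh : Adm0 ε h) (x Y v₀ v₁ t : ℂ)
    (hp : good (x, Y, v₀, v₁)) : h (x, Y, t * v₀, t * v₁) = ‖t‖ ^ 2 * h (x, Y, v₀, v₁) :=
  (hh.herm x Y hp).smul t v₀ v₁

theorem Adm.const_mul {ε : ℝ} {h : Pt → ℝ} (hh : Adm ε h) {t : ℝ} (ht : 0 < t) :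
    Adm ε fun p => t * h p where
  herm x Y hp := (hh.herm x Y hp).const_mul t
  pos p hp hv := mul_pos ht (hh.pos p hp hv)
  cont := continuousOn_const.mul hh.cont
  lsm γ c hγ hc := (hh.lsm γ c hγ hc).const_mul ht.le
  growth := by
    obtain ⟨B, hB, hg⟩ := hh.growth
    refine ⟨t * B, mul_nonneg ht.le hB, fun p hp => ?_⟩
    have := mul_le_mul_of_nonneg_left (hg p hp) ht.le
    simpa only [mul_assoc] using this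
  sym1 p hp := by rw [hh.sym1 p hp]
  sym2 p hp := by rw [hh.sym2 p hp]

theorem Adm0.bd_lsm_mul {ε : ℝ} {h : Pt → ℝ} (hh : Adm0 ε h) {γ : ℂ → Pt} {c : ℂ}
    (hγ : AnalyticAt ℂ γ c) (hc : good (γ c)) {g : ℂ → ℂ} (hg : AnalyticAt ℂ g c) :
    LSM (fun ζ => ‖g ζ‖ ^ 2 * h (γ ζ)) c := by
  have h1 : AnalyticAt ℂ (fun ζ => (γ ζ).1) c := analyticAt_fst.comp hγ
  have h2' : AnalyticAt ℂ (fun ζ => (γ ζ).2) c := analyticAt_snd.comp hγ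
  have h2 : AnalyticAt ℂ (fun ζ => (γ ζ).2.1) c := analyticAt_fst.comp h2'
  have h3' : AnalyticAt ℂ (fun ζ => (γ ζ).2.2) c := analyticAt_snd.comp h2'
  have h3 : AnalyticAt ℂ (fun ζ => (γ ζ).2.2.1) c := analyticAt_fst.comp h3'
  have h4 : AnalyticAt ℂ (fun ζ => (γ ζ).2.2.2) c := analyticAt_snd.comp h3'
  have hl := hh.lsm (fun ζ => ((γ ζ).1, (γ ζ).2.1, g ζ * (γ ζ).2.2.1, g ζ * (γ ζ).2.2.2)) c
    (h1.prod (h2.prod ((hg.mul h3).prod (hg.mul h4)))) hc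
  refine hl.congr ?_
  have hev : ∀ᶠ ζ in 𝓝 c, good (γ ζ) :=
    hγ.continuousAt.eventually (isOpen_good.mem_nhds hc)
  filter_upwards [hev] with ζ hζ
  exact hh.smul _ _ _ _ _ hζ

theorem bd_rpow_le {ε a : ℝ} (ha : 1 ≤ a) (hε : ε ≤ 1) : a ^ ε ≤ a := by
  simpa using Real.rpow_le_rpow_of_exponent_le ha hε

theorem bd_base_ge (p : Pt) : 1 ≤ (1 + ‖p.1‖) * (1 + ‖p.1‖⁻¹) * (1 + ‖p.2.1‖) := by
  have h1 : 1 ≤ 1 + ‖p.1‖ := by linarith [norm_nonneg p.1]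
  have h2 : 1 ≤ 1 + ‖p.1‖⁻¹ := by linarith [inv_nonneg.2 (norm_nonneg p.1)]
  have h3 : 1 ≤ 1 + ‖p.2.1‖ := by linarith [norm_nonneg p.2.1]
  exact one_le_mul_of_one_le_of_one_le (one_le_mul_of_one_le_of_one_le h1 h2) h3

theorem Adm0.bd_growth_one {ε : ℝ} {h : Pt → ℝ} (hh : Adm0 ε h) (hε : ε ≤ 1) :
    ∃ B : ℝ, 0 ≤ B ∧ ∀ p, good p →
      h p ≤ B * ((1 + ‖p.1‖) * (1 + ‖p.1‖⁻¹) * (1 + ‖p.2.1‖)) * ‖wq p‖ := by
  obtain ⟨B, hB, hg⟩ := hh.growth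
  refine ⟨B, hB, fun p hp => (hg p hp).trans ?_⟩
  gcongr
  exact bd_rpow_le (bd_base_ge p) hε

/-- `liouville` along an entire curve, centre `3`, radius `1`. -/
theorem Adm0.bd_line {ε : ℝ} {h : Pt → ℝ} (hh : Adm0 ε h) {γ : ℂ → Pt}
    (hγ : ∀ ζ, AnalyticAt ℂ γ ζ) {R : ℂ → ℂ} {d n : ℕ} (hR : IsPoly d R)
    (hgood : ∀ ζ, R ζ ≠ 0 → good (γ ζ)) {B : ℝ}
    (hB : ∀ ζ, R ζ ≠ 0 → h (γ ζ) * ‖R ζ‖ ≤ B * (1 + ‖ζ‖) ^ n) {m K : ℝ} (hm : 0 ≤ m) (hK : 0 ≤ K)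
    (hball : ∀ ζ ∈ closedBall (3 : ℂ) 1, h (γ ζ) ≤ m)
    (hRK : ∀ ζ ∈ closedBall (3 : ℂ) 1, ‖R ζ‖ ^ 2 ≤ K) (ζ : ℂ) (hζ : R ζ ≠ 0) :
    h (γ ζ) ≤ m * (1 + K * ‖ζ - 3‖ ^ (n + d + 1) / ‖R ζ‖ ^ 2) := by
  have hRpos : 0 < ‖R ζ‖ ^ 2 := pow_pos (norm_pos_iff.2 hζ) 2
  have hq : 0 ≤ K * ‖ζ - 3‖ ^ (n + d + 1) / ‖R ζ‖ ^ 2 := by positivity
  rcases le_total ‖ζ - 3‖ 1 with h1 | h1
  · have := hball ζ (by rwa [mem_closedBall, dist_eq_norm])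
    nlinarith [mul_nonneg hm hq]
  · have key := liouville (Z := ℂ) (fun ζ => ζ) continuous_id univ
      (fun K hK => by simpa using hK) (fun ζ => h (γ ζ)) R d n hR 1 one_pos
      (hh.cont.comp (fun ζ _ => (hγ ζ).continuousAt.continuousWithinAt)
        (fun ζ hζ => hgood ζ hζ.2))
      (fun c _ hc => ⟨fun ζ => ζ, rfl, Eventually.of_forall fun ζ => ⟨mem_univ _, rfl⟩,
        fun g hg => hh.bd_lsm_mul (hγ c) (hgood c hc) hg⟩)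
      B (fun c _ hc => by simpa only [Real.rpow_one] using hB c hc) 3 1 one_pos (m * K)
      (mul_nonneg hm hK) (fun c _ hc hc1 => by
        have hcb : c ∈ closedBall (3 : ℂ) 1 := by rw [mem_closedBall, dist_eq_norm, hc1]
        rw [Real.rpow_one, hc1, one_pow, div_one]
        exact mul_le_mul (hball c hcb) (hRK c hcb) (by positivity) hm) ζ (mem_univ _) hζ h1
    rw [Real.rpow_one] at key
    have hpos : 0 < ‖ζ - 3‖ ^ (n + d + 1) := pow_pos (by linarith) _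
    rw [← mul_div_assoc, div_le_iff₀ hpos, ← le_div_iff₀ hRpos] at key
    calc h (γ ζ) ≤ m * K * ‖ζ - 3‖ ^ (n + d + 1) / ‖R ζ‖ ^ 2 := key
      _ = m * (K * ‖ζ - 3‖ ^ (n + d + 1) / ‖R ζ‖ ^ 2) := by ring
      _ ≤ _ := by nlinarith

theorem IsPoly.bd_congr {n : ℕ} {f g : ℂ → ℂ} (hf : IsPoly n f) (h : ∀ ζ, g ζ = f ζ) :
    IsPoly n g := by
  rw [funext h]; exact hf

theorem IsPoly.bd_cmul {n : ℕ} {f : ℂ → ℂ} (hf : IsPoly n f) (a : ℂ) :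
    IsPoly n fun ζ => a * f ζ := by
  simpa using (IsPoly.const a).mul hf

theorem bd_growth_Psi {a m : ℕ} {Y W₀ W₂ W₃ : ℂ → ℂ} (hY : IsPoly a Y) (h₀ : IsPoly m W₀)
    (h₂ : IsPoly m W₂) (h₃ : IsPoly m W₃) :
    ∃ C : ℝ, 0 ≤ C ∧ ∀ ζ, ‖Psi (Y ζ) (W₀ ζ) (W₂ ζ) (W₃ ζ)‖ ≤ C * (1 + ‖ζ‖) ^ (4 * a + m) := by
  have hp : ∀ (k : ℕ) {W : ℂ → ℂ}, k ≤ 4 → IsPoly m W →
      IsPoly (4 * a + m) fun ζ => Y ζ ^ k * W ζ := fun k W hk hW =>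
    ((hY.pow k).mul hW).mono (by nlinarith)
  have e1 : IsPoly (4 * a + m) fun ζ => (Psi (Y ζ) (W₀ ζ) (W₂ ζ) (W₃ ζ)).1 :=
    ((((((hp 0 (by norm_num) h₃).sub (hp 0 (by norm_num) h₂)).bd_cmul 2).add
      (hp 3 (by norm_num) h₀)).add (hp 2 (by norm_num) h₂)).add
      (hp 2 (by norm_num) h₃)).bd_cmul (1 / 4) |>.bd_congr fun ζ => by
        simp only [Psi]; ring
  have e2 : IsPoly (4 * a + m) fun ζ => (Psi (Y ζ) (W₀ ζ) (W₂ ζ) (W₃ ζ)).2.1 :=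
    (((hp 1 (by norm_num) h₀).add (hp 0 (by norm_num) h₂)).add
      (hp 0 (by norm_num) h₃)).bd_cmul (-1 / 4) |>.bd_congr fun ζ => by
        simp only [Psi]; ring
  have e3 : IsPoly (4 * a + m) fun ζ => (Psi (Y ζ) (W₀ ζ) (W₂ ζ) (W₃ ζ)).2.2 :=
    ((((((hp 0 (by norm_num) h₀).sub (hp 4 (by norm_num) h₀)).sub (hp 3 (by norm_num) h₂)).add
      ((hp 1 (by norm_num) h₂).bd_cmul 2)).sub (hp 3 (by norm_num) h₃)).sub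
      ((hp 1 (by norm_num) h₃).bd_cmul 2)).bd_cmul (1 / 2) |>.bd_congr fun ζ => by
        simp only [Psi]; ring
  obtain ⟨C₁, hC₁, g₁⟩ := e1.growth
  obtain ⟨C₂, hC₂, g₂⟩ := e2.growth
  obtain ⟨C₃, hC₃, g₃⟩ := e3.growth
  refine ⟨C₁ + C₂ + C₃, by positivity, fun ζ => ?_⟩
  have hE : 0 ≤ (1 + ‖ζ‖) ^ (4 * a + m) := by positivity
  have t₁ := mul_nonneg hC₁ hE
  have t₂ := mul_nonneg hC₂ hE
  have t₃ := mul_nonneg hC₃ hE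
  rw [Prod.norm_def, Prod.norm_def]
  refine max_le ?_ (max_le ?_ ?_)
  · linarith [g₁ ζ]
  · linarith [g₂ ζ]
  · linarith [g₃ ζ]

theorem bd_ball {Y : ℂ} (hY : Y ∈ closedBall (3 : ℂ) 1) : 2 ≤ ‖Y‖ ∧ ‖Y‖ ≤ 4 := by
  rw [mem_closedBall, dist_eq_norm] at hY
  have h1 := abs_norm_sub_norm_le Y 3
  have h3 : ‖(3 : ℂ)‖ = 3 := by simp
  rw [h3, abs_le] at h1
  constructor <;> linarith [h1.1, h1.2]

theorem bd_ball_good {Y : ℂ} (hY : Y ∈ closedBall (3 : ℂ) 1) : Y ≠ 0 ∧ Y ^ 4 ≠ 1 := by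
  have h := (bd_ball hY).1
  constructor
  · rintro rfl; norm_num at h
  · intro h4
    have h5 : ‖Y‖ ^ 4 = 1 := by rw [← norm_pow, h4, norm_one]
    have h6 : (2 : ℝ) ^ 4 ≤ ‖Y‖ ^ 4 := pow_le_pow_left₀ (by norm_num) h 4
    norm_num at h6
    linarith

theorem Adm0.bd_step_x {ε : ℝ} {h : Pt → ℝ} (hh : Adm0 ε h) (hε : ε ≤ 1) (v₀ v₁ : ℂ) {Y : ℂ}
    (hY : Y ∈ closedBall (3 : ℂ) 1) (hn : ∀ x ∈ closedBall (3 : ℂ) 1, h (x, Y, v₀, v₁) ≤ 1)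
    {x : ℂ} (hx : x ≠ 0) : h (x, Y, v₀, v₁) ≤ 1 + 16 * ‖x - 3‖ ^ 6 / ‖x‖ ^ 2 := by
  obtain ⟨B, hB, hg⟩ := hh.bd_growth_one hε
  have hl : ∀ a b c : ℂ, IsPoly 2 fun ζ => c * (a + b * ζ) ^ 2 := fun a b c =>
    (((((IsPoly.const a).mono zero_le_one).add (IsPoly.id.bd_cmul b)).pow 2).bd_cmul c)
  obtain ⟨C, hC, hw⟩ := bd_growth_Psi (IsPoly.const Y) (hl v₀ (-v₁) (Y ^ 5)⁻¹)
    (hl v₁ v₀ ((Y ^ 2 - 1) ^ 2)⁻¹) (hl v₁ (-v₀) (-((Y ^ 2 + 1) ^ 2)⁻¹))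
  have hw' : ∀ ζ, ‖wq (ζ, Y, v₀, v₁)‖ ≤ C * (1 + ‖ζ‖) ^ 2 := by
    intro ζ
    refine le_trans (le_of_eq ?_) (hw ζ)
    congr 1
    simp only [wq, zz, Matrix.cons_val_zero, Matrix.cons_val]
    congr 1 <;> ring
  have := hh.bd_line (γ := fun ζ => (ζ, Y, v₀, v₁)) (fun ζ => by fun_prop) (d := 1) (n := 4)
    IsPoly.id (fun ζ hζ => ⟨hζ, bd_ball_good hY⟩) (B := B * (1 + ‖Y‖) * C)
    (fun ζ hζ => by
      have h1 := hg (ζ, Y, v₀, v₁) ⟨hζ, bd_ball_good hY⟩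
      have hz : 0 < ‖ζ‖ := norm_pos_iff.2 hζ
      calc h (ζ, Y, v₀, v₁) * ‖ζ‖
          ≤ B * ((1 + ‖ζ‖) * (1 + ‖ζ‖⁻¹) * (1 + ‖Y‖)) * (C * (1 + ‖ζ‖) ^ 2) * ‖ζ‖ := by
            refine mul_le_mul_of_nonneg_right (h1.trans ?_) hz.le
            exact mul_le_mul_of_nonneg_left (hw' ζ) (by positivity)
        _ = B * (1 + ‖Y‖) * C * (1 + ‖ζ‖) ^ 4 := by field_simp; ring)
    (m := 1) (K := 16) zero_le_one (by norm_num) hn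
    (fun ζ hζ => by nlinarith [(bd_ball hζ).2, norm_nonneg ζ]) x hx
  simpa using this

theorem Adm0.bd_step_Y {ε : ℝ} {h : Pt → ℝ} (hh : Adm0 ε h) (hε : ε ≤ 1) (v₀ v₁ : ℂ) {x : ℂ}
    (hx : x ≠ 0) {m : ℝ} (hm : 0 ≤ m) (hn : ∀ Y ∈ closedBall (3 : ℂ) 1, h (x, Y, v₀, v₁) ≤ m)
    {Y : ℂ} (hY : Y ≠ 0) (hY' : Y ^ 4 ≠ 1) :
    h (x, Y, v₀, v₁) ≤
      m * (1 + (4 ^ 5 * 257 ^ 2) ^ 2 * ‖Y - 3‖ ^ 28 / ‖Y ^ 5 * (Y ^ 4 - 1) ^ 2‖ ^ 2) := by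
  obtain ⟨B, hB, hg⟩ := hh.bd_growth_one hε
  have hq : ∀ (k : ℕ) (a : ℂ), IsPoly (2 * k) fun ζ => (ζ ^ k + a) ^ 2 := fun k a =>
    (((IsPoly.id.pow k).mono (by omega)).add ((IsPoly.const a).mono (Nat.zero_le k))).pow 2
  have h5 : IsPoly 5 fun ζ : ℂ => ζ ^ 5 := IsPoly.id.pow 5
  obtain ⟨C, hC, hw⟩ := bd_growth_Psi (m := 9) IsPoly.id
    (((hq 4 (-1)).bd_cmul ((v₀ - x * v₁) ^ 2)).mono (by norm_num))
    ((h5.mul (hq 2 1)).bd_cmul ((v₁ + x * v₀) ^ 2))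
    ((h5.mul (hq 2 (-1))).bd_cmul (-(v₁ - x * v₀) ^ 2))
  have hgood : ∀ ζ : ℂ, ζ ^ 5 * (ζ ^ 4 - 1) ^ 2 ≠ 0 → ζ ≠ 0 ∧ ζ ^ 4 ≠ 1 := by
    intro ζ hζ
    constructor
    · rintro rfl; simp at hζ
    · intro h4; rw [h4] at hζ; simp at hζ
  have hw' : ∀ ζ : ℂ, ζ ^ 5 * (ζ ^ 4 - 1) ^ 2 ≠ 0 →
      ‖wq (x, ζ, v₀, v₁)‖ * ‖ζ ^ 5 * (ζ ^ 4 - 1) ^ 2‖ ≤ C * (1 + ‖ζ‖) ^ 13 := by
    intro ζ hζ
    refine le_trans (le_of_eq ?_) (hw ζ)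
    obtain ⟨h0, h4⟩ := hgood ζ hζ
    have hf : ζ ^ 4 - 1 = (ζ ^ 2 - 1) * (ζ ^ 2 + 1) := by ring
    have h4' : (ζ ^ 2 - 1) * (ζ ^ 2 + 1) ≠ 0 := hf ▸ sub_ne_zero.2 h4
    have ha : ζ ^ 2 - 1 ≠ 0 := left_ne_zero_of_mul h4'
    have hb : ζ ^ 2 + 1 ≠ 0 := right_ne_zero_of_mul h4'
    rw [mul_comm, ← norm_smul]
    congr 1
    simp only [wq, zz, Psi, Matrix.cons_val_zero, Matrix.cons_val, Prod.smul_mk, smul_eq_mul]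
    rw [hf]
    refine Prod.ext ?_ (Prod.ext ?_ ?_) <;> simp only [] <;> field_simp <;> ring
  have hR : IsPoly 13 fun ζ : ℂ => ζ ^ 5 * (ζ ^ 4 - 1) ^ 2 :=
    (h5.mul (hq 4 (-1))).bd_congr fun ζ => by ring
  have := hh.bd_line (γ := fun ζ => (x, ζ, v₀, v₁)) (fun ζ => by fun_prop) (n := 14)
    hR (fun ζ hζ => ⟨hx, hgood ζ hζ⟩) (B := B * ((1 + ‖x‖) * (1 + ‖x‖⁻¹)) * C)
    (fun ζ hζ => by
      have h1 := hg (x, ζ, v₀, v₁) ⟨hx, hgood ζ hζ⟩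
      calc h (x, ζ, v₀, v₁) * ‖ζ ^ 5 * (ζ ^ 4 - 1) ^ 2‖
          ≤ B * ((1 + ‖x‖) * (1 + ‖x‖⁻¹) * (1 + ‖ζ‖)) * ‖wq (x, ζ, v₀, v₁)‖ *
              ‖ζ ^ 5 * (ζ ^ 4 - 1) ^ 2‖ := mul_le_mul_of_nonneg_right h1 (norm_nonneg _)
        _ = B * ((1 + ‖x‖) * (1 + ‖x‖⁻¹) * (1 + ‖ζ‖)) * (‖wq (x, ζ, v₀, v₁)‖ *
              ‖ζ ^ 5 * (ζ ^ 4 - 1) ^ 2‖) := by ring
        _ ≤ B * ((1 + ‖x‖) * (1 + ‖x‖⁻¹) * (1 + ‖ζ‖)) * (C * (1 + ‖ζ‖) ^ 13) :=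
            mul_le_mul_of_nonneg_left (hw' ζ hζ) (by positivity)
        _ = B * ((1 + ‖x‖) * (1 + ‖x‖⁻¹)) * C * (1 + ‖ζ‖) ^ 14 := by ring)
    (K := (4 ^ 5 * 257 ^ 2) ^ 2) hm (by norm_num) hn
    (fun ζ hζ => by
      have h4 := (bd_ball hζ).2
      refine pow_le_pow_left₀ (norm_nonneg _) ?_ 2
      rw [norm_mul, norm_pow, norm_pow]
      have h1 : ‖ζ ^ 4 - 1‖ ≤ 257 := by
        refine (norm_sub_le _ _).trans ?_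
        rw [norm_pow, norm_one]
        have := pow_le_pow_left₀ (norm_nonneg ζ) h4 4
        linarith
      gcongr) Y (mul_ne_zero (pow_ne_zero _ hY) (pow_ne_zero _ (sub_ne_zero.2 hY')))
  exact this

/-- local bounds that do not depend on the admissible function, once it is normalised on the
bidisc around `(3,3)`.  Proof: `liouville` (`Z = ℂ`, `s = 1`) first in `x` with `R x = x`, then
in `Y` with `R Y = Y⁵ (Y⁴-1)²`, centre `3`, radius `1`. -/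
theorem adm_local_bound (p : Pt) (hp : good p) : ∃ C : ℝ, ∀ᶠ p' in 𝓝 p,
    ∀ (ε : ℝ) (h : Pt → ℝ), 0 < ε → ε ≤ 1 → Adm0 ε h →
      (∀ x ∈ closedBall (3 : ℂ) 1, ∀ Y ∈ closedBall (3 : ℂ) 1,
        h (x, Y, 1, 0) + h (x, Y, 0, 1) ≤ 1) → h p' ≤ C := by
  set Φ : Pt → ℝ := fun q => 2 * (‖q.2.2.1‖ ^ 2 + ‖q.2.2.2‖ ^ 2) *
    ((1 + 16 * ‖q.1 - 3‖ ^ 6 / ‖q.1‖ ^ 2) * (1 + (4 ^ 5 * 257 ^ 2) ^ 2 * ‖q.2.1 - 3‖ ^ 28 /
      ‖q.2.1 ^ 5 * (q.2.1 ^ 4 - 1) ^ 2‖ ^ 2)) with hΦ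
  have hc : ContinuousAt Φ p := by
    have h1 : ‖p.1‖ ^ 2 ≠ 0 := pow_ne_zero _ (norm_ne_zero_iff.2 hp.1)
    have h2 : ‖p.2.1 ^ 5 * (p.2.1 ^ 4 - 1) ^ 2‖ ^ 2 ≠ 0 := pow_ne_zero _ (norm_ne_zero_iff.2
      (mul_ne_zero (pow_ne_zero _ hp.2.1) (pow_ne_zero _ (sub_ne_zero.2 hp.2.2))))
    refine ContinuousAt.mul (by fun_prop) (ContinuousAt.mul ?_ ?_)
    · exact continuousAt_const.add (ContinuousAt.div (by fun_prop) (by fun_prop) h1)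
    · exact continuousAt_const.add (ContinuousAt.div (by fun_prop) (by fun_prop) h2)
  refine ⟨Φ p + 1, ?_⟩
  filter_upwards [hc.eventually (gt_mem_nhds (lt_add_one (Φ p))), isOpen_good.mem_nhds hp]
    with q hq1 hq2 ε h _ hε1 hh hn
  refine le_trans ?_ hq1.le
  obtain ⟨x, Y, v₀, v₁⟩ := q
  have hq : good (x, Y, v₀, v₁) := hq2
  have hgb : ∀ x ∈ closedBall (3 : ℂ) 1, ∀ Y ∈ closedBall (3 : ℂ) 1, ∀ a b : ℂ,
      0 ≤ h (x, Y, a, b) := fun x hx Y hY a b =>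
    hh.nonneg _ ⟨(bd_ball_good hx).1, bd_ball_good hY⟩
  have hm : 0 ≤ 1 + 16 * ‖x - 3‖ ^ 6 / ‖x‖ ^ 2 := by positivity
  have e1 := hh.bd_step_Y hε1 1 0 hq.1 hm (fun Y hY => hh.bd_step_x hε1 1 0 hY
    (fun x hx => by linarith [hn x hx Y hY, hgb x hx Y hY 0 1]) hq.1) hq.2.1 hq.2.2
  have e2 := hh.bd_step_Y hε1 0 1 hq.1 hm (fun Y hY => hh.bd_step_x hε1 0 1 hY
    (fun x hx => by linarith [hn x hx Y hY, hgb x hx Y hY 1 0]) hq.1) hq.2.1 hq.2.2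
  have e3 := (hh.herm x Y hq).le_of_nonneg (fun a b => hh.nonneg (x, Y, a, b) hq) v₀ v₁
  simp only at e1 e2 e3
  simp only [hΦ]
  have t1 := mul_le_mul_of_nonneg_left e1 (sq_nonneg ‖v₀‖)
  have t2 := mul_le_mul_of_nonneg_left e2 (sq_nonneg ‖v₁‖)
  linarith

theorem bd_add_ne {Y : ℂ} {w : Wt} {z : Fin 4 → ℂ} (hz : Over Y w z)
    (hD : bb Y w 1 - bb Y w 0 ≠ 0) : z 0 + z 1 ≠ 0 := by
  intro h0
  apply hD
  rw [← hz 0, ← hz 1]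
  linear_combination (z 1 - z 0) * h0

theorem bd_compact (w : Wt) (K : Set ℂ) (hK : IsCompact K) :
    IsCompact ({c : ℂ × (Fin 4 → ℂ) | Over c.1 w c.2} ∩ Prod.fst ⁻¹' K) := by
  have hbc : ∀ i, Continuous fun Y => bb Y w i := fun i =>
    (isPoly_bb w i).differentiable.continuous
  obtain ⟨C, hC⟩ := hK.exists_bound_of_continuousOn (f := fun Y => bb Y w)
    (continuous_pi hbc).continuousOn
  refine (hK.prod (isCompact_closedBall (0 : Fin 4 → ℂ) (|C| + 1))).of_isClosed_subset ?_ ?_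
  · refine IsClosed.inter ?_ (hK.isClosed.preimage continuous_fst)
    simp only [Over, setOf_forall]
    exact isClosed_iInter fun i =>
      isClosed_eq (by fun_prop) ((hbc i).comp continuous_fst)
  · rintro ⟨Y, z⟩ ⟨hz, hY⟩
    refine ⟨hY, ?_⟩
    rw [mem_closedBall_zero_iff, pi_norm_le_iff_of_nonneg (by positivity)]
    intro i
    have h1 : ‖z i‖ ^ 2 ≤ |C| := by
      rw [← norm_pow, hz i]
      exact ((norm_le_pi_norm _ i).trans (hC Y hY)).trans (le_abs_self C)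
    nlinarith [norm_nonneg (z i), abs_nonneg C]

/-- `liouville` on the fibre curve `S = {(Y, z) | Over Y w z} ⊆ ℂ × (Fin 4 → ℂ)` with
`R = RR · w`, `d = 36`, `n = 37`, `s = ε`. -/
theorem adm_curve {ε : ℝ} {h : Pt → ℝ} (hε : 0 < ε) (hh : Adm0 ε h) (w : Wt) (Y₀ : ℂ) (r : ℝ)
    (hr : 0 < r) (M : ℝ) (hM : 0 ≤ M)
    (hcirc : ∀ Y z, RR Y w ≠ 0 → ‖Y - Y₀‖ = r → Over Y w z →
      h (kap Y z) * (‖RR Y w‖ ^ 2 / ‖Y - Y₀‖ ^ 74) ^ ε ≤ M)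
    (Y : ℂ) (z : Fin 4 → ℂ) (hY : RR Y w ≠ 0) (hYr : r ≤ ‖Y - Y₀‖) (hz : Over Y w z) :
    h (kap Y z) * (‖RR Y w‖ ^ 2 / ‖Y - Y₀‖ ^ 74) ^ ε ≤ M := by
  obtain ⟨B, hB, hg⟩ := hh.growth
  choose Cb hCb hb using fun i => (isPoly_bb w i).growth
  set C : ℝ := ∑ i, Cb i with hCdef
  have hC : 0 ≤ C := Finset.sum_nonneg fun i _ => hCb i
  have hb' : ∀ (Y : ℂ) i, ‖bb Y w i‖ ≤ C * (1 + ‖Y‖) ^ 6 := fun Y i =>
    (hb i Y).trans (mul_le_mul_of_nonneg_right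
      (Finset.single_le_sum (fun j _ => hCb j) (Finset.mem_univ i)) (by positivity))
  have hkap : ∀ {Y : ℂ} {z : Fin 4 → ℂ}, Over Y w z → RR Y w ≠ 0 →
      good (kap Y z) ∧ wq (kap Y z) = w := fun hz hR =>
    wq_kap hz (bb_ne_of_RR hR).2 (good_of_RR hR).1 (good_of_RR hR).2
  exact liouville (Z := ℂ × (Fin 4 → ℂ)) Prod.fst continuous_fst {c | Over c.1 w c.2}
    (bd_compact w) (fun c => h (kap c.1 c.2)) (fun Y => RR Y w) 36 37 (isPoly_RR w) ε hε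
    (hh.cont.comp (f := fun c : ℂ × (Fin 4 → ℂ) => kap c.1 c.2)
      (fun c hc => (kap_analyticAt
        (bd_add_ne hc.1 (bb_ne_of_RR hc.2).2)).continuousAt.continuousWithinAt)
      (fun c hc => (hkap hc.1 hc.2).1))
    (fun c hc hR => by
      obtain ⟨Y, z⟩ := c
      obtain ⟨ζ, hζa, hζe, hζo⟩ := exists_branch hc (bb_ne_of_RR hR).1
      have hι : AnalyticAt ℂ (fun Y' : ℂ => (Y', w)) Y := by fun_prop
      have hζa' : AnalyticAt ℂ (fun Y' : ℂ => (Y', ζ (Y', w))) Y :=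
        analyticAt_id.prod (AnalyticAt.comp (f := fun Y' : ℂ => (Y', w)) hζa hι)
      refine ⟨fun Y' => (Y', ζ (Y', w)), by simp only [hζe], ?_, fun g hg => ?_⟩
      · filter_upwards [hι.continuousAt.eventually hζo] with Y' hY'
        exact ⟨hY', rfl⟩
      · refine hh.bd_lsm_mul (γ := fun Y' => kap Y' (ζ (Y', w))) ?_ ?_ hg
        · refine AnalyticAt.comp (f := fun Y' : ℂ => (Y', ζ (Y', w)))
            (g := fun q : ℂ × (Fin 4 → ℂ) => kap q.1 q.2) ?_ hζa'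
          simp only [hζe]
          exact kap_analyticAt (bd_add_ne hc (bb_ne_of_RR hR).2)
        · simp only [hζe]
          exact (hkap hc hR).1)
    (B * ‖w‖ * (64 * C ^ 6) ^ ε)
    (fun c hc hR => by
      obtain ⟨Y, z⟩ := c
      have hz : Over Y w z := hc
      obtain ⟨hgd, hwq⟩ := hkap hz hR
      have h1 := hg _ hgd
      rw [hwq] at h1
      have h2 := kap_norm_le hz (bb_ne_of_RR hR).2
      set E : ℝ := C * (1 + ‖Y‖) ^ 6 with hE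
      have hE0 : 0 ≤ E := by positivity
      have h3 : (2 * ∑ i, ‖bb Y w i‖) ^ 2 ≤ (8 * E) ^ 2 := by
        refine pow_le_pow_left₀ (by positivity) ?_ 2
        rw [Fin.sum_univ_four]
        linarith [hb' Y 0, hb' Y 1, hb' Y 2, hb' Y 3]
      have h4 : ‖bb Y w 0‖ * ‖bb Y w 1‖ * ‖bb Y w 2‖ * ‖bb Y w 3‖ ≤ E * E * E * E := by
        gcongr <;> exact hb' Y _
      have hX : 0 ≤ (1 + ‖(kap Y z).1‖) * (1 + ‖(kap Y z).1‖⁻¹) := by positivity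
      have h5 : (1 + ‖(kap Y z).1‖) * (1 + ‖(kap Y z).1‖⁻¹) * (1 + ‖Y‖) * ‖RR Y w‖ ≤
          64 * C ^ 6 * (1 + ‖Y‖) ^ 37 := by
        calc (1 + ‖(kap Y z).1‖) * (1 + ‖(kap Y z).1‖⁻¹) * (1 + ‖Y‖) * ‖RR Y w‖
            = (1 + ‖Y‖) * (((1 + ‖(kap Y z).1‖) * (1 + ‖(kap Y z).1‖⁻¹) *
                ‖bb Y w 1 - bb Y w 0‖ ^ 2) *
                (‖bb Y w 0‖ * ‖bb Y w 1‖ * ‖bb Y w 2‖ * ‖bb Y w 3‖)) := by
              simp only [RR, norm_mul, norm_pow]; ring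
          _ ≤ (1 + ‖Y‖) * ((8 * E) ^ 2 * (E * E * E * E)) := by
              refine mul_le_mul_of_nonneg_left ?_ (by positivity)
              exact mul_le_mul (h2.trans h3) h4 (by positivity) (by positivity)
          _ = 64 * C ^ 6 * (1 + ‖Y‖) ^ 37 := by rw [hE]; ring
      have h6 := Real.rpow_le_rpow (by positivity) h5 hε.le
      rw [Real.mul_rpow (by positivity) (norm_nonneg _),
        Real.mul_rpow (x := 64 * C ^ 6) (by positivity) (by positivity)] at h6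
      have hY1 : (kap Y z).2.1 = Y := rfl
      rw [hY1] at h1
      calc h (kap Y z) * ‖RR Y w‖ ^ ε
          ≤ B * ((1 + ‖(kap Y z).1‖) * (1 + ‖(kap Y z).1‖⁻¹) * (1 + ‖Y‖)) ^ ε * ‖w‖ *
              ‖RR Y w‖ ^ ε := mul_le_mul_of_nonneg_right h1 (by positivity)
        _ = B * ‖w‖ * (((1 + ‖(kap Y z).1‖) * (1 + ‖(kap Y z).1‖⁻¹) * (1 + ‖Y‖)) ^ ε *
              ‖RR Y w‖ ^ ε) := by ring
        _ ≤ B * ‖w‖ * ((64 * C ^ 6) ^ ε * ((1 + ‖Y‖) ^ 37) ^ ε) :=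
            mul_le_mul_of_nonneg_left h6 (by positivity)
        _ = _ := by ring)
    Y₀ r hr M hM (fun c hc hR hc1 => hcirc c.1 c.2 hR hc1 hc) (Y, z) hz hY hYr

end Crest.Agent.R258

end
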