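import Crest.Agent.R258.Defs

/-! Polynomial identities for the transition matrices and the sections `Z`, `q`
and the cocycle property. -/

set_option autoImplicit false

noncomputable section

namespace Crest.Agent.R258

open Crest.AlgGeometry.QuadricBundle

/-- `y`-degrees of the sections `Zᵢ`. -/
def dl : Fin 4 → ℕ := ![1, 1, 2, 2]

theorem sgn_zero : sgn 0 = 1 := by simp [sgn]
theorem sgn_one : sgn 1 = -1 := by simp [sgn]

theorem Mx_Mx (a : Fin 2) {x : ℂ} (y : ℂ) (hx : x ≠ 0) :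
    Mx (sgn a) x⁻¹ y * Mx (sgn a) x y = 1 := by
  ext i j
  fin_cases a <;> fin_cases i <;> fin_cases j <;>
    simp [Mx, sgn, Matrix.mul_apply, Fin.sum_univ_two] <;> field_simp <;> ring

theorem My_My (a b : Fin 2) (hab : a ≠ b) (x : ℂ) {y : ℂ} (hy : y ≠ 0) :
    My (sgn b) x y⁻¹ * My (sgn a) x y = 1 := by
  ext i j
  fin_cases a <;> fin_cases b <;> first | exact absurd rfl hab | skip
  all_goals fin_cases i <;> fin_cases j <;>
    simp [My, sgn, Matrix.mul_apply, Fin.sum_univ_two] <;> field_simp <;> ring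

theorem My_Mx (a b : Fin 2) (hab : a ≠ b) {x y : ℂ} (hx : x ≠ 0) (hy : y ≠ 0) :
    My (sgn a) x⁻¹ y * Mx (sgn a) x y = Mx (sgn b) x y⁻¹ * My (sgn a) x y := by
  ext i j
  fin_cases a <;> fin_cases b <;> first | exact absurd rfl hab | skip
  all_goals fin_cases i <;> fin_cases j <;>
    simp [My, Mx, sgn, Matrix.mul_apply, Fin.sum_univ_two] <;> field_simp <;> ring

theorem ZZ_x (a a' b : Fin 2) (h : a ≠ a') {x : ℂ} (y : ℂ) (hx : x ≠ 0) (u : Fin 2 → ℂ)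
    (i : Fin 4) : ZZ (a, b) x y u i = ZZ (a', b) x⁻¹ y ((Mx (sgn b) x y).mulVec u) i := by
  fin_cases a <;> fin_cases a' <;> first | exact absurd rfl h | skip
  all_goals fin_cases b <;> fin_cases i <;>
    simp [ZZ, Za, Zb, Zc, Zd, al, be, Mx, sgn, Matrix.mulVec, dotProduct, Fin.sum_univ_two] <;>
    field_simp <;> ring

theorem ZZ_y (a b b' : Fin 2) (h : b ≠ b') (x : ℂ) {y : ℂ} (hy : y ≠ 0) (u : Fin 2 → ℂ)
    (i : Fin 4) :
    ZZ (a, b) x y u i = y ^ dl i * ZZ (a, b') x y⁻¹ ((My (sgn b) x y).mulVec u) i := by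
  fin_cases b <;> fin_cases b' <;> first | exact absurd rfl h | skip
  all_goals fin_cases a <;> fin_cases i <;>
    simp [ZZ, Za, Zb, Zc, Zd, al, be, My, sgn, dl, Matrix.mulVec, dotProduct, Fin.sum_univ_two] <;>
    field_simp <;> ring


theorem ZZ_MM (α β : Chart) {x y : ℂ} (hx : α.1 ≠ β.1 → x ≠ 0) (hy : α.2 ≠ β.2 → y ≠ 0)
    (u : Fin 2 → ℂ) (i : Fin 4) :
    ZZ α x y u i = (if α.2 = β.2 then 1 else y ^ dl i) *
      ZZ β (if α.1 = β.1 then x else x⁻¹) (if α.2 = β.2 then y else y⁻¹)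
        ((MM α β x y).mulVec u) i := by
  obtain ⟨a, b⟩ := α
  obtain ⟨a', b'⟩ := β
  by_cases h1 : a = a' <;> by_cases h2 : b = b'
  · subst h1 h2
    simp [MM]
  · subst h1
    simp only [MM, h2, if_true, if_false, mul_one]
    exact ZZ_y a b b' h2 x (hy h2) u i
  · subst h2
    simp only [MM, h1, if_true, if_false, one_mul]
    exact ZZ_x a a' b h1 y (hx h1) u i
  · simp only [MM, h1, h2, if_false, ← Matrix.mulVec_mulVec]
    rw [ZZ_x a a' b h1 y (hx h1) u i]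
    exact ZZ_y a' b b' h2 _ (hy h2) _ i

theorem sgn_sq (a : Fin 2) : sgn a ^ 2 = 1 := by
  fin_cases a <;> simp [sgn]

theorem qq_zero (a : Fin 2) (x y : ℂ) (u : Fin 2 → ℂ) :
    qq (a, 0) x y u = Psi (y ^ 2) (ZZ (a, 0) x y u 0 ^ 2) (ZZ (a, 0) x y u 2 ^ 2)
      (-(ZZ (a, 0) x y u 3 ^ 2)) := by
  simp [qq, ZZ, mul_pow, sgn_sq, sgn_zero]

theorem qq_one (a : Fin 2) (x y : ℂ) (u : Fin 2 → ℂ) :
    qq (a, 1) x y u =
      ((Psi (y ^ 2) (-(ZZ (a, 1) x y u 1 ^ 2)) (ZZ (a, 1) x y u 2 ^ 2)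
          (-(ZZ (a, 1) x y u 3 ^ 2))).2.1,
        (Psi (y ^ 2) (-(ZZ (a, 1) x y u 1 ^ 2)) (ZZ (a, 1) x y u 2 ^ 2)
          (-(ZZ (a, 1) x y u 3 ^ 2))).1,
        (Psi (y ^ 2) (-(ZZ (a, 1) x y u 1 ^ 2)) (ZZ (a, 1) x y u 2 ^ 2)
          (-(ZZ (a, 1) x y u 3 ^ 2))).2.2) := by
  simp [qq, ZZ, mul_pow, sgn_sq, sgn_one]

theorem rel_zero (a : Fin 2) (x y : ℂ) (u : Fin 2 → ℂ) :
    ZZ (a, 0) x y u 1 ^ 2 = y ^ 10 * ZZ (a, 0) x y u 0 ^ 2 +
      (y ^ 4 - 1) ^ 2 * ZZ (a, 0) x y u 2 ^ 2 - (y ^ 4 + 1) ^ 2 * ZZ (a, 0) x y u 3 ^ 2 := by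
  simp [ZZ, mul_pow, sgn_sq, sgn_zero, Za, Zb, Zc, Zd, al, be]
  ring

theorem rel_one (a : Fin 2) (x y : ℂ) (u : Fin 2 → ℂ) :
    ZZ (a, 1) x y u 0 ^ 2 = y ^ 10 * ZZ (a, 1) x y u 1 ^ 2 -
      (y ^ 4 - 1) ^ 2 * ZZ (a, 1) x y u 2 ^ 2 + (y ^ 4 + 1) ^ 2 * ZZ (a, 1) x y u 3 ^ 2 := by
  simp [ZZ, mul_pow, sgn_sq, sgn_one, Za, Zb, Zc, Zd, al, be]
  ring

theorem qq_x (a a' b : Fin 2) (h : a ≠ a') {x : ℂ} (y : ℂ) (hx : x ≠ 0) (u : Fin 2 → ℂ) :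
    qq (a, b) x y u = qq (a', b) x⁻¹ y ((Mx (sgn b) x y).mulVec u) := by
  have hb : b = 0 ∨ b = 1 := by fin_cases b <;> simp
  rcases hb with rfl | rfl
  · simp only [qq_zero, ZZ_x a a' 0 h y hx u]
  · simp only [qq_one, ZZ_x a a' 1 h y hx u]

theorem qq_y (a b b' : Fin 2) (h : b ≠ b') (x : ℂ) {y : ℂ} (hy : y ≠ 0) (u : Fin 2 → ℂ) :
    qq (a, b) x y u = qq (a, b') x y⁻¹ ((My (sgn b) x y).mulVec u) := by
  have hb : (b = 0 ∧ b' = 1) ∨ (b = 1 ∧ b' = 0) := by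
    fin_cases b <;> fin_cases b' <;> simp at h ⊢
  rcases hb with ⟨rfl, rfl⟩ | ⟨rfl, rfl⟩
  · rw [qq_zero, qq_one]
    simp only [ZZ_y a 0 1 h x hy u, mul_pow, rel_one]
    generalize ZZ (a, 1) x y⁻¹ ((My (sgn 0) x y).mulVec u) = Z
    simp only [Psi, dl, Prod.mk.injEq]
    simp
    refine ⟨?_, ?_, ?_⟩ <;> field_simp <;> ring
  · rw [qq_zero, qq_one]
    simp only [ZZ_y a 1 0 h x hy u, mul_pow, rel_zero]
    generalize ZZ (a, 0) x y⁻¹ ((My (sgn 1) x y).mulVec u) = Z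
    simp only [Psi, dl, Prod.mk.injEq]
    simp
    refine ⟨?_, ?_, ?_⟩ <;> field_simp <;> ring

theorem qq_MM (α β : Chart) {x y : ℂ} (hx : α.1 ≠ β.1 → x ≠ 0) (hy : α.2 ≠ β.2 → y ≠ 0)
    (u : Fin 2 → ℂ) :
    qq α x y u = qq β (if α.1 = β.1 then x else x⁻¹) (if α.2 = β.2 then y else y⁻¹)
        ((MM α β x y).mulVec u) := by
  obtain ⟨a, b⟩ := α
  obtain ⟨a', b'⟩ := β
  by_cases h1 : a = a' <;> by_cases h2 : b = b'
  · subst h1 h2
    simp [MM]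
  · subst h1
    simp only [MM, h2, if_true, if_false, mul_one]
    exact qq_y a b b' h2 x (hy h2) u
  · subst h2
    simp only [MM, h1, if_true, if_false, one_mul]
    exact qq_x a a' b h1 y (hx h1) u
  · simp only [MM, h1, h2, if_false, ← Matrix.mulVec_mulVec]
    rw [qq_x a a' b h1 y (hx h1) u]
    exact qq_y a' b b' h2 _ (hy h2) _


theorem fin2_cases (b : Fin 2) : b = 0 ∨ b = 1 := by fin_cases b <;> simp

theorem norm_bound_aux {y : ℂ} (hy : ‖y‖ ≤ 1) (n : ℕ) : ‖y ^ n‖ ≤ 1 := by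
  rw [norm_pow]; exact pow_le_one₀ (norm_nonneg _) hy

theorem norm_lin_le {y : ℂ} (hy : ‖y‖ ≤ 1) (n : ℕ) (a b : ℂ) :
    ‖a + b * y ^ n‖ ≤ ‖a‖ + ‖b‖ := by
  refine (norm_add_le _ _).trans ?_
  rw [norm_mul]
  have := norm_bound_aux hy n
  nlinarith [norm_nonneg b, norm_nonneg (y ^ n)]

theorem ZZ_sq (α : Chart) (y : ℂ) (i : Fin 4) : ∃ c₁ c₂ c₃ : ℂ,
    (‖y‖ ≤ 1 → ‖c₁‖ + ‖c₂‖ + ‖c₃‖ ≤ 7) ∧ ∀ (x : ℂ) (u : Fin 2 → ℂ),
      ZZ α x y u i ^ 2 = c₁ * (qq α x y u).1 + c₂ * (qq α x y u).2.1 + c₃ * (qq α x y u).2.2 := by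
  obtain ⟨a, b⟩ := α
  have key : ∀ p₁ q₁ p₂ q₂ p₃ q₃ : ℂ, ∀ n₁ n₂ n₃ : ℕ,
      ‖p₁‖ + ‖q₁‖ + (‖p₂‖ + ‖q₂‖) + (‖p₃‖ + ‖q₃‖) ≤ 7 → ‖y‖ ≤ 1 →
      ‖p₁ + q₁ * y ^ n₁‖ + ‖p₂ + q₂ * y ^ n₂‖ + ‖p₃ + q₃ * y ^ n₃‖ ≤ 7 := by
    intro p₁ q₁ p₂ q₂ p₃ q₃ n₁ n₂ n₃ h hy
    linarith [norm_lin_le hy n₁ p₁ q₁, norm_lin_le hy n₂ p₂ q₂, norm_lin_le hy n₃ p₃ q₃]
  have hi : i = 0 ∨ i = 1 ∨ i = 2 ∨ i = 3 := by fin_cases i <;> simp
  rcases fin2_cases b with rfl | rfl <;> rcases hi with rfl | rfl | rfl | rfl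
  · exact ⟨_, _, _, key 0 4 0 0 2 0 2 0 0 (by norm_num), fun x u => by
      simp only [qq_zero, Psi]; ring⟩
  · exact ⟨_, _, _, key 0 0 (-4) 0 0 (-2) 0 0 2 (by norm_num), fun x u => by
      simp only [qq_zero, Psi, rel_zero]; ring⟩
  · exact ⟨_, _, _, key (-1) (-2) (-2) (-1) 0 (-1) 4 4 2 (by norm_num), fun x u => by
      simp only [qq_zero, Psi]; ring⟩
  · exact ⟨_, _, _, key (-1) 2 2 (-1) 0 1 4 4 2 (by norm_num), fun x u => by
      simp only [qq_zero, Psi]; ring⟩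
  · exact ⟨_, _, _, key 4 0 0 0 0 2 0 0 2 (by norm_num), fun x u => by
      simp only [qq_one, Psi, rel_one]; ring⟩
  · exact ⟨_, _, _, key 0 0 0 (-4) (-2) 0 0 2 0 (by norm_num), fun x u => by
      simp only [qq_one, Psi]; ring⟩
  · exact ⟨_, _, _, key (-2) (-1) (-1) (-2) 0 (-1) 4 4 2 (by norm_num), fun x u => by
      simp only [qq_one, Psi]; ring⟩
  · exact ⟨_, _, _, key 2 (-1) (-1) 2 0 1 4 4 2 (by norm_num), fun x u => by
      simp only [qq_one, Psi]; ring⟩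

theorem u_eq_ZZ (α : Chart) (x y : ℂ) (j : Fin 2) : ∃ c : Fin 4 → ℂ,
    (‖x‖ ≤ 1 → ‖y‖ ≤ 1 → ∑ i, ‖c i‖ ≤ 4) ∧ ∀ u : Fin 2 → ℂ, u j = ∑ i, c i * ZZ α x y u i := by
  obtain ⟨a, b⟩ := α
  have key : ∀ (e : Fin 4 → ℂ) (m n : Fin 4 → ℕ), (∀ i, ‖e i‖ ≤ 1) → ‖x‖ ≤ 1 → ‖y‖ ≤ 1 →
      ∑ i, ‖e i * x ^ m i * y ^ n i‖ ≤ 4 := by
    intro e m n he hx hy
    have : ∀ i, ‖e i * x ^ m i * y ^ n i‖ ≤ 1 := fun i => by
      rw [norm_mul, norm_mul]
      exact mul_le_one₀ (mul_le_one₀ (he i) (norm_nonneg _) (norm_bound_aux hx _))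
        (norm_nonneg _) (norm_bound_aux hy _)
    calc ∑ i, ‖e i * x ^ m i * y ^ n i‖ ≤ ∑ _i : Fin 4, (1 : ℝ) :=
          Finset.sum_le_sum fun i _ => this i
      _ = 4 := by simp
  rcases fin2_cases a with rfl | rfl <;> rcases fin2_cases b with rfl | rfl <;>
    rcases fin2_cases j with rfl | rfl
  · exact ⟨_, key ![1, 0, 1 / 2, -1 / 2] ![0, 0, 1, 1] ![0, 0, 3, 3]
      (fun i => by fin_cases i <;> simp <;> norm_num), fun u => by
      simp [Fin.sum_univ_four, ZZ, sgn, Za, Zb, Zc, Zd, al, be]; ring⟩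
  · exact ⟨_, key ![1 / 2, 1 / 2, 1 / 2, -1 / 2] ![1, 1, 0, 0] ![9, 4, 0, 0]
      (fun i => by fin_cases i <;> simp <;> norm_num), fun u => by
      simp [Fin.sum_univ_four, ZZ, sgn, Za, Zb, Zc, Zd, al, be]; ring⟩
  · exact ⟨_, key ![0, 1, 1 / 2, 1 / 2] ![0, 0, 1, 1] ![0, 0, 3, 3]
      (fun i => by fin_cases i <;> simp <;> norm_num), fun u => by
      simp [Fin.sum_univ_four, ZZ, sgn, Za, Zb, Zc, Zd, al, be]; ring⟩
  · exact ⟨_, key ![1 / 2, 1 / 2, -1 / 2, -1 / 2] ![1, 1, 0, 0] ![4, 9, 0, 0]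
      (fun i => by fin_cases i <;> simp <;> norm_num), fun u => by
      simp [Fin.sum_univ_four, ZZ, sgn, Za, Zb, Zc, Zd, al, be]; ring⟩
  · exact ⟨_, key ![-1, 0, 1 / 2, 1 / 2] ![0, 0, 1, 1] ![0, 0, 3, 3]
      (fun i => by fin_cases i <;> simp <;> norm_num), fun u => by
      simp [Fin.sum_univ_four, ZZ, sgn, Za, Zb, Zc, Zd, al, be]; ring⟩
  · exact ⟨_, key ![-1 / 2, 1 / 2, 1 / 2, 1 / 2] ![1, 1, 0, 0] ![9, 4, 0, 0]
      (fun i => by fin_cases i <;> simp <;> norm_num), fun u => by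
      simp [Fin.sum_univ_four, ZZ, sgn, Za, Zb, Zc, Zd, al, be]; ring⟩
  · exact ⟨_, key ![0, 1, 1 / 2, -1 / 2] ![0, 0, 1, 1] ![0, 0, 3, 3]
      (fun i => by fin_cases i <;> simp <;> norm_num), fun u => by
      simp [Fin.sum_univ_four, ZZ, sgn, Za, Zb, Zc, Zd, al, be]; ring⟩
  · exact ⟨_, key ![-1 / 2, 1 / 2, -1 / 2, 1 / 2] ![1, 1, 0, 0] ![4, 9, 0, 0]
      (fun i => by fin_cases i <;> simp <;> norm_num), fun u => by
      simp [Fin.sum_univ_four, ZZ, sgn, Za, Zb, Zc, Zd, al, be]; ring⟩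

theorem qq_bound (α : Chart) {x y : ℂ} (hx : ‖x‖ ≤ 1) (hy : ‖y‖ ≤ 1) (u : Fin 2 → ℂ) :
    ‖u‖ ^ 2 ≤ 112 * ‖qq α x y u‖ := by
  set N := ‖qq α x y u‖ with hN
  have hN0 : 0 ≤ N := norm_nonneg _
  have hZ : ∀ i, ‖ZZ α x y u i‖ ≤ Real.sqrt (7 * N) := by
    intro i
    obtain ⟨c₁, c₂, c₃, hc, h⟩ := ZZ_sq α y i
    apply Real.le_sqrt_of_sq_le
    rw [← norm_pow, h]
    have h1 : ‖(qq α x y u).1‖ ≤ N := norm_fst_le _
    have h2 : ‖(qq α x y u).2.1‖ ≤ N := (norm_fst_le _).trans (norm_snd_le _)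
    have h3 : ‖(qq α x y u).2.2‖ ≤ N := (norm_snd_le _).trans (norm_snd_le _)
    calc _ ≤ ‖c₁‖ * N + ‖c₂‖ * N + ‖c₃‖ * N := by
          refine norm_add₃_le.trans ?_
          simp only [norm_mul]
          gcongr
      _ = (‖c₁‖ + ‖c₂‖ + ‖c₃‖) * N := by ring
      _ ≤ 7 * N := by gcongr; exact hc hy
  have hu : ‖u‖ ≤ 4 * Real.sqrt (7 * N) := by
    refine (pi_norm_le_iff_of_nonneg (by positivity)).2 fun j => ?_
    obtain ⟨c, hc, h⟩ := u_eq_ZZ α x y j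
    rw [h u]
    calc _ ≤ ∑ i, ‖c i‖ * Real.sqrt (7 * N) := by
          refine (norm_sum_le _ _).trans (Finset.sum_le_sum fun i _ => ?_)
          rw [norm_mul]
          gcongr
          exact hZ i
      _ = (∑ i, ‖c i‖) * Real.sqrt (7 * N) := by rw [Finset.sum_mul]
      _ ≤ 4 * Real.sqrt (7 * N) := by gcongr; exact hc hx hy
  calc ‖u‖ ^ 2 ≤ (4 * Real.sqrt (7 * N)) ^ 2 := by gcongr
    _ = 112 * N := by rw [mul_pow, Real.sq_sqrt (by positivity)]; ring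

theorem wq_al_be (x y : ℂ) (u : Fin 2 → ℂ) (hy : y ≠ 0) (hy' : y ^ 8 ≠ 1) :
    wq (x, y ^ 2, al 1 x y u, be 1 x y u) = qq (0, 0) x y u := by
  have h8 : (y ^ 4 - 1) * (y ^ 4 + 1) ≠ 0 := by
    intro h
    apply hy'
    linear_combination h
  have h1 : (y ^ 2) ^ 2 - 1 ≠ 0 := by
    rw [← pow_mul]; exact left_ne_zero_of_mul h8
  have h2 : (y ^ 2) ^ 2 + 1 ≠ 0 := by
    rw [← pow_mul]; exact right_ne_zero_of_mul h8
  have e0 : (al 1 x y u - x * be 1 x y u) ^ 2 / (y ^ 2) ^ 5 = Za 1 x y u ^ 2 := by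
    rw [div_eq_iff (by positivity)]
    simp only [Za, al, be]; ring
  have e2 : (be 1 x y u + x * al 1 x y u) ^ 2 / ((y ^ 2) ^ 2 - 1) ^ 2 = Zc 1 x y u ^ 2 := by
    rw [div_eq_iff (pow_ne_zero _ h1)]
    simp only [Zc, al, be]; ring
  have e3 : -((be 1 x y u - x * al 1 x y u) ^ 2) / ((y ^ 2) ^ 2 + 1) ^ 2 = -(Zd 1 x y u ^ 2) := by
    rw [div_eq_iff (pow_ne_zero _ h2)]
    simp only [Zd, al, be]; ring
  simp only [wq, zz, qq, sgn_zero, if_true, one_mul, Matrix.cons_val_zero, Matrix.cons_val]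
  rw [e0, e2, e3]

theorem MM_cocycle (α β γ : Chart) {x y : ℂ} (hx : α.1 ≠ β.1 → x ≠ 0) (hy : α.2 ≠ β.2 → y ≠ 0)
    (hx' : α.1 ≠ γ.1 → x ≠ 0) :
    MM β γ (if α.1 = β.1 then x else x⁻¹) (if α.2 = β.2 then y else y⁻¹) * MM α β x y =
      MM α γ x y := by
  obtain ⟨a, b⟩ := α
  obtain ⟨a', b'⟩ := β
  obtain ⟨a'', b''⟩ := γ
  have two : ∀ {p q r : Fin 2}, p ≠ q → q ≠ r → p = r := by decide
  simp only [ne_eq] at hx hy hx'
  by_cases h1 : a = a' <;> by_cases h2 : b = b'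
  · subst h1 h2
    simp [MM]
  · subst h1
    have hy := hy h2
    by_cases h3 : a = a'' <;> by_cases h4 : b' = b''
    · subst h3 h4
      simp [MM, h2]
    · obtain rfl := two h2 h4
      subst h3
      simp [MM, h2, h4, My_My b b' h2 x hy]
    · subst h4
      simp [MM, h2, h3, My_Mx b b' h2 (hx' h3) hy]
    · obtain rfl := two h2 h4
      simp only [MM, h2, h3, h4, if_true, if_false, mul_one, one_mul, mul_assoc]
      rw [← My_Mx b b' h2 (hx' h3) hy, ← mul_assoc, My_My b b' h2 _ hy, one_mul]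
  · subst h2
    have hx := hx h1
    by_cases h3 : a' = a'' <;> by_cases h4 : b = b''
    · subst h3 h4
      simp [MM, h1]
    · subst h3
      simp [MM, h1, h4]
    · obtain rfl := two h1 h3
      subst h4
      simp [MM, h1, h3, Mx_Mx b y hx]
    · obtain rfl := two h1 h3
      simp only [MM, h1, h3, h4, if_true, if_false, mul_one, one_mul, mul_assoc, inv_inv]
      rw [Mx_Mx b y hx, mul_one]
  · have hx := hx h1
    have hy := hy h2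
    by_cases h3 : a' = a'' <;> by_cases h4 : b' = b''
    · subst h3 h4
      simp [MM, h1, h2]
    · obtain rfl := two h2 h4
      subst h3
      simp only [MM, h1, h2, h4, if_true, if_false, mul_one, one_mul]
      rw [← mul_assoc, My_My b b' h2 _ hy, one_mul]
    · obtain rfl := two h1 h3
      subst h4
      simp only [MM, h1, h2, h3, if_true, if_false, mul_one, one_mul]
      rw [My_Mx b b' h2 hx hy, ← mul_assoc, Mx_Mx b' _ hx, one_mul]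
    · obtain rfl := two h1 h3
      obtain rfl := two h2 h4
      simp only [MM, h1, h2, h3, h4, if_true, if_false, mul_one, inv_inv]
      rw [My_Mx b b' h2 hx hy, mul_assoc, ← mul_assoc (Mx (sgn b') x⁻¹ y⁻¹), Mx_Mx b' _ hx, one_mul,
        My_My b b' h2 _ hy]

theorem lineTrans_cocycle (α β γ : Chart) {p : Fin 2 → ℂ} (hp : p ∈ overlap α β) :
    lineTrans 1 1 α β p * lineTrans 1 1 β γ (tau α β p) = lineTrans 1 1 α γ p := by
  obtain ⟨a, b⟩ := α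
  obtain ⟨a', b'⟩ := β
  obtain ⟨a'', b''⟩ := γ
  obtain ⟨hx, hy⟩ := hp
  have aux : ∀ (c c' c'' : Fin 2) (z : ℂ), (c ≠ c' → z ≠ 0) →
      (if c = c' then 1 else z) * (if c' = c'' then 1 else if c = c' then z else z⁻¹) =
        if c = c'' then 1 else z := by
    intro c c' c'' z hz
    fin_cases c <;> fin_cases c' <;> fin_cases c'' <;> simp at hz ⊢ <;> simp [hz]
  simp only [lineTrans, tau, zpow_one, Matrix.cons_val_zero, Matrix.cons_val_one]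
  rw [← aux a a' a'' (p 0) hx, ← aux b b' b'' (p 1) hy]
  ring

theorem gk_cocycle (k : ℕ) (hk : k ≠ 0) : IsHoloCocycle (gk k) := by
  refine ⟨fun α p => ?_, fun α β i j => ?_, fun α β γ p hp => ?_⟩
  · simp [gk, lineTrans, MM]
  · obtain ⟨a, b⟩ := α
    obtain ⟨a', b'⟩ := β
    intro p hp
    apply DifferentiableAt.differentiableWithinAt
    obtain ⟨hx, hy⟩ := hp
    simp only [ne_eq] at hx hy
    by_cases h1 : a = a' <;> by_cases h2 : b = b'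
    · simp only [gk, lineTrans, MM, h1, h2, if_true]
      fun_prop
    · have hy := pow_ne_zero k (hy h2)
      fin_cases i <;> fin_cases j <;>
        simp [gk, lineTrans, MM, h1, h2, My, -inv_pow] <;> fun_prop (disch := assumption)
    · have hx := pow_ne_zero k (hx h1)
      fin_cases i <;> fin_cases j <;>
        simp [gk, lineTrans, MM, h1, h2, Mx, -inv_pow] <;> fun_prop (disch := assumption)
    · have hy := pow_ne_zero k (hy h2)
      have hx := pow_ne_zero k (hx h1)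
      fin_cases i <;> fin_cases j <;>
        simp [gk, lineTrans, MM, h1, h2, Mx, My, -inv_pow] <;>
        fun_prop (disch := assumption)
  · obtain ⟨h1, h2⟩ := hp
    have e0 : tau α β p 0 ^ k = if α.1 = β.1 then p 0 ^ k else (p 0 ^ k)⁻¹ := by
      simp only [tau, Matrix.cons_val_zero]
      split_ifs <;> simp
    have e1 : tau α β p 1 ^ k = if α.2 = β.2 then p 1 ^ k else (p 1 ^ k)⁻¹ := by
      simp only [tau, Matrix.cons_val_one, Matrix.cons_val_zero]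
      split_ifs <;> simp
    simp only [gk]
    rw [Matrix.smul_mul, Matrix.mul_smul, smul_smul, lineTrans_cocycle α β γ h1,
      ← Matrix.transpose_mul, e0, e1,
      MM_cocycle α β γ (fun h => pow_ne_zero k (h1.1 h)) (fun h => pow_ne_zero k (h1.2 h))
        (fun h => pow_ne_zero k (h2.1 h))]

end Crest.Agent.R258

end
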