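import Crest.Agent.R258.Poly
import Crest.Agent.R258.Alg

/-! The limit is constant on the generic fibres of `wq`.

Proof.  Let `m` be the maximum of `U (kap Y₀ z₀)` over the (16) points over one `Y₀`; by
`Lim.curve` the maximum over every `Y` with `RR Y w ≠ 0` is `m`.  The set of such `Y` where all
points have `U = m` is open (`Lim.smp` along local branches), its complement is open
(`Lim.usc`), `{RR · w ≠ 0}` is connected (complement of a finite set), and the set is non-empty: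
near the branch point use the disc `τ ↦ kap (Y τ) (z₀ τ, τ, z₂ τ, z₃ τ)`,
`Y τ = -(τ² + 4B)/(2C)`, and the invariance of `U` under even sign changes of `z`
(`sym1`, `sym2`, `v ↦ -v`). -/

set_option autoImplicit false

noncomputable section

namespace Crest.Agent.R258

open Filter Topology Metric Set

theorem const_over_iff {Y : ℂ} {w : Wt} {a b c d : ℂ} : Over Y w ![a, b, c, d] ↔
    a ^ 2 = bb Y w 0 ∧ b ^ 2 = bb Y w 1 ∧ c ^ 2 = bb Y w 2 ∧ d ^ 2 = bb Y w 3 := by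
  constructor
  · intro h
    exact ⟨h 0, h 1, h 2, h 3⟩
  · rintro ⟨h0, h1, h2, h3⟩ i
    fin_cases i
    exacts [h0, h1, h2, h3]

theorem const_eta (z : Fin 4 → ℂ) : z = ![z 0, z 1, z 2, z 3] := by
  funext i
  fin_cases i <;> rfl

theorem const_add_ne {Y : ℂ} {w : Wt} {z : Fin 4 → ℂ} (hz : Over Y w z)
    (hD : bb Y w 1 - bb Y w 0 ≠ 0) : z 0 + z 1 ≠ 0 ∧ z 1 - z 0 ≠ 0 := by
  rw [← hz 0, ← hz 1, show z 1 ^ 2 - z 0 ^ 2 = (z 0 + z 1) * (z 1 - z 0) by ring] at hD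
  exact ⟨left_ne_zero_of_mul hD, right_ne_zero_of_mul hD⟩

/-- on a fibre, `U` takes the value at a given point or at its flip in the coordinate `1`. -/
theorem const_two_values {U : Pt → ℝ} (hU : Lim U) {Y : ℂ} {w : Wt}
    (hD : bb Y w 1 - bb Y w 0 ≠ 0) (hY : Y ≠ 0) (hY4 : Y ^ 4 ≠ 1) {a b c d : ℂ}
    (hz : Over Y w ![a, b, c, d]) {z' : Fin 4 → ℂ} (hz' : Over Y w z') :
    U (kap Y z') = U (kap Y ![a, b, c, d]) ∨ U (kap Y z') = U (kap Y ![a, -b, c, d]) := by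
  let V : ℂ → ℂ → ℂ → ℂ → ℝ := fun a b c d => U (kap Y ![a, b, c, d])
  let P : ℂ → ℂ → ℂ → ℂ → Prop := fun a b c d =>
    a ^ 2 = bb Y w 0 ∧ b ^ 2 = bb Y w 1 ∧ c ^ 2 = bb Y w 2 ∧ d ^ 2 = bb Y w 3
  have hg : ∀ a b c d, P a b c d → good (kap Y ![a, b, c, d]) := fun a b c d h =>
    (wq_kap (const_over_iff.2 h) hD hY hY4).1
  have N : ∀ a b c d, P a b c d → V (-a) (-b) (-c) (-d) = V a b c d := by
    intro a b c d h
    have h1 := (hU.herm ((c - d) / (a + b)) Y (hg a b c d h)).smul (-1) ((a + b) / 2) ((c + d) / 2)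
    simp only [norm_neg, norm_one, one_pow, one_mul] at h1
    have e : kap Y ![-a, -b, -c, -d] =
        ((c - d) / (a + b), Y, -1 * ((a + b) / 2), -1 * ((c + d) / 2)) := by
      simp only [kap, Matrix.cons_val_zero, Matrix.cons_val_one, Matrix.cons_val]
      refine Prod.ext ?_ (Prod.ext rfl (Prod.ext (by ring) (by ring)))
      rw [show -c - -d = -(c - d) by ring, show -a + -b = -(a + b) by ring, neg_div_neg_eq]
    simp only [V]
    rw [e, h1]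
    rfl
  have F23 : ∀ a b c d, P a b c d → V a b (-c) (-d) = V a b c d := by
    intro a b c d h
    have e : kap Y ![a, b, -c, -d] = sig1 (kap Y ![a, b, c, d]) := by
      simp only [kap, sig1, Matrix.cons_val_zero, Matrix.cons_val_one, Matrix.cons_val]
      exact Prod.ext (by ring) (Prod.ext rfl (Prod.ext rfl (by ring)))
    simp only [V]
    rw [e, hU.sym1 _ (hg a b c d h)]
  have F03 : ∀ a b c d, P a b c d → V (-a) b c (-d) = V a b c d := by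
    intro a b c d h
    have hz := const_over_iff.2 h
    obtain ⟨h1, h2⟩ := zz_kap hz hD
    have h3 := (const_add_ne hz hD).2
    set p := kap Y ![a, b, c, d] with hp
    have a0 : p.2.2.1 - p.1 * p.2.2.2 = a := congrFun h1 0
    have a1 : p.2.2.1 + p.1 * p.2.2.2 = b := congrFun h1 1
    have a2 : p.2.2.2 + p.1 * p.2.2.1 = c := congrFun h1 2
    have a3 : p.2.2.2 - p.1 * p.2.2.1 = d := congrFun h1 3
    have h4 : (sig2 p).2.2.1 ≠ 0 := by
      intro h0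
      apply h3
      change p.1 * p.2.2.2 = 0 at h0
      change b - a = 0
      rw [← a0, ← a1, h0]; ring
    have h5 : zz (sig2 p) = ![-a, b, c, -d] := by
      rw [← a0, ← a1, ← a2, ← a3]
      funext i
      fin_cases i <;> simp [zz, sig2] <;> field_simp <;> ring
    have h6 := kap_zz (sig2 p) h4
    rw [h5] at h6
    have e : kap Y ![-a, b, c, -d] = sig2 p := h6
    simp only [V]
    rw [e, hU.sym2 _ (hg a b c d h)]
  have R0 : ∀ a b c d, P a b c d → V (-a) b c d = V a (-b) c d := by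
    intro a b c d h
    have h1 := N a (-b) (-c) (-d) (by simpa [P] using h)
    have h2 := F23 a (-b) c d (by simpa [P] using h)
    simp only [neg_neg] at h1
    rw [h1, h2]
  have R2 : ∀ a b c d, P a b c d → V a b (-c) d = V a (-b) c d := by
    intro a b c d h
    have h1 := N (-a) (-b) c (-d) (by simpa [P] using h)
    have h2 := F03 a (-b) c d (by simpa [P] using h)
    simp only [neg_neg] at h1
    rw [h1, h2]
  have R3 : ∀ a b c d, P a b c d → V a b c (-d) = V a (-b) c d := by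
    intro a b c d h
    have h1 := F23 a b c (-d) (by simpa [P] using h)
    simp only [neg_neg] at h1
    rw [← h1, R2 a b c d h]
  have hP : P a b c d := const_over_iff.1 hz
  have key : ∀ a' b' c' d', P a' b' c' d' → V a' b' c' d' = V a b c d ∨ V a' b' c' d' = V a (-b) c d := by
    have k3 : ∀ b', P a b' c d → V a b' c d = V a b c d ∨ V a b' c d = V a (-b) c d := by
      intro b' h
      rcases sq_eq_sq_iff_eq_or_eq_neg.1 (h.2.1.trans hP.2.1.symm) with rfl | rfl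
      · exact Or.inl rfl
      · exact Or.inr rfl
    have k2 : ∀ b' d', P a b' c d' → V a b' c d' = V a b c d ∨ V a b' c d' = V a (-b) c d := by
      intro b' d' h
      rcases sq_eq_sq_iff_eq_or_eq_neg.1 (h.2.2.2.trans hP.2.2.2.symm) with rfl | rfl
      · exact k3 b' h
      · rw [R3 a b' c d (by simpa [P] using h)]
        exact k3 _ (by simpa [P] using h)
    have k1 : ∀ b' c' d', P a b' c' d' → V a b' c' d' = V a b c d ∨ V a b' c' d' = V a (-b) c d := by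
      intro b' c' d' h
      rcases sq_eq_sq_iff_eq_or_eq_neg.1 (h.2.2.1.trans hP.2.2.1.symm) with rfl | rfl
      · exact k2 b' d' h
      · rw [R2 a b' c d' (by simpa [P] using h)]
        exact k2 _ _ (by simpa [P] using h)
    intro a' b' c' d' h
    rcases sq_eq_sq_iff_eq_or_eq_neg.1 (h.1.trans hP.1.symm) with rfl | rfl
    · exact k1 b' c' d' h
    · rw [R0 a b' c' d' (by simpa [P] using h)]
      exact k1 _ _ _ (by simpa [P] using h)
  rw [const_eta z']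
  exact key _ _ _ _ ⟨hz' 0, hz' 1, hz' 2, hz' 3⟩

theorem const_exists_max (U : Pt → ℝ) (Y : ℂ) (w : Wt) :
    ∃ z₀, Over Y w z₀ ∧ ∀ z, Over Y w z → U (kap Y z) ≤ U (kap Y z₀) := by
  obtain ⟨z, hz⟩ := exists_over Y w
  obtain ⟨ε, hε⟩ := Finite.exists_max fun ε : Fin 4 → ℤˣ =>
    U (kap Y fun i => ((ε i : ℤ) : ℂ) * z i)
  refine ⟨_, hz.sign ε, fun z' hz' => ?_⟩
  obtain ⟨ε', rfl⟩ := hz.eq_sign hz'
  exact hε ε'

/-- punctured strong maximum principle along a disc. -/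
theorem const_smp {U : Pt → ℝ} (hU : Lim U) {γ : ℂ → Pt} {c : ℂ} {m : ℝ} (hγ : AnalyticAt ℂ γ c)
    (hg : good (γ c)) (hle : ∀ᶠ ζ in 𝓝 c, ζ ≠ c → U (γ ζ) ≤ m)
    (hmax : ∀ ρ : ℝ, 0 < ρ → ∃ ζ ∈ ball c ρ, m ≤ U (γ ζ)) :
    ∀ᶠ ζ in 𝓝 c, ζ ≠ c → U (γ ζ) = m := by
  have h1 : ∀ᶠ ζ in 𝓝 c, good (γ ζ) := hγ.continuousAt.eventually (isOpen_good.mem_nhds hg)
  obtain ⟨r, hr, hball⟩ := Metric.nhds_basis_closedBall.eventually_iff.1
    ((hγ.eventually_analyticAt.and h1).and hle)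
  filter_upwards [closedBall_mem_nhds c hr] with ζ hζ hζc
  refine le_antisymm ((hball hζ).2 hζc) (not_lt.1 fun hlt => ?_)
  have hρ : 0 < dist ζ c := dist_pos.2 hζc
  obtain ⟨ζ₀, h0, h0m⟩ := hmax _ hρ
  have hsub : closedBall c (dist ζ c) ⊆ closedBall c r := closedBall_subset_closedBall hζ
  have := hU.smp γ c (dist ζ c) m hρ (fun ξ hξ => (hball (hsub hξ)).1)
    (fun ξ hξ => (hball (hsub (sphere_subset_closedBall hξ))).2 (ne_of_mem_sphere hξ hρ.ne'))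
    ⟨ζ, rfl, hlt⟩ ζ₀ h0
  exact absurd this (not_lt.2 h0m)

theorem const_sqrt {f : ℂ → ℂ} {c : ℂ} (hf : AnalyticAt ℂ f c) (h0 : f c ≠ 0) :
    ∃ g : ℂ → ℂ, AnalyticAt ℂ g c ∧ ∀ ζ, g ζ ^ 2 = f ζ := by
  refine ⟨fun ζ => f c ^ ((2 : ℕ)⁻¹ : ℂ) * (f ζ / f c) ^ ((2 : ℕ)⁻¹ : ℂ), ?_, fun ζ => ?_⟩
  · refine analyticAt_const.mul (AnalyticAt.cpow (hf.div analyticAt_const h0) analyticAt_const ?_)
    simp [div_self h0]
  · rw [mul_pow, Complex.cpow_nat_inv_pow _ two_ne_zero, Complex.cpow_nat_inv_pow _ two_ne_zero,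
      mul_div_cancel₀ _ h0]

theorem const_branch_ne {w : Wt} (hw : Gam w ≠ 0) :
    w.2.2 ≠ 0 ∧ bb (-(4 * w.2.1) / (2 * w.2.2)) w 0 ≠ 0 ∧ bb (-(4 * w.2.1) / (2 * w.2.2)) w 2 ≠ 0 ∧
      bb (-(4 * w.2.1) / (2 * w.2.2)) w 3 ≠ 0 := by
  obtain ⟨A, B, C⟩ := w
  simp only [Gam, ne_eq, mul_eq_zero, not_or] at hw
  obtain ⟨⟨⟨⟨⟨⟨h1, h2⟩, h3⟩, h4⟩, h5⟩, h6⟩, h7⟩ := hw
  refine ⟨h2, ?_, ?_, ?_⟩
  · have e : bb (-(4 * B) / (2 * C)) (A, B, C) 0 = -64 * B ^ 5 * (C ^ 2 - 4 * A * B) / C ^ 6 := by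
      simp only [bb, Matrix.cons_val_zero]
      field_simp
      ring
    simp only
    rw [e]
    exact div_ne_zero (mul_ne_zero (mul_ne_zero (by norm_num) (pow_ne_zero _ h1)) h3)
      (pow_ne_zero _ h2)
  · have e : bb (-(4 * B) / (2 * C)) (A, B, C) 2 =
        -((4 * B ^ 2 - C ^ 2) ^ 2 * (A * (C ^ 2 + 8 * B ^ 2) + 4 * B ^ 3)) / C ^ 6 := by
      simp only [bb, Matrix.cons_val]
      field_simp
      ring
    simp only
    rw [e]
    exact div_ne_zero (neg_ne_zero.2 (mul_ne_zero (pow_ne_zero _ h4) h6)) (pow_ne_zero _ h2)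
  · have e : bb (-(4 * B) / (2 * C)) (A, B, C) 3 =
        (4 * B ^ 2 + C ^ 2) ^ 2 * (A * (8 * B ^ 2 - C ^ 2) - 4 * B ^ 3) / C ^ 6 := by
      simp only [bb, Matrix.cons_val]
      field_simp
      ring
    simp only
    rw [e]
    exact div_ne_zero (mul_ne_zero (pow_ne_zero _ h5) h7) (pow_ne_zero _ h2)

theorem const_good_of_ne {Y : ℂ} {w : Wt} (h0 : bb Y w 0 ≠ 0) (h2 : bb Y w 2 ≠ 0)
    (h3 : bb Y w 3 ≠ 0) : Y ≠ 0 ∧ Y ^ 4 ≠ 1 := by
  refine ⟨fun h => h0 (by simp [bb, h]), fun h => ?_⟩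
  have : (Y ^ 2 - 1) * (Y ^ 2 + 1) = 0 := by linear_combination h
  rcases mul_eq_zero.1 this with h' | h'
  · exact h2 (by simp [bb, h'])
  · exact h3 (by simp [bb, h'])

/-- a fibre near the branch point on which `U` is constant. -/
theorem const_nonempty {U : Pt → ℝ} (hU : Lim U) {w : Wt} (hw : Gam w ≠ 0) {m : ℝ}
    (hle : ∀ Y z, RR Y w ≠ 0 → Over Y w z → U (kap Y z) ≤ m)
    (hge : ∀ Y, RR Y w ≠ 0 → ∃ z, Over Y w z ∧ m ≤ U (kap Y z)) :
    ∃ Y, RR Y w ≠ 0 ∧ ∀ z, Over Y w z → U (kap Y z) = m := by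
  obtain ⟨hC, h0, h2, h3⟩ := const_branch_ne hw
  let Yf : ℂ → ℂ := fun τ => -(τ ^ 2 + 4 * w.2.1) / (2 * w.2.2)
  have hY0 : Yf 0 = -(4 * w.2.1) / (2 * w.2.2) := by simp [Yf]
  rw [← hY0] at h0 h2 h3
  have hYn : ∀ τ, Yf (-τ) = Yf τ := fun τ => by simp [Yf]
  have hYa : AnalyticAt ℂ Yf 0 := by
    refine AnalyticAt.div ?_ analyticAt_const (mul_ne_zero two_ne_zero hC)
    fun_prop
  have hb1 : ∀ τ, bb (Yf τ) w 1 = τ ^ 2 := by
    intro τ
    simp only [bb, Yf, Matrix.cons_val_one, Matrix.cons_val_zero]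
    field_simp
    ring
  have hba : ∀ i, AnalyticAt ℂ (fun Y => bb Y w i) (Yf 0) := fun i =>
    (isPoly_bb w i).differentiable.analyticAt _
  obtain ⟨g0, a0, e0⟩ := const_sqrt (hba 0) h0
  obtain ⟨g2, a2, e2⟩ := const_sqrt (hba 2) h2
  obtain ⟨g3, a3, e3⟩ := const_sqrt (hba 3) h3
  let z : ℂ → Fin 4 → ℂ := fun τ => ![g0 (Yf τ), τ, g2 (Yf τ), g3 (Yf τ)]
  have hz : ∀ τ, Over (Yf τ) w (z τ) := fun τ =>
    const_over_iff.2 ⟨e0 _, (hb1 τ).symm, e2 _, e3 _⟩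
  have hza : AnalyticAt ℂ z 0 := by
    rw [analyticAt_pi_iff]
    intro i
    fin_cases i
    · exact a0.comp hYa
    · exact analyticAt_id
    · exact a2.comp hYa
    · exact a3.comp hYa
  have hD0 : bb (Yf 0) w 1 - bb (Yf 0) w 0 ≠ 0 := by
    rw [hb1]; simpa using h0
  let γ : ℂ → Pt := fun τ => kap (Yf τ) (z τ)
  have hγ : AnalyticAt ℂ γ 0 :=
    AnalyticAt.comp (f := fun τ => (Yf τ, z τ)) (x := 0)
      (kap_analyticAt (const_add_ne (hz 0) hD0).1) (hYa.prod hza)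
  obtain ⟨hg1, hg2⟩ := const_good_of_ne h0 h2 h3
  have hg : good (γ 0) := (wq_kap (hz 0) hD0 hg1 hg2).1
  have hR : ∀ᶠ τ in 𝓝 (0 : ℂ), τ ≠ 0 → RR (Yf τ) w ≠ 0 := by
    have c0 := ((hba 0).comp hYa).continuousAt.eventually_ne h0
    have c2 := ((hba 2).comp hYa).continuousAt.eventually_ne h2
    have c3 := ((hba 3).comp hYa).continuousAt.eventually_ne h3
    have cD := (((hba 1).comp hYa).sub ((hba 0).comp hYa)).continuousAt.eventually_ne hD0
    filter_upwards [c0, c2, c3, cD] with τ b0 b2 b3 bD hτ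
    have b1 : bb (Yf τ) w 1 ≠ 0 := by rw [hb1]; exact pow_ne_zero _ hτ
    exact mul_ne_zero (mul_ne_zero (mul_ne_zero (mul_ne_zero b0 b1) b2) b3) (pow_ne_zero _ bD)
  have htwo : ∀ τ, RR (Yf τ) w ≠ 0 → ∀ z', Over (Yf τ) w z' →
      U (kap (Yf τ) z') = U (γ τ) ∨ U (kap (Yf τ) z') = U (γ (-τ)) := by
    intro τ hτ z' hz'
    have := const_two_values hU (bb_ne_of_RR hτ).2 (good_of_RR hτ).1 (good_of_RR hτ).2 (hz τ) hz'
    simpa only [γ, z, hYn] using this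
  have hev := const_smp hU (m := m) hγ hg
    (by filter_upwards [hR] with τ h hτ using hle _ _ (h hτ) (hz τ)) (by
      intro ρ hρ
      obtain ⟨τ, ⟨h1, h2⟩, h3⟩ := (((hR.and (ball_mem_nhds (0 : ℂ) hρ)).filter_mono
        nhdsWithin_le_nhds).and (self_mem_nhdsWithin (s := {0}ᶜ))).exists
      obtain ⟨z', hz', hm⟩ := hge _ (h1 h3)
      rcases htwo τ (h1 h3) z' hz' with h | h
      · exact ⟨τ, h2, h ▸ hm⟩
      · exact ⟨-τ, by simpa using h2, h ▸ hm⟩)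
  have hev' : ∀ᶠ τ in 𝓝 (0 : ℂ), -τ ≠ 0 → U (γ (-τ)) = m := by
    have : Tendsto (fun τ : ℂ => -τ) (𝓝 0) (𝓝 0) := by
      simpa using (continuous_neg.tendsto (0 : ℂ))
    exact this.eventually hev
  obtain ⟨τ, ⟨⟨h1, h2⟩, h3⟩, h4⟩ := ((((hR.and hev).and hev').filter_mono
    nhdsWithin_le_nhds).and (self_mem_nhdsWithin (s := {0}ᶜ))).exists
  refine ⟨Yf τ, h1 h4, fun z' hz' => ?_⟩
  rcases htwo τ (h1 h4) z' hz' with h | h
  · rw [h, h2 h4]
  · rw [h, h3 (neg_ne_zero.2 h4)]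

theorem const_branch {Y : ℂ} {w : Wt} {z : Fin 4 → ℂ} (hY : RR Y w ≠ 0) (hz : Over Y w z) :
    ∃ ζ : ℂ → Fin 4 → ℂ, AnalyticAt ℂ ζ Y ∧ ζ Y = z ∧ ∀ᶠ Y' in 𝓝 Y, Over Y' w (ζ Y') := by
  obtain ⟨ζ, h1, h2, h3⟩ := exists_branch hz (bb_ne_of_RR hY).1
  have ha : AnalyticAt ℂ (fun Y' : ℂ => (Y', w)) Y := analyticAt_id.prod analyticAt_const
  exact ⟨fun Y' => ζ (Y', w), AnalyticAt.comp (f := fun Y' : ℂ => (Y', w)) (x := Y) h1 ha, h2,
    ha.continuousAt.eventually h3⟩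

theorem const_kap_analytic {Y : ℂ} {w : Wt} {ζ : ℂ → Fin 4 → ℂ} (hY : RR Y w ≠ 0)
    (hζ : AnalyticAt ℂ ζ Y) (hz : Over Y w (ζ Y)) :
    AnalyticAt ℂ (fun Y' => kap Y' (ζ Y')) Y ∧ good (kap Y (ζ Y)) :=
  ⟨AnalyticAt.comp (f := fun Y' => (Y', ζ Y')) (x := Y)
      (kap_analyticAt (const_add_ne hz (bb_ne_of_RR hY).2).1) (analyticAt_id.prod hζ),
    (wq_kap hz (bb_ne_of_RR hY).2 (good_of_RR hY).1 (good_of_RR hY).2).1⟩

theorem Lim.const {U : Pt → ℝ} (hU : Lim U) {w : Wt} (hw : Gam w ≠ 0) {Y Y' : ℂ}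
    {z z' : Fin 4 → ℂ} (hY : RR Y w ≠ 0) (hY' : RR Y' w ≠ 0) (hz : Over Y w z)
    (hz' : Over Y' w z') : U (kap Y z) = U (kap Y' z') := by
  obtain ⟨z₀, hz₀, hmax⟩ := const_exists_max U Y' w
  set m := U (kap Y' z₀) with hm
  have hle : ∀ Y z, RR Y w ≠ 0 → Over Y w z → U (kap Y z) ≤ m := by
    intro Y z hY hz
    by_cases h : Y = Y'
    · subst h; exact hmax z hz
    · refine le_of_forall_gt_imp_ge_of_dense fun m' hm' => ?_
      exact hU.curve w Y Y' z m' hY hY' h hz fun z₁ hz₁ => (hmax z₁ hz₁).trans_lt hm'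
  have hge : ∀ Y, RR Y w ≠ 0 → ∃ z, Over Y w z ∧ m ≤ U (kap Y z) := by
    intro Y hY
    by_cases h : Y' = Y
    · subst h; exact ⟨z₀, hz₀, le_rfl⟩
    · obtain ⟨z₁, hz₁, hmax₁⟩ := const_exists_max U Y w
      refine ⟨z₁, hz₁, le_of_forall_gt_imp_ge_of_dense fun m' hm' => ?_⟩
      exact hU.curve w Y' Y z₀ m' hY' hY h hz₀ fun z₂ hz₂ => (hmax₁ z₂ hz₂).trans_lt hm'
  have hRc : Continuous fun Y => RR Y w := (isPoly_RR w).differentiable.continuous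
  have hconn : IsPreconnected {Y | RR Y w = 0}ᶜ :=
    (((isPoly_RR w).finite_zeros hY).countable.isConnected_compl_of_one_lt_rank
      (by simp)).isPreconnected
  have hG : IsOpen {Y | RR Y w ≠ 0 ∧ ∀ z, Over Y w z → U (kap Y z) = m} := by
    rw [isOpen_iff_mem_nhds]
    rintro Y ⟨hY, hYm⟩
    obtain ⟨z, hz⟩ := exists_over Y w
    obtain ⟨ζ, hζa, hζ0, hζ⟩ := const_branch hY hz
    have hRY := hRc.continuousAt.eventually_ne hY
    have hall : ∀ ε : Fin 4 → ℤˣ, ∀ᶠ Y' in 𝓝 Y, Y' ≠ Y →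
        U (kap Y' fun i => ((ε i : ℤ) : ℂ) * ζ Y' i) = m := by
      intro ε
      have ha : AnalyticAt ℂ (fun Y' i => ((ε i : ℤ) : ℂ) * ζ Y' i) Y := by
        rw [analyticAt_pi_iff] at hζa ⊢
        exact fun i => analyticAt_const.mul (hζa i)
      have ho : Over Y w fun i => ((ε i : ℤ) : ℂ) * ζ Y i := (hζ0 ▸ hz).sign ε
      obtain ⟨h1, h2⟩ := const_kap_analytic hY ha ho
      refine const_smp hU h1 h2 ?_ fun ρ hρ => ⟨Y, mem_ball_self hρ, (hYm _ ho).ge⟩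
      filter_upwards [hRY, hζ] with Y' b1 b2 _ using hle _ _ b1 (b2.sign ε)
    filter_upwards [hRY, hζ, eventually_all.2 hall] with Y' b1 b2 b3
    refine ⟨b1, fun z' hz' => ?_⟩
    by_cases h : Y' = Y
    · subst h; exact hYm z' hz'
    · obtain ⟨ε, rfl⟩ := b2.eq_sign hz'
      exact b3 ε h
  have hB : IsOpen {Y | ∃ z, RR Y w ≠ 0 ∧ Over Y w z ∧ U (kap Y z) < m} := by
    rw [isOpen_iff_mem_nhds]
    rintro Y ⟨z, hY, hz, hlt⟩
    obtain ⟨ζ, hζa, hζ0, hζ⟩ := const_branch hY hz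
    subst hζ0
    obtain ⟨h1, h2⟩ := const_kap_analytic hY hζa hz
    have h3 := h1.continuousAt.eventually (hU.usc _ h2 m hlt)
    filter_upwards [hRc.continuousAt.eventually_ne hY, hζ, h3] with Y' b1 b2 b3
    exact ⟨ζ Y', b1, b2, b3⟩
  obtain ⟨Y₁, hY₁, hY₁m⟩ := const_nonempty hU hw hle hge
  have hsub := hconn.subset_left_of_subset_union hG hB
    (Set.disjoint_left.2 fun Y h1 ⟨z, _, h2, h3⟩ => absurd (h1.2 z h2) h3.ne)
    (fun Y hY => by
      by_cases h : ∀ z, Over Y w z → U (kap Y z) = m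
      · exact Or.inl ⟨hY, h⟩
      · push Not at h
        obtain ⟨z, h1, h2⟩ := h
        exact Or.inr ⟨z, hY, h1, lt_of_le_of_ne (hle Y z hY h1) h2⟩)
    ⟨Y₁, hY₁, hY₁, hY₁m⟩
  rw [(hsub hY).2 z hz, (hsub hY').2 z' hz']

end Crest.Agent.R258

end
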