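import Crest.Agent.R258.Sub
import Crest.Agent.R258.Taylor

/-! The dual metric of a Griffiths positive metric has the sub-mean value property along
holomorphic discs. -/

set_option autoImplicit false

noncomputable section

namespace Crest.Agent.R258

open Filter Topology Metric Set Crest.AlgGeometry.QuadricBundle
open scoped ComplexOrder

theorem dualSq_herm (H : Matrix (Fin 2) (Fin 2) ℂ) (N : Matrix (Fin 2) (Fin 2) ℂ) :
    Herm fun v₀ v₁ => dualSq H (N.mulVec ![v₀, v₁]) := by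
  set K := H⁻¹ * N with hK
  have h1 : ∀ v, H⁻¹.mulVec (N.mulVec v) = K.mulVec v := fun v => by
    rw [hK, Matrix.mulVec_mulVec]
  let c : Fin 2 → Fin 2 → ℂ := fun a b =>
    N 0 a * (starRingEnd ℂ) (K 0 b) + N 1 a * (starRingEnd ℂ) (K 1 b)
  refine ⟨(c 0 0).re, (c 1 1).re, c 0 1 + (starRingEnd ℂ) (c 1 0), fun v₀ v₁ => ?_⟩
  simp only [dualSq, h1]
  simp only [Matrix.mulVec, dotProduct, Fin.sum_univ_two, Matrix.cons_val_zero,
    Matrix.cons_val_one, c, Complex.normSq_apply, map_add, map_mul, Complex.add_re,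
    Complex.mul_re, Complex.add_im, Complex.mul_im, Complex.conj_re, Complex.conj_im]
  ring

/-- the squared norm for `H`. -/
def hSq (H : Matrix (Fin 2) (Fin 2) ℂ) (e : Fin 2 → ℂ) : ℝ :=
  (∑ i, ∑ j, H i j * e i * (starRingEnd ℂ) (e j)).re

theorem hSq_complex (H : Matrix (Fin 2) (Fin 2) ℂ) (e : Fin 2 → ℂ) :
    (∑ i, ∑ j, H i j * e i * (starRingEnd ℂ) (e j)) =
      star (star e) ⬝ᵥ H.mulVec (star e) := by
  rw [star_star]
  simp only [Matrix.mulVec, dotProduct, Fin.sum_univ_two, Pi.star_apply, Complex.star_def]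
  ring

theorem hSq_pos {H : Matrix (Fin 2) (Fin 2) ℂ} (hH : open ComplexOrder in H.PosDef)
    {e : Fin 2 → ℂ} (he : e ≠ 0) : 0 < hSq H e := by
  unfold hSq
  rw [hSq_complex]
  exact hH.re_dotProduct_pos (by simpa using he)

theorem hSq_nonneg {H : Matrix (Fin 2) (Fin 2) ℂ} (hH : open ComplexOrder in H.PosDef)
    (e : Fin 2 → ℂ) : 0 ≤ hSq H e := by
  by_cases he : e = 0
  · simp [hSq, he]
  · exact (hSq_pos hH he).le

theorem hSq_im {H : Matrix (Fin 2) (Fin 2) ℂ} (hH : open ComplexOrder in H.PosDef)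
    (e : Fin 2 → ℂ) : (∑ i, ∑ j, H i j * e i * (starRingEnd ℂ) (e j)).im = 0 := by
  by_cases he : e = 0
  · simp [he]
  · rw [hSq_complex]
    have := hH.dotProduct_mulVec_pos (x := star e) (by simpa using he)
    exact (Complex.lt_def.1 this).2.symm

theorem mulVec_inv {H : Matrix (Fin 2) (Fin 2) ℂ} (hH : open ComplexOrder in H.PosDef)
    (u : Fin 2 → ℂ) : H.mulVec (H⁻¹.mulVec u) = u := by
  rw [Matrix.mulVec_mulVec, Matrix.mul_nonsing_inv _ ((Matrix.isUnit_iff_isUnit_det _).1 hH.isUnit),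
    Matrix.one_mulVec]

/-- pairing with `u` is the inner product with the dual vector. -/
theorem pair_eq {H : Matrix (Fin 2) (Fin 2) ℂ} (hH : open ComplexOrder in H.PosDef)
    (u e : Fin 2 → ℂ) :
    ∑ i, u i * e i = ∑ i, ∑ j, H i j * e i * (H⁻¹.mulVec u) j := by
  have h := mulVec_inv hH u
  generalize H⁻¹.mulVec u = x at h ⊢
  rw [← h]
  simp only [Matrix.mulVec, dotProduct, Fin.sum_univ_two]
  ring

/-- the vector realising the dual norm. -/
theorem dual_exists {H : Matrix (Fin 2) (Fin 2) ℂ} (hH : open ComplexOrder in H.PosDef)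
    (u : Fin 2 → ℂ) : ∃ e : Fin 2 → ℂ, (∑ i, u i * e i) = (dualSq H u : ℂ) ∧
      (∑ i, ∑ j, H i j * e i * (starRingEnd ℂ) (e j)).re = dualSq H u := by
  let e : Fin 2 → ℂ := fun i => (starRingEnd ℂ) ((H⁻¹.mulVec u) i)
  have h1 : (∑ i, ∑ j, H i j * e i * (starRingEnd ℂ) (e j)) = ∑ i, u i * e i := by
    rw [pair_eq hH]
    simp [e]
  refine ⟨e, ?_, by rw [h1]; rfl⟩
  apply Complex.ext
  · rfl
  · rw [← h1, hSq_im hH]
    simp

theorem dualSq_pos {H : Matrix (Fin 2) (Fin 2) ℂ} (hH : open ComplexOrder in H.PosDef)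
    {u : Fin 2 → ℂ} (hu : u ≠ 0) : 0 < dualSq H u := by
  let e : Fin 2 → ℂ := fun i => (starRingEnd ℂ) ((H⁻¹.mulVec u) i)
  have h1 : (∑ i, ∑ j, H i j * e i * (starRingEnd ℂ) (e j)) = ∑ i, u i * e i := by
    rw [pair_eq hH]
    simp [e]
  have he : e ≠ 0 := by
    intro he
    apply hu
    have : H⁻¹.mulVec u = 0 := by
      funext i
      simpa [e] using congrFun he i
    rw [← mulVec_inv hH u, this, Matrix.mulVec_zero]
  have := hSq_pos hH he
  unfold hSq at this
  rw [h1] at this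
  exact this

theorem dualSq_nonneg {H : Matrix (Fin 2) (Fin 2) ℂ} (hH : open ComplexOrder in H.PosDef)
    (u : Fin 2 → ℂ) : 0 ≤ dualSq H u := by
  by_cases hu : u = 0
  · simp [dualSq, hu]
  · exact (dualSq_pos hH hu).le

theorem dual_ineq {H : Matrix (Fin 2) (Fin 2) ℂ} (hH : open ComplexOrder in H.PosDef)
    (u e : Fin 2 → ℂ) : 2 * (∑ i, u i * e i).re - hSq H e ≤ dualSq H u := by
  let e₀ : Fin 2 → ℂ := fun i => (starRingEnd ℂ) ((H⁻¹.mulVec u) i)
  have h0 := hSq_nonneg hH (e - e₀)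
  have h1 := pair_eq hH u e
  have h2 := pair_eq hH u e₀
  have h3 : dualSq H u = (∑ i, u i * e₀ i).re := rfl
  have h4 : ∀ i, (H⁻¹.mulVec u) i = (starRingEnd ℂ) (e₀ i) := fun i => by simp [e₀]
  have h01 : H 1 0 = (starRingEnd ℂ) (H 0 1) := by
    simpa using (hH.isHermitian.apply 1 0).symm
  have h00 : (H 0 0).im = 0 := by
    have := congrArg Complex.im (hH.isHermitian.apply 0 0)
    simp at this
    linarith
  have h11 : (H 1 1).im = 0 := by
    have := congrArg Complex.im (hH.isHermitian.apply 1 1)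
    simp at this
    linarith
  rw [h3, h1, h2]
  simp only [h4]
  clear_value e₀
  simp only [hSq, Fin.sum_univ_two, Pi.sub_apply, h01, map_sub, Complex.add_re,
    Complex.mul_re, Complex.sub_re, Complex.sub_im, Complex.mul_im, Complex.conj_re,
    Complex.conj_im, h00, h11] at h0 ⊢
  linarith

theorem dual_cs {H : Matrix (Fin 2) (Fin 2) ℂ} (hH : open ComplexOrder in H.PosDef)
    (u e : Fin 2 → ℂ) : ‖∑ i, u i * e i‖ ^ 2 ≤
      dualSq H u * (∑ i, ∑ j, H i j * e i * (starRingEnd ℂ) (e j)).re := by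
  by_cases he : e = 0
  · simp [he]
  have hp := hSq_pos hH he
  change _ ≤ _ * hSq H e
  set f := ∑ i, u i * e i with hf
  set t : ℂ := (starRingEnd ℂ) f / (hSq H e : ℂ) with ht
  have h1 := dual_ineq hH u (fun i => t * e i)
  have h2 : ∑ i, u i * (t * e i) = t * f := by
    rw [hf, Finset.mul_sum]
    exact Finset.sum_congr rfl fun i _ => by ring
  have h3 : hSq H (fun i => t * e i) = ‖t‖ ^ 2 * hSq H e := by
    have : (∑ i, ∑ j, H i j * (t * e i) * (starRingEnd ℂ) (t * e j)) =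
        ((‖t‖ ^ 2 : ℝ) : ℂ) * ∑ i, ∑ j, H i j * e i * (starRingEnd ℂ) (e j) := by
      rw [← Complex.normSq_eq_norm_sq, ← Complex.mul_conj]
      simp only [Fin.sum_univ_two, map_mul]
      ring
    unfold hSq
    rw [this, Complex.re_ofReal_mul]
  have h4 : (t * f).re = ‖f‖ ^ 2 / hSq H e := by
    have : t * f = ((‖f‖ ^ 2 / hSq H e : ℝ) : ℂ) := by
      rw [ht, Complex.ofReal_div, ← Complex.normSq_eq_norm_sq, ← Complex.mul_conj]
      ring
    rw [this, Complex.ofReal_re]
  have h5 : ‖t‖ = ‖f‖ / hSq H e := by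
    rw [ht, norm_div, Complex.norm_conj, Complex.norm_real, Real.norm_of_nonneg hp.le]
  rw [h2, h3, h4, h5] at h1
  have h6 : 2 * (‖f‖ ^ 2 / hSq H e) - (‖f‖ / hSq H e) ^ 2 * hSq H e = ‖f‖ ^ 2 / hSq H e := by
    field_simp
    ring
  rw [h6, div_le_iff₀ hp] at h1
  exact h1

theorem dualSq_continuous {T : Type*} [TopologicalSpace T] {H : T → Matrix (Fin 2) (Fin 2) ℂ}
    (hc : ∀ i j, Continuous fun t => H t i j) (hH : ∀ t, open ComplexOrder in (H t).PosDef) :
    Continuous fun q : T × (Fin 2 → ℂ) => dualSq (H q.1) q.2 := by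
  have h1 : Continuous H := continuous_matrix hc
  have h2 : Continuous fun t => (H t)⁻¹ := by
    rw [continuous_iff_continuousAt]
    intro t
    refine ContinuousAt.comp (continuousAt_matrix_inv (H t) ?_) h1.continuousAt
    have : (H t).det ≠ 0 := ((Matrix.isUnit_iff_isUnit_det _).1 (hH t).isUnit).ne_zero
    rw [Ring.inverse_eq_inv']
    exact continuousAt_inv₀ this
  have h3 : Continuous fun q : T × (Fin 2 → ℂ) => (H q.1)⁻¹.mulVec q.2 :=
    (h2.comp continuous_fst).matrix_mulVec continuous_snd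
  unfold dualSq
  refine Complex.continuous_re.comp (continuous_finsetSum _ fun i _ => ?_)
  exact ((continuous_apply i).comp continuous_snd).mul
    (Complex.continuous_conj.comp ((continuous_apply i).comp h3))

/-- the test section may be taken analytic: only its values on the complex line matter. -/
theorem exists_analytic_section {H : MetricData 2} (hG : IsGriffithsPositive H) (α : Chart)
    (p ξ e : Fin 2 → ℂ) (hξ : ξ ≠ 0) (he : e ≠ 0) :
    ∃ s : (Fin 2 → ℂ) → (Fin 2 → ℂ), AnalyticAt ℂ s p ∧ s p = e ∧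
      leviAlong (fun q => hNormSq H α q (s q)) p ξ < 0 := by
  obtain ⟨U, s, hU, hpU, hs, hse, hL⟩ := hG α p ξ e hξ he
  obtain ⟨i, hi⟩ : ∃ i, ξ i ≠ 0 := by
    by_contra h
    push Not at h
    exact hξ (funext h)
  have hline : Differentiable ℂ fun t : ℂ => p + t • ξ := by fun_prop
  have hσ : AnalyticAt ℂ (fun t : ℂ => s (p + t • ξ)) 0 := by
    rw [Complex.analyticAt_iff_eventually_differentiableAt]
    have h0 : U ∈ 𝓝 ((fun t : ℂ => p + t • ξ) 0) := by simpa using hU.mem_nhds hpU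
    filter_upwards [hline.continuous.continuousAt.eventually (eventually_mem_nhds_iff.2 h0)]
      with t ht
    exact (hs.differentiableAt ht).comp t (hline t)
  have hl : AnalyticAt ℂ (fun q : Fin 2 → ℂ => (q i - p i) / ξ i) p := by
    refine AnalyticAt.div_const (AnalyticAt.sub ?_ analyticAt_const)
    exact (ContinuousLinearMap.proj (R := ℂ) (φ := fun _ : Fin 2 => ℂ) i).analyticAt p
  refine ⟨fun q => s (p + ((q i - p i) / ξ i) • ξ), ?_, by simpa using hse, ?_⟩
  · exact AnalyticAt.comp_of_eq (g := fun t : ℂ => s (p + t • ξ)) hσ hl (by simp)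
  · have key : ∀ t : ℂ, p + (((p + t • ξ) i - p i) / ξ i) • ξ = p + t • ξ := by
      intro t
      simp [mul_div_assoc, div_self hi]
    unfold leviAlong secondDerivAlong at hL ⊢
    simp only [smul_smul, key] at hL ⊢
    exact hL

theorem dual_lsm {g : Transition 2} {H : MetricData 2} (hH : IsHermitianMetric g H)
    (hG : IsGriffithsPositive H) (α : Chart) (φ ν : ℂ → Fin 2 → ℂ) (c : ℂ)
    (hφ : AnalyticAt ℂ φ c) (hν : AnalyticAt ℂ ν c) :
    LSM (fun ζ => dualSq (H α (φ ζ)) (ν ζ)) c := by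
  have hcont := dualSq_continuous (H := H α) (fun i j => (hH.smooth α i j).continuous)
    (hH.posDef α)
  have hev : ∀ᶠ ζ in 𝓝 c, ContinuousAt (fun ζ => dualSq (H α (φ ζ)) (ν ζ)) ζ := by
    filter_upwards [hφ.eventually_analyticAt, hν.eventually_analyticAt] with ζ h1 h2
    exact hcont.continuousAt.comp (f := fun ζ => (φ ζ, ν ζ))
      (h1.continuousAt.prodMk h2.continuousAt)
  refine ⟨hev, fun δ hδ => ?_⟩
  obtain ⟨e, he1, he2⟩ := dual_exists (hH.posDef α (φ c)) (ν c)
  -- a holomorphic section through `e` with non-positive Levi form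
  obtain ⟨s, hs, hse, hL⟩ : ∃ (s : (Fin 2 → ℂ) → (Fin 2 → ℂ)),
      AnalyticAt ℂ s (φ c) ∧ s (φ c) = e ∧
      leviAlong (fun q => hNormSq H α q (s q)) (φ c) (deriv φ c) ≤ 0 := by
    by_cases hξ : deriv φ c = 0
    · refine ⟨fun _ => e, analyticAt_const, rfl, ?_⟩
      simp [leviAlong, secondDerivAlong, hξ]
    by_cases he : e = 0
    · refine ⟨fun _ => e, analyticAt_const, rfl, ?_⟩
      simp [leviAlong, secondDerivAlong, he, hNormSq]
    obtain ⟨s, hs, hse, hL⟩ := exists_analytic_section hG α (φ c) (deriv φ c) e hξ he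
    exact ⟨s, hs, hse, hL.le⟩
  have hs2 : ContDiffAt ℝ 2 s (φ c) := (hs.contDiffAt (n := 2)).restrict_scalars ℝ
  have hF : ContDiffAt ℝ 2 (fun q => hNormSq H α q (s q)) (φ c) := by
    unfold hNormSq
    suffices h : ContDiffAt ℝ 2
        (fun q => ∑ i, ∑ j, H α q i j * s q i * (starRingEnd ℂ) (s q j)) (φ c) from
      Complex.reCLM.contDiff.contDiffAt.comp (φ c) h
    refine ContDiffAt.sum fun i _ => ContDiffAt.sum fun j _ => ?_
    have hi : ∀ i, ContDiffAt ℝ 2 (fun q => s q i) (φ c) := fun i => contDiffAt_pi.1 hs2 i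
    refine (((hH.smooth α i j).of_le ?_).contDiffAt.mul (hi i)).mul
      (Complex.conjCLE.contDiff.contDiffAt.comp (φ c) (hi j))
    exact WithTop.coe_le_coe.2 (le_top : (2 : ℕ∞) ≤ ⊤)
  have hsφ : AnalyticAt ℂ (fun ζ => s (φ ζ)) c := hs.comp hφ
  have hf : AnalyticAt ℂ (fun ζ => 2 * ∑ i, ν ζ i * s (φ ζ) i) c := by
    refine analyticAt_const.mul (Finset.analyticAt_fun_sum _ fun i _ => ?_)
    exact (analyticAt_pi_iff.1 hν i).mul (analyticAt_pi_iff.1 hsφ i)
  have h5 : ∀ᶠ ζ in 𝓝 c, ContinuousAt (fun ζ => hNormSq H α (φ ζ) (s (φ ζ))) ζ := by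
    filter_upwards [hφ.eventually_analyticAt,
      hφ.continuousAt.eventually (hF.eventually (by simp))] with ζ h1 h2
    exact h2.continuousAt.comp h1.continuousAt
  obtain ⟨ρ, hρ, hball⟩ := Metric.eventually_nhds_iff_ball.1 (hev.and h5)
  filter_upwards [Ioo_mem_nhdsGT hρ, avg_lin_analytic Complex.reCLM hf,
    avg_le_of_levi hφ hF hL hδ] with r hr ⟨hc1, ha1⟩ ha2
  have hsub : sphere c r ⊆ ball c ρ := sphere_subset_ball hr.2
  have hi0 : CircleIntegrable (fun ζ => dualSq (H α (φ ζ)) (ν ζ)) c r :=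
    ContinuousOn.circleIntegrable hr.1.le fun z hz => (hball z (hsub hz)).1.continuousWithinAt
  have hi2 : CircleIntegrable (fun ζ => hNormSq H α (φ ζ) (s (φ ζ))) c r :=
    ContinuousOn.circleIntegrable hr.1.le fun z hz => (hball z (hsub hz)).2.continuousWithinAt
  have hi1 := hc1.circleIntegrable hr.1.le
  have hi3 : CircleIntegrable (fun ζ => Complex.reCLM (2 * ∑ i, ν ζ i * s (φ ζ) i) -
    hNormSq H α (φ ζ) (s (φ ζ))) c r := hi1.sub hi2
  have hm := Real.circleAverage_mono hi3 hi0 fun z _ => by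
    have := dual_ineq (hH.posDef α (φ z)) (ν z) (s (φ z))
    simp only [Complex.reCLM_apply, Complex.re_ofNat, Complex.mul_re, Complex.im_ofNat, zero_mul,
      sub_zero]
    exact this
  rw [Real.circleAverage_fun_sub hi1 hi2, ha1] at hm
  have hc2 : hNormSq H α (φ c) (s (φ c)) = dualSq (H α (φ c)) (ν c) := by
    rw [hse]; exact he2
  have hc3 : Complex.reCLM (2 * ∑ i, ν c i * s (φ c) i) = 2 * dualSq (H α (φ c)) (ν c) := by
    rw [hse, he1]; simp
  rw [hc3] at hm
  rw [hc2] at ha2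
  linarith

end Crest.Agent.R258

end
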