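import Crest.Agent.R258.LimB

/-! The upper limit of a normalised sequence of admissible functions along an ultrafilter. -/

set_option autoImplicit false

noncomputable section

namespace Crest.Agent.R258

open Filter Topology Metric Set

theorem good_of_mem_ball {x Y : ℂ} (hx : x ∈ closedBall (3 : ℂ) 1) (hY : Y ∈ closedBall (3 : ℂ) 1)
    (a b : ℂ) : good (x, Y, a, b) := by
  have key : ∀ z : ℂ, z ∈ closedBall (3 : ℂ) 1 → 2 ≤ ‖z‖ := by
    intro z hz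
    have h1 : ‖z - 3‖ ≤ 1 := mem_closedBall_iff_norm.1 hz
    have h2 : ‖(3 : ℂ)‖ ≤ ‖z‖ + ‖z - 3‖ := by
      calc ‖(3 : ℂ)‖ = ‖z - (z - 3)‖ := by ring_nf
        _ ≤ _ := norm_sub_le _ _
    have h3 : ‖(3 : ℂ)‖ = 3 := by simp
    linarith
  refine ⟨fun h => ?_, fun h => ?_, fun h => ?_⟩
  · have := key x hx
    simp only at h
    rw [h, norm_zero] at this
    linarith
  · have := key Y hY
    simp only at h
    rw [h, norm_zero] at this
    linarith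
  · have h1 := key Y hY
    have h2 : ‖Y‖ ^ 4 = 1 := by
      simp only at h
      rw [← norm_pow, h, norm_one]
    have h3 : (2 : ℝ) ^ 4 ≤ ‖Y‖ ^ 4 := by gcongr
    linarith

theorem Adm.normalize {ε : ℝ} {h : Pt → ℝ} (hh : Adm ε h) : ∃ h', Adm ε h' ∧
    (∀ x ∈ closedBall (3 : ℂ) 1, ∀ Y ∈ closedBall (3 : ℂ) 1,
      h' (x, Y, 1, 0) + h' (x, Y, 0, 1) ≤ 1) ∧
    ∃ q ∈ closedBall (3 : ℂ) 1 ×ˢ closedBall (3 : ℂ) 1,
      h' (q.1, q.2, 1, 0) + h' (q.1, q.2, 0, 1) = 1 := by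
  have hK : IsCompact (closedBall (3 : ℂ) 1 ×ˢ closedBall (3 : ℂ) 1) :=
    (isCompact_closedBall _ _).prod (isCompact_closedBall _ _)
  have hc : ∀ a b : ℂ, ContinuousOn (fun q : ℂ × ℂ => h (q.1, q.2, a, b))
      (closedBall (3 : ℂ) 1 ×ˢ closedBall (3 : ℂ) 1) := fun a b =>
    hh.cont.comp (f := fun q : ℂ × ℂ => ((q.1, q.2, a, b) : Pt)) (by fun_prop) fun q hq =>
      good_of_mem_ball hq.1 hq.2 a b
  obtain ⟨q, hq, hmax⟩ := hK.exists_isMaxOn ⟨(3, 3), by simp⟩ ((hc 1 0).add (hc 0 1))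
  have hN : 0 < h (q.1, q.2, 1, 0) + h (q.1, q.2, 0, 1) :=
    add_pos (hh.pos _ (good_of_mem_ball hq.1 hq.2 _ _) (Or.inl one_ne_zero))
      (hh.pos _ (good_of_mem_ball hq.1 hq.2 _ _) (Or.inr one_ne_zero))
  refine ⟨_, hh.const_mul (inv_pos.2 hN), fun x hx Y hY => ?_, q, hq, ?_⟩
  · rw [← mul_add, inv_mul_le_iff₀ hN, mul_one]
    exact hmax (show (x, Y) ∈ closedBall (3 : ℂ) 1 ×ˢ closedBall (3 : ℂ) 1 from ⟨hx, hY⟩)
  · rw [← mul_add, inv_mul_cancel₀ hN.ne']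

theorem exists_lim (ε : ℕ → ℝ) (h : ℕ → Pt → ℝ) (hε : ∀ k, 0 < ε k ∧ ε k ≤ 1)
    (hε0 : Tendsto ε atTop (𝓝 0)) (hh : ∀ k, Adm (ε k) (h k)) : ∃ U, Lim U := by
  choose g hg hg1 q hq hq1 using fun k => (hh k).normalize
  have H : Ctx (hyperfilter ℕ) ε g :=
    { adm := hg
      pos := fun k => (hε k).1
      lim := hε0.mono_left Nat.hyperfilter_le_atTop
      bdd := fun p hp => by
        obtain ⟨C, hC⟩ := adm_local_bound p hp
        exact ⟨C, hC.mono fun p' hp' k =>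
          hp' (ε k) (g k) (hε k).1 (hε k).2 (hg k).toAdm0 (hg1 k)⟩ }
  refine ⟨ulim (hyperfilter ℕ) g,
    { herm := H.herm
      nonneg := fun p hp => H.ulim_nonneg hp
      usc := H.usc
      smp := H.smp
      curve := H.curve
      sym1 := H.sym1
      sym2 := H.sym2
      nontriv := ?_ }⟩
  have hK : IsCompact (closedBall (3 : ℂ) 1 ×ˢ closedBall (3 : ℂ) 1) :=
    (isCompact_closedBall _ _).prod (isCompact_closedBall _ _)
  obtain ⟨p, hp, hlim⟩ := hK.ultrafilter_le_nhds' ((hyperfilter ℕ).map q)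
    (by rw [Ultrafilter.mem_map]; exact univ_mem' hq)
  have hlim' : Tendsto q (hyperfilter ℕ) (𝓝 p) := hlim
  refine ⟨p.1, hp.1, p.2, hp.2, ?_⟩
  by_contra hcon
  have h1 := H.ulim_nonneg (good_of_mem_ball hp.1 hp.2 1 0)
  have h2 := H.ulim_nonneg (good_of_mem_ball hp.1 hp.2 0 1)
  have key : ∀ a b : ℂ, ulim (hyperfilter ℕ) g (p.1, p.2, a, b) < 1 / 3 →
      ∀ᶠ k in (hyperfilter ℕ : Filter ℕ), g k ((q k).1, (q k).2, a, b) ≤ 1 / 3 := by
    intro a b hab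
    have hT : Tendsto (fun k => ((((q k).1, (q k).2, a, b) : Pt), k)) (hyperfilter ℕ)
        (𝓝 (p.1, p.2, a, b) ×ˢ (hyperfilter ℕ : Filter ℕ)) := by
      refine Tendsto.prodMk ?_ tendsto_id
      have : Continuous fun q : ℂ × ℂ => ((q.1, q.2, a, b) : Pt) := by fun_prop
      exact (this.tendsto p).comp hlim'
    exact hT.eventually (H.eventually_le (good_of_mem_ball hp.1 hp.2 a b) hab)
  obtain ⟨k, hk1, hk2⟩ := ((key 1 0 (by linarith)).and (key 0 1 (by linarith))).exists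
  linarith [hq1 k]

end Crest.Agent.R258

end
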