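import Crest.Agent.R258.Const
import Crest.Agent.R258.Limit

/-! No limit function exists. -/

set_option autoImplicit false

noncomputable section

namespace Crest.Agent.R258

open Filter Topology Metric Set
open scoped ContDiff

theorem dense_ne_zero {E : Type*} [NormedAddCommGroup E] [NormedSpace ℂ E] {f : E → ℂ}
    (hf : ∀ x, AnalyticAt ℂ f x) {x₀ : E} (h0 : f x₀ ≠ 0) : Dense {x | f x ≠ 0} := by
  intro x
  rw [mem_closure_iff_frequently]
  by_contra hcon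
  rw [not_frequently] at hcon
  have h1 : f =ᶠ[𝓝 x] 0 := hcon.mono fun y hy => by simpa using hy
  have : NormedSpace ℝ E := NormedSpace.restrictScalars ℝ ℂ E
  exact h0 (AnalyticOnNhd.eqOn_zero_of_preconnected_of_eventuallyEq_zero (U := univ)
    (fun y _ => hf y) isPreconnected_univ (mem_univ x) h1 (mem_univ x₀))

theorem Gam_analyticAt (w : Wt) : AnalyticAt ℂ Gam w := by
  refine ContDiffAt.analyticAt (ContDiff.contDiffAt ?_)
  unfold Gam
  fun_prop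

theorem bb_analyticAt (i : Fin 4) (q : ℂ × Wt) :
    AnalyticAt ℂ (fun q : ℂ × Wt => bb q.1 q.2 i) q := by
  refine ContDiffAt.analyticAt (ContDiff.contDiffAt ?_)
  fin_cases i <;> simp only [bb] <;> simp <;> fun_prop

theorem RR_analyticAt (q : ℂ × Wt) : AnalyticAt ℂ (fun q : ℂ × Wt => RR q.1 q.2) q := by
  unfold RR
  have h0 := bb_analyticAt 0 q
  have h1 := bb_analyticAt 1 q
  have h2 := bb_analyticAt 2 q
  have h3 := bb_analyticAt 3 q
  exact (((h0.mul h1).mul h2).mul h3).mul ((h1.sub h0).pow 2)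

theorem wq_swap (x s Y : ℂ) : wq (x, Y, 1, s) = wq (s, Y, 1, x) := by
  simp only [wq, zz, Matrix.cons_val_zero, Matrix.cons_val]
  congr 2 <;> ring

theorem wq_smul (x Y a b t : ℂ) : wq (x, Y, t * a, t * b) = t ^ 2 • wq (x, Y, a, b) := by
  simp only [wq, zz, Psi, Matrix.cons_val_zero, Matrix.cons_val, Prod.smul_mk, smul_eq_mul]
  refine Prod.ext ?_ (Prod.ext ?_ ?_) <;> simp only <;> ring

theorem Gam_smul (t : ℂ) (w : Wt) : Gam (t • w) = t ^ 14 * Gam w := by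
  simp only [Gam, Prod.smul_fst, Prod.smul_snd, smul_eq_mul]
  ring

theorem RR_smul (Y t : ℂ) (w : Wt) : RR Y (t • w) = t ^ 6 * RR Y w := by
  simp only [RR, bb, Prod.smul_fst, Prod.smul_snd, smul_eq_mul, Matrix.cons_val_zero,
    Matrix.cons_val_one, Matrix.cons_val]
  ring

/-- genericity function on the fibre over `Y`. -/
def gen (Y x s : ℂ) : ℂ := x * s * (Gam (wq (x, Y, 1, s)) * RR Y (wq (x, Y, 1, s)))

theorem gen_swap (Y x s : ℂ) : gen Y x s = gen Y s x := by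
  unfold gen
  rw [wq_swap, mul_comm x s]

theorem gen_analyticAt {Y x : ℂ} (hg : good (x, Y, 0, 0)) (s : ℂ) :
    AnalyticAt ℂ (gen Y x) s := by
  have h1 : AnalyticAt ℂ (fun s => wq (x, Y, 1, s)) s :=
    (wq_analyticAt (p := (x, Y, 1, s)) hg).comp (f := fun s => (x, Y, 1, s)) (by fun_prop)
  exact (analyticAt_const.mul analyticAt_id).mul (((Gam_analyticAt _).comp h1).mul
    ((RR_analyticAt (Y, wq (x, Y, 1, s))).comp (f := fun s => (Y, wq (x, Y, 1, s)))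
      (analyticAt_const.prod h1)))

theorem gen_ne {Y x s : ℂ} (h : gen Y x s ≠ 0) : x ≠ 0 ∧ s ≠ 0 ∧ Gam (wq (x, Y, 1, s)) ≠ 0 ∧
    RR Y (wq (x, Y, 1, s)) ≠ 0 := by
  simpa [gen, not_or, and_assoc] using h

theorem gen_good {Y x s : ℂ} (h : gen Y x s ≠ 0) (a b : ℂ) : good (x, Y, a, b) :=
  ⟨(gen_ne h).1, good_of_RR (gen_ne h).2.2.2⟩

theorem Lim.swap {U : Pt → ℝ} (hU : Lim U) {Y x s : ℂ} (h : gen Y x s ≠ 0) :
    U (x, Y, 1, s) = U (s, Y, 1, x) := by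
  obtain ⟨hx, hs, h1, h2⟩ := gen_ne h
  have h3 := over_zz (x, Y, 1, s) (gen_good h _ _)
  have h4 := over_zz (s, Y, 1, x) (gen_good (gen_swap Y x s ▸ h) _ _)
  rw [← wq_swap] at h4
  have := hU.const h1 h2 h2 h3 h4
  rwa [kap_zz (x, Y, 1, s) one_ne_zero, kap_zz (s, Y, 1, x) one_ne_zero] at this

/-- on generic points `U` is a sum of products of Hermitian forms. -/
theorem Lim.biherm {U : Pt → ℝ} (hU : Lim U) {Y x₀ s₀ : ℂ} (h0 : gen Y x₀ s₀ ≠ 0) :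
    ∃ f g : Fin 4 → ℂ → ℂ → ℝ, (∀ j, Herm (f j)) ∧ (∀ j, Herm (g j)) ∧
      ∀ x s, gen Y x s ≠ 0 → U (x, Y, 1, s) = ∑ j, f j 1 x * g j 1 s := by
  have hc := (gen_analyticAt (gen_good h0 0 0) s₀).continuousAt.eventually_ne h0
  obtain ⟨ρ, hρ, hb⟩ := Metric.eventually_nhds_iff_ball.1 hc
  obtain ⟨lam, hlam, hint⟩ := herm_interp s₀ (ρ / 2) (by positivity)
  set t : Fin 4 → ℂ := fun j => s₀ + ((ρ / 2 : ℝ) : ℂ) * ![0, 1, -1, Complex.I] j with ht
  have htg : ∀ j, gen Y (t j) x₀ ≠ 0 := by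
    intro j
    rw [gen_swap]
    apply hb
    rw [mem_ball_iff_norm, ht]
    simp only [add_sub_cancel_left, norm_mul, Complex.norm_real, Real.norm_eq_abs,
      abs_of_pos (half_pos hρ)]
    have : ‖(![0, 1, -1, Complex.I] : Fin 4 → ℂ) j‖ ≤ 1 := by fin_cases j <;> simp
    nlinarith
  let g : Fin 4 → ℂ → ℂ → ℝ := fun j a b => U (t j, Y, a, b)
  have hg : ∀ j, Herm (g j) := fun j => hU.herm _ _ (gen_good (htg j) 0 0)
  refine ⟨lam, g, hlam, hg, fun x s₁ hxs => ?_⟩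
  have hd : Dense {s | gen Y x s * ∏ j, gen Y (t j) s ≠ 0} := by
    have h1 : ∀ j, Dense {s | gen Y (t j) s ≠ 0} := fun j =>
      dense_ne_zero (gen_analyticAt (gen_good (htg j) 0 0)) (htg j)
    have h2 : ∀ j, IsOpen {s | gen Y (t j) s ≠ 0} := fun j =>
      isOpen_ne_fun (continuous_iff_continuousAt.2 fun s =>
        (gen_analyticAt (gen_good (htg j) 0 0) s).continuousAt) continuous_const
    have h3 := ((((dense_ne_zero (gen_analyticAt (gen_good hxs 0 0)) hxs).inter_of_isOpen_right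
      (h1 0) (h2 0)).inter_of_isOpen_right (h1 1) (h2 1)).inter_of_isOpen_right (h1 2)
      (h2 2)).inter_of_isOpen_right (h1 3) (h2 3)
    refine h3.mono fun s hs => ?_
    obtain ⟨⟨⟨⟨a, b⟩, c⟩, d⟩, e⟩ := hs
    simp only [mem_ofPred_eq] at a b c d e
    simp [Fin.prod_univ_four, a, b, c, d, e]
  have hc1 : Continuous fun s => U (x, Y, 1, s) :=
    (hU.herm x Y (gen_good hxs 0 0)).continuous.comp (f := fun s : ℂ => ((1 : ℂ), s))
      (by fun_prop)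
  have hc2 : Continuous fun s => ∑ j, lam j 1 x * g j 1 s :=
    continuous_finsetSum _ fun j _ => continuous_const.mul
      ((hg j).continuous.comp (f := fun s : ℂ => ((1 : ℂ), s)) (by fun_prop))
  refine congrFun (hc1.ext_on hd hc2 fun s hs => ?_) s₁
  obtain ⟨h1, h2⟩ := mul_ne_zero_iff.1 hs
  rw [Finset.prod_ne_zero_iff] at h2
  simp only
  rw [hU.swap h1, hint _ (hU.herm s Y (gen_good (gen_swap Y x s ▸ h1) 0 0)) 1 x]
  refine Finset.sum_congr rfl fun j _ => ?_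
  congr 1
  exact (hU.swap (h2 j (Finset.mem_univ j))).symm

/-- a product of Hermitian forms, as a Hermitian form in the `z`-coordinates. -/
theorem herm_prod {f g : ℂ → ℂ → ℝ} (hf : Herm f) (hg : Herm g) :
    ∃ Φ : ℂ → ℂ → ℂ → ℂ → ℝ, (∀ p : Pt, f 1 p.1 * g p.2.2.1 p.2.2.2 =
      Φ (zz p 0) (zz p 1) (zz p 2) (zz p 3)) ∧ ∃ c : Fin 4 → ℝ, ∀ a b d e : ℂ,
      Φ a b d e + Φ (-a) b d e + Φ a (-b) d e + Φ (-a) (-b) d e + Φ a b (-d) e + Φ (-a) b (-d) e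
        + Φ a (-b) (-d) e + Φ (-a) (-b) (-d) e = 8 * (c 0 * Complex.normSq a +
          c 1 * Complex.normSq b + c 2 * Complex.normSq d + c 3 * Complex.normSq e) := by
  obtain ⟨a₁, d₁, b₁, hf⟩ := hf
  obtain ⟨a₂, d₂, b₂, hg⟩ := hg
  let Ψ : ℂ → ℂ → ℂ → ℂ → ℝ := fun m₀ m₁ m₂ m₃ =>
    a₁ * (a₂ * Complex.normSq m₀ + d₂ * Complex.normSq m₁ + (b₂ * m₀ * (starRingEnd ℂ) m₁).re) +
    d₁ * (a₂ * Complex.normSq m₂ + d₂ * Complex.normSq m₃ + (b₂ * m₂ * (starRingEnd ℂ) m₃).re) +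
    a₂ * (b₁ * m₀ * (starRingEnd ℂ) m₂).re + d₂ * (b₁ * m₁ * (starRingEnd ℂ) m₃).re +
    (b₁ * b₂ * m₀ * (starRingEnd ℂ) m₃).re / 2 +
    ((starRingEnd ℂ) b₁ * b₂ * m₂ * (starRingEnd ℂ) m₁).re / 2
  let Φ : ℂ → ℂ → ℂ → ℂ → ℝ := fun a b d e => Ψ (a + b) (d + e) (d - e) (b - a) / 4
  refine ⟨Φ, fun p => ?_, ![Φ 1 0 0 0, Φ 0 1 0 0, Φ 0 0 1 0, Φ 0 0 0 1], fun a b d e => ?_⟩
  · rw [hf, hg]
    simp only [Φ, Ψ, zz, Matrix.cons_val_zero, Matrix.cons_val_one, Matrix.cons_val,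
      Complex.normSq_apply, Complex.add_re, Complex.mul_re, Complex.add_im, Complex.mul_im,
      Complex.conj_re, Complex.conj_im, Complex.sub_re, Complex.sub_im, Complex.one_re,
      Complex.one_im]
    ring
  · simp only [Φ, Ψ, Matrix.cons_val_zero, Matrix.cons_val_one, Matrix.cons_val,
      Complex.normSq_apply, Complex.add_re, Complex.mul_re, Complex.add_im, Complex.mul_im,
      Complex.conj_re, Complex.conj_im, Complex.sub_re, Complex.sub_im, Complex.one_re,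
      Complex.one_im, Complex.neg_re, Complex.neg_im, Complex.zero_re, Complex.zero_im]
    ring

/-- bi-Hermitian step: if one generic point with `v₀ = 1` lies over `Y`, then on generic fibres
`U = ∑ cᵢ ‖bb Y w i‖`. -/
theorem Lim.diag {U : Pt → ℝ} (hU : Lim U) {Y x₀ s₀ : ℂ} (h0 : gen Y x₀ s₀ ≠ 0) :
    ∃ c : Fin 4 → ℝ, ∀ w z, Gam w ≠ 0 → RR Y w ≠ 0 → Over Y w z →
      U (kap Y z) = ∑ i, c i * ‖bb Y w i‖ := by
  obtain ⟨f, g, hf, hg, hfg⟩ := hU.biherm h0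
  choose Φ hΦ c hc using fun j => herm_prod (hf j) (hg j)
  refine ⟨fun i => ∑ j, c j i, fun w z hw hR hz => ?_⟩
  obtain ⟨hb, hD⟩ := bb_ne_of_RR hR
  obtain ⟨hY, hY'⟩ := good_of_RR hR
  have key : ∀ a b d e : ℂ, Over Y w ![a, b, d, e] → U (kap Y z) = ∑ j, Φ j a b d e := by
    intro a b d e hz'
    rw [hU.const hw hR hR hz hz']
    obtain ⟨h1, h2⟩ := zz_kap hz' hD
    obtain ⟨h3, h4⟩ := wq_kap hz' hD hY hY'
    have h5 : (kap Y ![a, b, d, e]).2.1 = Y := rfl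
    have h6 : (kap Y ![a, b, d, e]).2.2.1 ≠ 0 := by
      have := over_add_ne hz' hD
      simpa [kap_v] using this
    have h7 : (kap Y ![a, b, d, e]).2.2.2 ≠ 0 := by
      intro h7
      apply hD
      rw [← hz' 1, ← hz' 0, ← h1]
      simp [zz, h7]
    have h8 : ∀ j, Φ j a b d e = f j 1 (kap Y ![a, b, d, e]).1 *
        g j (kap Y ![a, b, d, e]).2.2.1 (kap Y ![a, b, d, e]).2.2.2 := by
      intro j
      rw [hΦ j, h1]
      rfl
    simp only [h8]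
    generalize kap Y ![a, b, d, e] = p at h2 h3 h4 h5 h6 h7
    obtain ⟨x, Y', v₀, v₁⟩ := p
    simp only at h2 h5 h6 h7 ⊢
    subst h5
    obtain ⟨s, rfl⟩ : ∃ s, v₁ = v₀ * s := ⟨v₁ / v₀, by field_simp⟩
    have e1 := wq_smul x Y' 1 s v₀
    rw [mul_one, h4] at e1
    have e2 : gen Y' x s ≠ 0 := by
      rw [e1, Gam_smul] at hw
      rw [e1, RR_smul] at hR
      exact mul_ne_zero (mul_ne_zero h2 (right_ne_zero_of_mul h7))
        (mul_ne_zero (right_ne_zero_of_mul hw) (right_ne_zero_of_mul hR))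
    have e3 := (hU.herm x Y' h3).smul v₀ 1 s
    rw [mul_one] at e3
    rw [e3, hfg x s e2, Finset.mul_sum]
    refine Finset.sum_congr rfl fun j _ => ?_
    have e4 := (hg j).smul v₀ 1 s
    rw [mul_one] at e4
    rw [e4]
    ring
  have ov : ∀ a b d : ℂ, a ^ 2 = z 0 ^ 2 → b ^ 2 = z 1 ^ 2 → d ^ 2 = z 2 ^ 2 →
      U (kap Y z) = ∑ j, Φ j a b d (z 3) := by
    intro a b d ha hb hd
    apply key
    intro i
    rw [← hz i]
    fin_cases i <;> simp [ha, hb, hd]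
  have k1 := ov (z 0) (z 1) (z 2) rfl rfl rfl
  have k2 := ov (-z 0) (z 1) (z 2) (neg_sq _) rfl rfl
  have k3 := ov (z 0) (-z 1) (z 2) rfl (neg_sq _) rfl
  have k4 := ov (-z 0) (-z 1) (z 2) (neg_sq _) (neg_sq _) rfl
  have k5 := ov (z 0) (z 1) (-z 2) rfl rfl (neg_sq _)
  have k6 := ov (-z 0) (z 1) (-z 2) (neg_sq _) rfl (neg_sq _)
  have k7 := ov (z 0) (-z 1) (-z 2) rfl (neg_sq _) (neg_sq _)
  have k8 := ov (-z 0) (-z 1) (-z 2) (neg_sq _) (neg_sq _) (neg_sq _)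
  have hn : ∀ i, ‖bb Y w i‖ = Complex.normSq (z i) := fun i => by
    rw [← hz i, norm_pow, Complex.normSq_eq_norm_sq]
  have c0 := hc 0 (z 0) (z 1) (z 2) (z 3)
  have c1 := hc 1 (z 0) (z 1) (z 2) (z 3)
  have c2 := hc 2 (z 0) (z 1) (z 2) (z 3)
  have c3 := hc 3 (z 0) (z 1) (z 2) (z 3)
  simp only [hn, Fin.sum_univ_four] at k1 k2 k3 k4 k5 k6 k7 k8 ⊢
  linarith

theorem gen_two : gen 2 2 3 ≠ 0 := by
  simp only [gen, wq, zz, Psi, Gam, RR, bb, Matrix.cons_val_zero, Matrix.cons_val_one,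
    Matrix.cons_val]
  norm_num

theorem gen_neg_two : gen (-2) 2 3 ≠ 0 := by
  simp only [gen, wq, zz, Psi, Gam, RR, bb, Matrix.cons_val_zero, Matrix.cons_val_one,
    Matrix.cons_val]
  norm_num

theorem Lim.eq_zero {U : Pt → ℝ} (hU : Lim U) {w : Wt} {z : Fin 4 → ℂ} (hw : Gam w ≠ 0)
    (hR : RR 2 w ≠ 0) (hz : Over 2 w z) : U (kap 2 z) = 0 := by
  obtain ⟨c, hc⟩ := hU.diag gen_two
  obtain ⟨c', hc'⟩ := hU.diag gen_neg_two
  have hRa : ∀ (Y : ℂ) (w : Wt), AnalyticAt ℂ (RR Y) w := fun Y w =>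
    (RR_analyticAt (Y, w)).comp (f := fun w => (Y, w)) (by fun_prop)
  have hd : Dense {w | Gam w * (RR 2 w * RR (-2) w) ≠ 0} :=
    dense_ne_zero (x₀ := (1, 1, 3)) (fun w => (Gam_analyticAt w).mul ((hRa 2 w).mul (hRa (-2) w)))
      (by
        simp only [Gam, RR, bb, Matrix.cons_val_zero, Matrix.cons_val_one, Matrix.cons_val]
        norm_num)
  have hcont : ∀ (Y : ℂ) (c : Fin 4 → ℝ), Continuous fun w => ∑ i, c i * ‖bb Y w i‖ := fun Y c =>
    continuous_finsetSum _ fun i _ => continuous_const.mul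
      ((continuous_bb i).comp (f := fun w => (Y, w)) (by fun_prop)).norm
  have heq := (hcont 2 c).ext_on hd (hcont (-2) c') fun w hw => by
    obtain ⟨h1, h2⟩ := mul_ne_zero_iff.1 hw
    obtain ⟨h2, h3⟩ := mul_ne_zero_iff.1 h2
    obtain ⟨z, hz⟩ := exists_over 2 w
    obtain ⟨z', hz'⟩ := exists_over (-2) w
    simp only
    rw [← hc w z h1 h2 hz, ← hc' w z' h1 h3 hz']
    exact hU.const h1 h2 h3 hz hz'
  have e1 := congrFun heq (0, 0, 1)
  have e2 := congrFun heq (0, 1, 0)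
  have e3 := congrFun heq (1, 0, 0)
  have e4 := congrFun heq (0, 1, 1)
  have e5 := congrFun heq (1, 0, 1)
  have e6 := congrFun heq (1, 1, 0)
  have e7 := congrFun heq (0, 1, 2)
  have e8 := congrFun heq (1, 1, 1)
  simp only [Fin.sum_univ_four, bb, Matrix.cons_val_zero, Matrix.cons_val_one,
    Matrix.cons_val] at e1 e2 e3 e4 e5 e6 e7 e8
  norm_num at e1 e2 e3 e4 e5 e6 e7 e8
  have h0 : c 0 = 0 := by linarith
  have h1 : c 1 = 0 := by linarith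
  have h2 : c 2 = 0 := by linarith
  have h3 : c 3 = 0 := by linarith
  rw [hc w z hw hR hz]
  simp [Fin.sum_univ_four, h0, h1, h2, h3]

theorem Lim.le_zero {U : Pt → ℝ} (hU : Lim U) {x Y : ℂ} (hx : x ∈ closedBall (3 : ℂ) 1)
    (hY : Y ∈ closedBall (3 : ℂ) 1) (a b : ℂ) : U (x, Y, a, b) ≤ 0 := by
  let γ : ℂ → Pt := fun ζ => (x + ζ * (2 - x), Y + ζ * (2 - Y), a + ζ * (1 - a), b + ζ * (3 - b))
  have hγ : ∀ ζ, AnalyticAt ℂ γ ζ := fun ζ => by fun_prop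
  have hγ0 : γ 0 = (x, Y, a, b) := by simp [γ]
  have hγ1 : γ 1 = (2, 2, 1, 3) := by simp [γ]
  let f : ℂ → ℂ := fun ζ =>
    (γ ζ).2.2.1 * (Gam (wq (γ ζ)) * (RR (γ ζ).2.1 (wq (γ ζ)) * RR 2 (wq (γ ζ))))
  have hf : ∀ ζ, good (γ ζ) → AnalyticAt ℂ f ζ := by
    intro ζ hζ
    have h1 : AnalyticAt ℂ (fun ζ => wq (γ ζ)) ζ := (wq_analyticAt hζ).comp (hγ ζ)
    have h2 : AnalyticAt ℂ (fun ζ => (γ ζ).2.1) ζ := by simp only [γ]; fun_prop
    have h3 : AnalyticAt ℂ (fun ζ => (γ ζ).2.2.1) ζ := by simp only [γ]; fun_prop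
    exact h3.mul (((Gam_analyticAt _).comp h1).mul
      (((RR_analyticAt ((γ ζ).2.1, wq (γ ζ))).comp (f := fun ζ => ((γ ζ).2.1, wq (γ ζ)))
        (h2.prod h1)).mul
      ((RR_analyticAt (2, wq (γ ζ))).comp (f := fun ζ => (2, wq (γ ζ)))
        (analyticAt_const.prod h1))))
  have h2 : (2 : ℂ) ∈ closedBall (3 : ℂ) 1 := by
    rw [mem_closedBall_iff_norm]; norm_num
  have hseg : ∀ ζ ∈ segment ℝ (0 : ℂ) 1, good (γ ζ) := by
    rintro ζ ⟨s, t, hs, ht, hst, rfl⟩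
    have key : ∀ y ∈ closedBall (3 : ℂ) 1,
        y + (s • (0 : ℂ) + t • (1 : ℂ)) * (2 - y) ∈ closedBall (3 : ℂ) 1 := by
      intro y hy
      convert convex_closedBall (3 : ℂ) 1 hy h2 hs ht hst using 1
      have : s = 1 - t := by linarith
      simp [this]
      ring
    exact good_of_mem_ball (key x hx) (key Y hY) _ _
  have hf1 : f 1 ≠ 0 := by
    obtain ⟨-, -, h3, h4⟩ := gen_ne gen_two
    simp only [f, hγ1]
    exact mul_ne_zero one_ne_zero (mul_ne_zero h3 (mul_ne_zero h4 h4))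
  have hg0 := hseg 0 (left_mem_segment _ _ _)
  have hne : ∀ᶠ ζ in 𝓝[≠] (0 : ℂ), f ζ ≠ 0 := by
    refine (hf 0 hg0).eventually_eq_zero_or_eventually_ne_zero.resolve_left fun h => hf1 ?_
    exact AnalyticOnNhd.eqOn_zero_of_preconnected_of_eventuallyEq_zero
      (U := segment ℝ (0 : ℂ) 1) (fun ζ hζ => hf ζ (hseg ζ hζ))
      (convex_segment _ _).isPreconnected (left_mem_segment _ _ _) h (right_mem_segment _ _ _)
  rw [eventually_nhdsWithin_iff] at hne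
  have hgood : ∀ᶠ ζ in 𝓝 (0 : ℂ), good (γ ζ) :=
    (hγ 0).continuousAt.eventually (eventually_good hg0)
  obtain ⟨ρ, hρ, hb⟩ := Metric.eventually_nhds_iff_ball.1 (hne.and hgood)
  have hsub : closedBall (0 : ℂ) (ρ / 2) ⊆ ball 0 ρ := closedBall_subset_ball (by linarith)
  have hzero : ∀ ζ ∈ sphere (0 : ℂ) (ρ / 2), U (γ ζ) = 0 := by
    intro ζ hζ
    obtain ⟨h3, h4⟩ := hb ζ (hsub (sphere_subset_closedBall hζ))
    have h5 : ζ ≠ 0 := ne_of_mem_sphere hζ (by positivity)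
    obtain ⟨h6, h7⟩ := mul_ne_zero_iff.1 (h3 h5)
    obtain ⟨h7, h8⟩ := mul_ne_zero_iff.1 h7
    obtain ⟨h8, h9⟩ := mul_ne_zero_iff.1 h8
    obtain ⟨z, hz⟩ := exists_over 2 (wq (γ ζ))
    rw [← kap_zz _ h6, hU.const h7 h8 h9 (over_zz _ h4) hz]
    exact hU.eq_zero h7 h9 hz
  refine le_of_forall_gt_imp_ge_of_dense fun η hη => ?_
  rw [← hγ0]
  refine (hU.smp γ 0 (ρ / 2) η (by positivity) (fun ζ hζ => ⟨hγ ζ, (hb ζ (hsub hζ)).2⟩)
    (fun ζ hζ => (hzero ζ hζ).trans_le hη.le) ?_ 0 (mem_ball_self (by positivity))).le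
  obtain ⟨ζ, hζ⟩ : (sphere (0 : ℂ) (ρ / 2)).Nonempty := NormedSpace.sphere_nonempty.2 (by positivity)
  exact ⟨ζ, hζ, (hzero ζ hζ).trans_lt hη⟩

theorem no_lim (U : Pt → ℝ) : ¬ Lim U := by
  intro hU
  obtain ⟨x, hx, Y, hY, h⟩ := hU.nontriv
  linarith [hU.le_zero hx hY 1 0, hU.le_zero hx hY 0 1]

end Crest.Agent.R258

end
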