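import Crest.Agent.R258.Bound

/-! The upper limit along an ultrafilter: definition, semicontinuity, symmetry, strong maximum
principle, behaviour along the fibre curves. -/

set_option autoImplicit false

noncomputable section

namespace Crest.Agent.R258

open Filter Topology Metric Set

/-- upper limit of `h k p'` as `p' → p` and `k → 𝒰`. -/
def ulim (𝒰 : Ultrafilter ℕ) (h : ℕ → Pt → ℝ) (p : Pt) : ℝ :=
  sInf {c | ∀ᶠ q in 𝓝 p ×ˢ (𝒰 : Filter ℕ), h q.2 q.1 ≤ c}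

structure Ctx (𝒰 : Ultrafilter ℕ) (ε : ℕ → ℝ) (h : ℕ → Pt → ℝ) : Prop where
  adm : ∀ k, Adm (ε k) (h k)
  pos : ∀ k, 0 < ε k
  lim : Tendsto ε 𝒰 (𝓝 0)
  bdd : ∀ p, good p → ∃ C : ℝ, ∀ᶠ p' in 𝓝 p, ∀ k, h k p' ≤ C

theorem compact_eventually {α β : Type*} [TopologicalSpace β] {l : Filter α} {K : Set β}
    (hK : IsCompact K) {P : α → β → Prop} (h : ∀ y ∈ K, ∀ᶠ z in l ×ˢ 𝓝 y, P z.1 z.2) :
    ∀ᶠ a in l, ∀ y ∈ K, P a y := by
  have : ∀ᶠ z in l ×ˢ 𝓝ˢ K, P z.1 z.2 := hK.mem_prod_nhdsSet_of_forall h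
  exact this.curry.mono fun _ h => h.self_of_nhdsSet

theorem eventually_good {p : Pt} (hp : good p) : ∀ᶠ p' in 𝓝 p, good p' :=
  isOpen_good.mem_nhds hp

variable {𝒰 : Ultrafilter ℕ} {ε : ℕ → ℝ} {h : ℕ → Pt → ℝ}

theorem Ctx.nonneg_of_mem (H : Ctx 𝒰 ε h) {p : Pt} (hp : good p) {c : ℝ}
    (hc : ∀ᶠ q in 𝓝 p ×ˢ (𝒰 : Filter ℕ), h q.2 q.1 ≤ c) : 0 ≤ c := by
  have h1 : ∀ᶠ q in 𝓝 p ×ˢ (𝒰 : Filter ℕ), good q.1 := (eventually_good hp).prod_inl _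
  obtain ⟨q, hq1, hq2⟩ := (hc.and h1).exists
  exact ((H.adm q.2).toAdm0.nonneg _ hq2).trans hq1

theorem Ctx.ulim_le (H : Ctx 𝒰 ε h) {p : Pt} (hp : good p) {c : ℝ}
    (hc : ∀ᶠ q in 𝓝 p ×ˢ (𝒰 : Filter ℕ), h q.2 q.1 ≤ c) : ulim 𝒰 h p ≤ c :=
  csInf_le ⟨0, fun _ hc => H.nonneg_of_mem hp hc⟩ hc

theorem Ctx.set_nonempty (H : Ctx 𝒰 ε h) {p : Pt} (hp : good p) :
    {c | ∀ᶠ q in 𝓝 p ×ˢ (𝒰 : Filter ℕ), h q.2 q.1 ≤ c}.Nonempty := by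
  obtain ⟨C, hC⟩ := H.bdd p hp
  exact ⟨C, (hC.prod_inl _).mono fun q hq => hq q.2⟩

theorem Ctx.eventually_le (H : Ctx 𝒰 ε h) {p : Pt} (hp : good p) {c : ℝ}
    (hc : ulim 𝒰 h p < c) : ∀ᶠ q in 𝓝 p ×ˢ (𝒰 : Filter ℕ), h q.2 q.1 ≤ c := by
  obtain ⟨c', h1, h2⟩ := exists_lt_of_csInf_lt (H.set_nonempty hp) hc
  exact Eventually.mono (p := fun q : Pt × ℕ => h q.2 q.1 ≤ c') h1 fun q hq => hq.trans h2.le

theorem Ctx.ulim_nonneg (H : Ctx 𝒰 ε h) {p : Pt} (hp : good p) : 0 ≤ ulim 𝒰 h p :=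
  le_csInf (H.set_nonempty hp) fun _ hc => H.nonneg_of_mem hp hc

/-- bound by a convergent majorant. -/
theorem Ctx.ulim_le_of_tendsto (H : Ctx 𝒰 ε h) {p : Pt} (hp : good p) {f : Pt × ℕ → ℝ} {c : ℝ}
    (hf : Tendsto f (𝓝 p ×ˢ (𝒰 : Filter ℕ)) (𝓝 c))
    (hc : ∀ᶠ q in 𝓝 p ×ˢ (𝒰 : Filter ℕ), h q.2 q.1 ≤ f q) : ulim 𝒰 h p ≤ c := by
  refine le_of_forall_gt_imp_ge_of_dense fun c' hc' => H.ulim_le hp ?_
  filter_upwards [hc, hf.eventually (gt_mem_nhds hc')] with q h1 h2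
  exact h1.trans h2.le

theorem Ctx.usc (H : Ctx 𝒰 ε h) (p : Pt) (hp : good p) (c : ℝ) (hc : ulim 𝒰 h p < c) :
    ∀ᶠ p' in 𝓝 p, ulim 𝒰 h p' < c := by
  obtain ⟨c', h1, h2⟩ := exists_between hc
  obtain ⟨pa, ha, pb, hb, hab⟩ := eventually_prod_iff.1 (H.eventually_le hp h1)
  filter_upwards [ha.eventually_nhds, eventually_good hp] with p' h3 h4
  refine lt_of_le_of_lt (H.ulim_le h4 ?_) h2
  exact eventually_prod_iff.2 ⟨pa, h3, pb, hb, hab⟩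

theorem Ctx.le_of_sym (H : Ctx 𝒰 ε h) {σ : Pt → Pt} {p p' : Pt} (hp : good p) (hp' : good p')
    (hσ : ContinuousAt σ p') (hpp : σ p' = p) (hs : ∀ k q, good q → h k (σ q) = h k q) :
    ulim 𝒰 h p' ≤ ulim 𝒰 h p := by
  refine le_of_forall_gt_imp_ge_of_dense fun c hc => H.ulim_le hp' ?_
  have h1 : Tendsto (fun q : Pt × ℕ => (σ q.1, q.2)) (𝓝 p' ×ˢ (𝒰 : Filter ℕ))
      (𝓝 p ×ˢ (𝒰 : Filter ℕ)) := by
    rw [← hpp]
    exact (hσ.tendsto.comp tendsto_fst).prodMk tendsto_snd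
  filter_upwards [h1.eventually (H.eventually_le hp hc), (eventually_good hp').prod_inl _]
    with q h2 h3
  rw [← hs q.2 q.1 h3]
  exact h2

theorem Ctx.sym1 (H : Ctx 𝒰 ε h) (p : Pt) (hp : good p) : ulim 𝒰 h (sig1 p) = ulim 𝒰 h p := by
  have hc : Continuous sig1 := by unfold sig1; fun_prop
  apply le_antisymm
  · exact H.le_of_sym hp (good_sig1 hp) hc.continuousAt (by simp [sig1])
      fun k q hq => (H.adm k).sym1 q hq
  · exact H.le_of_sym (good_sig1 hp) hp hc.continuousAt rfl fun k q hq => (H.adm k).sym1 q hq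

theorem Ctx.sym2 (H : Ctx 𝒰 ε h) (p : Pt) (hp : good p) : ulim 𝒰 h (sig2 p) = ulim 𝒰 h p := by
  have hc : ∀ q : Pt, good q → ContinuousAt sig2 q := by
    intro q hq
    have := hq.1
    unfold sig2
    fun_prop (disch := assumption)
  apply le_antisymm
  · refine H.le_of_sym hp (good_sig2 hp) (hc _ (good_sig2 hp)) ?_
      fun k q hq => (H.adm k).sym2 q hq
    have := hp.1
    simp [sig2, this]
  · exact H.le_of_sym (good_sig2 hp) hp (hc _ hp) rfl fun k q hq => (H.adm k).sym2 q hq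

theorem bump_avg_pos {c ζ₁ : ℂ} {r : ℝ} (ρ : ℝ) (hr : 0 < r) (h1 : ζ₁ ∈ sphere c r) :
    0 < Real.circleAverage (fun ζ => max 0 (1 - ‖ζ - ζ₁‖ / ρ)) c r := by
  rw [Real.circleAverage_def, smul_eq_mul]
  refine mul_pos (inv_pos.2 Real.two_pi_pos) ?_
  have h2 : ζ₁ ∈ circleMap c r '' Ioc 0 (2 * Real.pi) := by
    rw [image_circleMap_Ioc, abs_of_pos hr]; exact h1
  obtain ⟨θ, hθ, rfl⟩ := h2
  refine intervalIntegral.integral_pos Real.two_pi_pos ?_ (fun x _ => le_max_left _ _)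
    ⟨θ, Ioc_subset_Icc_self hθ, by simp⟩
  have := continuous_circleMap c r
  fun_prop

theorem Ctx.smp (H : Ctx 𝒰 ε h) (γ : ℂ → Pt) (c : ℂ) (r m : ℝ) (hr : 0 < r)
    (hγ : ∀ ζ ∈ closedBall c r, AnalyticAt ℂ γ ζ ∧ good (γ ζ))
    (hm : ∀ ζ ∈ sphere c r, ulim 𝒰 h (γ ζ) ≤ m)
    (h1 : ∃ ζ₁ ∈ sphere c r, ulim 𝒰 h (γ ζ₁) < m) (ζ₀ : ℂ) (hζ₀ : ζ₀ ∈ ball c r) :
    ulim 𝒰 h (γ ζ₀) < m := by
  obtain ⟨ζ₁, hζ₁, hlt⟩ := h1
  obtain ⟨m₁, hm₁, hm₁'⟩ := exists_between hlt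
  set l : Filter (Pt × ℕ) := 𝓝 0 ×ˢ (𝒰 : Filter ℕ) with hl
  have hT : ∀ ζ ∈ closedBall c r, Tendsto (fun z : (Pt × ℕ) × ℂ => (γ z.2 + z.1.1, z.1.2))
      (l ×ˢ 𝓝 ζ) (𝓝 (γ ζ) ×ˢ (𝒰 : Filter ℕ)) := by
    intro ζ hζ
    refine Tendsto.prodMk ?_ (tendsto_snd.comp tendsto_fst)
    have := ((hγ ζ hζ).1.continuousAt.tendsto.comp (tendsto_snd (f := l))).add
      ((tendsto_fst (f := 𝓝 (0 : Pt)) (g := (𝒰 : Filter ℕ))).comp (tendsto_fst (g := 𝓝 ζ)))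
    simpa using this
  have hζ₁' := sphere_subset_closedBall hζ₁
  -- near `ζ₁`
  obtain ⟨pa, ha, pb, hb, hab⟩ := eventually_prod_iff.1
    ((hT ζ₁ hζ₁').eventually (H.eventually_le (hγ ζ₁ hζ₁').2 hm₁))
  obtain ⟨ρ, hρ, hρb⟩ := Metric.eventually_nhds_iff_ball.1 hb
  set χ : ℂ → ℝ := fun ζ => (m - m₁) * max 0 (1 - ‖ζ - ζ₁‖ / ρ) with hχ
  have hχpos : 0 < Real.circleAverage χ c r := by
    have := Real.circleAverage_fun_smul (a := m - m₁)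
      (f := fun ζ => max 0 (1 - ‖ζ - ζ₁‖ / ρ)) (c := c) (R := r)
    simp only [smul_eq_mul] at this
    rw [hχ, this]
    exact mul_pos (by linarith) (bump_avg_pos ρ hr hζ₁)
  have hn : ‖ζ₀ - c‖ < r := mem_ball_iff_norm.1 hζ₀
  set κ := (r - ‖ζ₀ - c‖) / (r + ‖ζ₀ - c‖) * Real.circleAverage χ c r with hκ
  have hκpos : 0 < κ := mul_pos (div_pos (by linarith) (by positivity)) hχpos
  have hs : ∀ᶠ a in l, ∀ ζ ∈ sphere c r, h a.2 (γ ζ + a.1) ≤ m + κ / 2 := by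
    refine compact_eventually (isCompact_sphere c r)
      (P := fun (a : Pt × ℕ) ζ => h a.2 (γ ζ + a.1) ≤ m + κ / 2) fun ζ hζ => ?_
    have hζ' := sphere_subset_closedBall hζ
    exact (hT ζ hζ').eventually (H.eventually_le (hγ ζ hζ').2 (by linarith [hm ζ hζ]))
  have hg : ∀ᶠ a in l, ∀ ζ ∈ closedBall c r, good (γ ζ + a.1) := by
    refine compact_eventually (isCompact_closedBall c r)
      (P := fun (a : Pt × ℕ) ζ => good (γ ζ + a.1)) fun ζ hζ => ?_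
    exact (hT ζ hζ).eventually ((eventually_good (hγ ζ hζ).2).prod_inl _)
  have hmain : ∀ᶠ a in l, h a.2 (γ ζ₀ + a.1) ≤ m - κ / 2 := by
    filter_upwards [hs, hg, ha] with a hs hg ha
    have han : ∀ ζ ∈ closedBall c r, AnalyticAt ℂ (fun ζ => γ ζ + a.1) ζ := fun ζ hζ =>
      (hγ ζ hζ).1.add analyticAt_const
    have := le_sub_deficit (u := fun ζ => h a.2 (γ ζ + a.1)) (M := m + κ / 2) (χ := χ) hr
      ((H.adm a.2).cont.comp (fun ζ hζ => (han ζ hζ).continuousAt.continuousWithinAt) hg)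
      (fun ζ hζ => (H.adm a.2).lsm _ ζ (han ζ (ball_subset_closedBall hζ))
        (hg ζ (ball_subset_closedBall hζ)))
      (by rw [hχ]; fun_prop)
      (fun ζ _ => mul_nonneg (by linarith) (le_max_left _ _))
      (fun ζ hζ => ?_) hζ₀
    · linarith
    · by_cases hb : ζ ∈ ball ζ₁ ρ
      · have h2 : h a.2 (γ ζ + a.1) ≤ m₁ := hab ha (hρb ζ hb)
        have h3 : max 0 (1 - ‖ζ - ζ₁‖ / ρ) ≤ 1 :=
          max_le zero_le_one (by linarith [div_nonneg (norm_nonneg (ζ - ζ₁)) hρ.le])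
        have h4 : χ ζ ≤ m - m₁ := mul_le_of_le_one_right (by linarith) h3
        linarith
      · have h3 : max 0 (1 - ‖ζ - ζ₁‖ / ρ) = 0 := by
          apply max_eq_left
          rw [mem_ball_iff_norm, not_lt] at hb
          have := (one_le_div hρ).2 hb
          linarith
        have h4 : χ ζ = 0 := by simp only [hχ, h3, mul_zero]
        have := hs ζ hζ
        linarith
  have hT' : Tendsto (fun q : Pt × ℕ => (q.1 - γ ζ₀, q.2)) (𝓝 (γ ζ₀) ×ˢ (𝒰 : Filter ℕ)) l := by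
    refine Tendsto.prodMk ?_ tendsto_snd
    have := (tendsto_fst (f := 𝓝 (γ ζ₀)) (g := (𝒰 : Filter ℕ))).sub_const (γ ζ₀)
    simpa using this
  refine lt_of_le_of_lt (H.ulim_le (c := m - κ / 2) (hγ ζ₀ (ball_subset_closedBall hζ₀)).2 ?_)
    (by linarith)
  filter_upwards [hT'.eventually hmain] with q hq
  simpa using hq

theorem continuous_bb (i : Fin 4) : Continuous fun q : ℂ × Wt => bb q.1 q.2 i := by
  fin_cases i <;> simp only [bb] <;> simp <;> fun_prop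

theorem continuous_RR : Continuous fun q : ℂ × Wt => RR q.1 q.2 := by
  unfold RR
  have h0 := continuous_bb 0
  have h1 := continuous_bb 1
  have h2 := continuous_bb 2
  have h3 := continuous_bb 3
  fun_prop

theorem over_add_ne {Y : ℂ} {w : Wt} {z : Fin 4 → ℂ} (hz : Over Y w z)
    (hD : bb Y w 1 - bb Y w 0 ≠ 0) : z 0 + z 1 ≠ 0 := by
  intro h0
  apply hD
  rw [← hz 1, ← hz 0]
  linear_combination (z 1 - z 0) * h0

theorem kap_Y (Y : ℂ) (z : Fin 4 → ℂ) : (kap Y z).2.1 = Y := rfl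

theorem kap_v (Y : ℂ) (z : Fin 4 → ℂ) : (kap Y z).2.2.1 = (z 0 + z 1) / 2 := rfl

attribute [local irreducible] RR bb wq kap zz Over good ulim in
theorem Ctx.curve (H : Ctx 𝒰 ε h) (w : Wt) (Y Y₀ : ℂ) (z : Fin 4 → ℂ) (m : ℝ) (hY : RR Y w ≠ 0)
    (hY₀ : RR Y₀ w ≠ 0) (hne : Y ≠ Y₀) (hz : Over Y w z)
    (hm : ∀ z₀, Over Y₀ w z₀ → ulim 𝒰 h (kap Y₀ z₀) < m) : ulim 𝒰 h (kap Y z) ≤ m := by
  obtain ⟨z₀, hz₀⟩ := exists_over Y₀ w
  obtain ⟨hb₀, hD₀⟩ := bb_ne_of_RR hY₀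
  obtain ⟨hb, hD⟩ := bb_ne_of_RR hY
  obtain ⟨hg₀, hg₀'⟩ := good_of_RR hY₀
  obtain ⟨hg, hg'⟩ := good_of_RR hY
  have hm0 : 0 ≤ m := (H.ulim_nonneg (wq_kap hz₀ hD₀ hg₀ hg₀').1).trans (hm z₀ hz₀).le
  obtain ⟨ζ, hζa, hζ0, hζo⟩ := exists_branch hz₀ hb₀
  -- all points over `(Y', w')` near `(Y₀, w)`
  have h1 : ∀ᶠ q in 𝓝 (Y₀, w) ×ˢ (𝒰 : Filter ℕ), ∀ s : Fin 4 → ℤˣ,
      h q.2 (kap q.1.1 fun i => ((s i : ℤ) : ℂ) * ζ q.1 i) ≤ m := by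
    rw [eventually_all]
    intro s
    have hs := hz₀.sign s
    have hc1 : ContinuousAt (fun q : ℂ × Wt => (q.1, fun i => ((s i : ℤ) : ℂ) * ζ q i)) (Y₀, w) :=
      continuousAt_fst.prodMk (continuousAt_pi.2 fun i =>
        continuousAt_const.mul (continuousAt_pi.1 hζa.continuousAt i))
    have hc2 := (kap_analyticAt (Y := Y₀) (over_add_ne hs hD₀)).continuousAt
    have hc3 : Tendsto (fun q : ℂ × Wt => kap q.1 fun i => ((s i : ℤ) : ℂ) * ζ q i) (𝓝 (Y₀, w))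
        (𝓝 (kap Y₀ fun i => ((s i : ℤ) : ℂ) * z₀ i)) := by
      have := hc1.tendsto
      simp only [hζ0] at this
      exact hc2.tendsto.comp this
    have hc4 : Tendsto (fun q : (ℂ × Wt) × ℕ =>
        ((kap q.1.1 fun i => ((s i : ℤ) : ℂ) * ζ q.1 i), q.2)) (𝓝 (Y₀, w) ×ˢ (𝒰 : Filter ℕ))
        (𝓝 (kap Y₀ fun i => ((s i : ℤ) : ℂ) * z₀ i) ×ˢ (𝒰 : Filter ℕ)) :=
      (hc3.comp tendsto_fst).prodMk tendsto_snd
    exact hc4.eventually (H.eventually_le (wq_kap hs hD₀ hg₀ hg₀').1 (hm _ hs))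
  have h2 : ∀ᶠ q in 𝓝 (Y₀, w), ‖RR q.1 q.2‖ ≤ ‖RR Y₀ w‖ + 1 :=
    (continuous_RR.norm.continuousAt (x := (Y₀, w))).eventually
      (ge_mem_nhds (by simp))
  have h3 : ∀ᶠ q in 𝓝 (Y₀, w) ×ˢ (𝒰 : Filter ℕ), ‖RR q.1.1 q.1.2‖ ≤ ‖RR Y₀ w‖ + 1 ∧
      ∀ z', Over q.1.1 q.1.2 z' → h q.2 (kap q.1.1 z') ≤ m := by
    filter_upwards [h1, h2.prod_inl _, hζo.prod_inl _] with q h1 h2 h3
    refine ⟨h2, fun z' hz' => ?_⟩
    obtain ⟨s, rfl⟩ := h3.eq_sign hz'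
    exact h1 s
  obtain ⟨pa, ha, pb, hb, hab⟩ := eventually_prod_iff.1 h3
  rw [nhds_prod_eq] at ha
  obtain ⟨pa1, ha1, pa2, ha2, ha12⟩ := eventually_prod_iff.1 ha
  obtain ⟨ρ, hρ, hρb⟩ := Metric.eventually_nhds_iff_ball.1 ha1
  have hYY : 0 < ‖Y - Y₀‖ := norm_pos_iff.2 (sub_ne_zero.2 hne)
  set r := min (ρ / 2) (‖Y - Y₀‖ / 2) with hr
  have hr0 : 0 < r := lt_min (by linarith) (by linarith)
  have hrρ : r < ρ := (min_le_left _ _).trans_lt (by linarith)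
  have hrY : r < ‖Y - Y₀‖ := (min_le_right _ _).trans_lt (by linarith)
  set L := (‖RR Y₀ w‖ + 1) ^ 2 / r ^ 74 with hL
  have hL0 : 0 < L := by positivity
  set p := kap Y z with hp
  obtain ⟨hpg, hpw⟩ := wq_kap hz hD hg hg'
  have hpY : p.2.1 = Y := kap_Y Y z
  have hpv : p.2.2.1 ≠ 0 := by
    have := over_add_ne hz hD
    simpa [hp, kap_v] using this
  have hwc : Tendsto wq (𝓝 p) (𝓝 w) := by
    rw [← hpw]; exact (wq_analyticAt hpg).continuousAt.tendsto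
  have hYc : Tendsto (fun q : Pt => q.2.1) (𝓝 p) (𝓝 Y) := by
    rw [← hpY]; exact (by fun_prop : Continuous fun q : Pt => q.2.1).continuousAt.tendsto
  have hRc : Tendsto (fun q : Pt => RR q.2.1 (wq q)) (𝓝 p) (𝓝 (RR Y w)) :=
    (continuous_RR.tendsto (Y, w)).comp (hYc.prodMk_nhds hwc)
  set Λ : Pt → ℝ := fun q => ‖RR q.2.1 (wq q)‖ ^ 2 / ‖q.2.1 - Y₀‖ ^ 74 with hΛ
  have hΛ0 : 0 < ‖RR Y w‖ ^ 2 / ‖Y - Y₀‖ ^ 74 := by positivity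
  have hΛc : Tendsto Λ (𝓝 p) (𝓝 (‖RR Y w‖ ^ 2 / ‖Y - Y₀‖ ^ 74)) :=
    (hRc.norm.pow 2).div ((hYc.sub_const Y₀).norm.pow 74) (by positivity)
  have hlim : Tendsto (fun q : Pt × ℕ => m * (L / Λ q.1) ^ ε q.2) (𝓝 p ×ˢ (𝒰 : Filter ℕ))
      (𝓝 m) := by
    have := (((tendsto_const_nhds (x := L)).div (hΛc.comp (tendsto_fst (g := (𝒰 : Filter ℕ))))
      hΛ0.ne').rpow (H.lim.comp tendsto_snd) (Or.inl (by positivity))).const_mul m
    simpa using this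
  refine H.ulim_le_of_tendsto hpg hlim ?_
  have e1 : ∀ᶠ q in 𝓝 p, q.2.2.1 ≠ 0 :=
    (by fun_prop : Continuous fun q : Pt => q.2.2.1).continuousAt.eventually_ne hpv
  have e2 : ∀ᶠ q in 𝓝 p, r ≤ ‖q.2.1 - Y₀‖ :=
    ((hYc.sub_const Y₀).norm).eventually (le_mem_nhds hrY)
  filter_upwards [(eventually_good hpg).prod_inl _, e1.prod_inl _, e2.prod_inl _,
    (hRc.eventually_ne hY).prod_inl _, (hwc.eventually ha2).prod_inl _, hb.prod_inr _]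
    with q hq1 hq2 hq3 hq4 hq5 hq6
  have hεk := H.pos q.2
  have key := adm_curve hεk (H.adm q.2).toAdm0 (wq q.1) Y₀ r hr0 (m * L ^ ε q.2) (by positivity)
    (fun Y' z' _ hY' hz' => ?_) q.1.2.1 (zz q.1) hq4 hq3 (over_zz q.1 hq1)
  · rw [kap_zz _ hq2] at key
    have hΛq : 0 < Λ q.1 := by
      have : 0 < ‖q.1.2.1 - Y₀‖ := hr0.trans_le hq3
      simp only [hΛ]
      positivity
    rw [Real.div_rpow hL0.le hΛq.le, ← mul_div_assoc, le_div_iff₀ (Real.rpow_pos_of_pos hΛq _)]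
    exact key
  · have h5 := hab (x := (Y', wq q.1)) (ha12 (hρb Y' (by rw [mem_ball_iff_norm, hY']; exact hrρ))
      hq5) hq6
    refine mul_le_mul (h5.2 z' hz') ?_ (by positivity) hm0
    rw [hY', hL]
    have := h5.1
    gcongr

end Crest.Agent.R258

end
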