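import Crest.Agent.R258.LimA

/-! The upper limit is a Hermitian form on every fibre (via averages over small tori). -/

set_option autoImplicit false

noncomputable section

namespace Crest.Agent.R258

open Filter Topology Metric Set

/-- average over a torus. -/
def tavg (f : ℂ → ℂ → ℝ) (x Y : ℂ) (R : ℝ) : ℝ :=
  Real.circleAverage (fun x' => Real.circleAverage (fun Y' => f x' Y') Y R) x R

theorem inner_continuousOn {f : ℂ → ℂ → ℝ} {x Y : ℂ} {R : ℝ} (hR : 0 < R)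
    (hf : ContinuousOn (fun q : ℂ × ℂ => f q.1 q.2) (sphere x R ×ˢ sphere Y R)) :
    ContinuousOn (fun x' => Real.circleAverage (fun Y' => f x' Y') Y R) (sphere x R) := by
  rw [continuousOn_iff_continuous_domRestrict]
  have h1 : Continuous fun q : sphere x R × ℝ => f q.1 (circleMap Y R q.2) := by
    refine hf.comp_continuous (f := fun q : sphere x R × ℝ => ((q.1 : ℂ), circleMap Y R q.2))
      ?_ fun q => ⟨q.1.2, circleMap_mem_sphere Y hR.le _⟩
    have := continuous_circleMap Y R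
    fun_prop
  have h2 := intervalIntegral.continuous_parametric_intervalIntegral_of_continuous'
    (μ := MeasureTheory.volume) (f := fun (a : sphere x R) (θ : ℝ) => f a (circleMap Y R θ)) h1
    0 (2 * Real.pi)
  exact h2.const_smul (2 * Real.pi)⁻¹

theorem slice_integrable {f : ℂ → ℂ → ℝ} {x Y : ℂ} {R : ℝ} (hR : 0 < R)
    (hf : ContinuousOn (fun q : ℂ × ℂ => f q.1 q.2) (sphere x R ×ˢ sphere Y R)) {x' : ℂ}
    (hx' : x' ∈ sphere x R) : CircleIntegrable (fun Y' => f x' Y') Y R :=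
  ContinuousOn.circleIntegrable hR.le
    (hf.comp (f := fun Y' => (x', Y')) (by fun_prop) fun _ hY' => ⟨hx', hY'⟩)

theorem tavg_le {f : ℂ → ℂ → ℝ} {x Y : ℂ} {R : ℝ} (hR : 0 < R)
    (hf : ContinuousOn (fun q : ℂ × ℂ => f q.1 q.2) (sphere x R ×ˢ sphere Y R)) {c : ℝ}
    (hc : ∀ x' ∈ sphere x R, ∀ Y' ∈ sphere Y R, f x' Y' ≤ c) : tavg f x Y R ≤ c := by
  apply Real.circleAverage_mono_on_of_le_circle
    ((inner_continuousOn hR hf).circleIntegrable hR.le)
  intro x' hx'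
  rw [abs_of_pos hR] at hx'
  apply Real.circleAverage_mono_on_of_le_circle (slice_integrable hR hf hx')
  intro Y' hY'
  rw [abs_of_pos hR] at hY'
  exact hc x' hx' Y' hY'

theorem tavg_nonneg {f : ℂ → ℂ → ℝ} {x Y : ℂ} {R : ℝ} (hR : 0 < R)
    (hc : ∀ x' ∈ sphere x R, ∀ Y' ∈ sphere Y R, 0 ≤ f x' Y') : 0 ≤ tavg f x Y R := by
  apply Real.circleAverage_nonneg_of_nonneg
  intro x' hx'
  rw [abs_of_pos hR] at hx'
  apply Real.circleAverage_nonneg_of_nonneg
  intro Y' hY'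
  rw [abs_of_pos hR] at hY'
  exact hc x' hx' Y' hY'

theorem tavg_sum {f : ℂ → ℂ → ℝ} {g : Fin 4 → ℂ → ℂ → ℝ} (t : Fin 4 → ℝ) {x Y : ℂ} {R : ℝ}
    (hR : 0 < R)
    (hg : ∀ j, ContinuousOn (fun q : ℂ × ℂ => g j q.1 q.2) (sphere x R ×ˢ sphere Y R))
    (hc : ∀ x' ∈ sphere x R, ∀ Y' ∈ sphere Y R, f x' Y' = ∑ j, t j * g j x' Y') :
    tavg f x Y R = ∑ j, t j * tavg (g j) x Y R := by
  have h1 : ∀ x' ∈ sphere x R, Real.circleAverage (fun Y' => f x' Y') Y R =
      ∑ j, t j * Real.circleAverage (fun Y' => g j x' Y') Y R := by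
    intro x' hx'
    rw [Real.circleAverage_congr_sphere (f₂ := fun Y' => ∑ j, t j • g j x' Y')
      (fun Y' hY' => hc x' hx' Y' (by rwa [abs_of_pos hR] at hY')),
      Real.circleAverage_fun_sum (f := fun j Y' => t j • g j x' Y')
        fun j _ => (slice_integrable hR (hg j) hx').const_smul (a := t j)]
    exact Finset.sum_congr rfl fun j _ => Real.circleAverage_fun_smul
  unfold tavg
  rw [Real.circleAverage_congr_sphere
    (f₂ := fun x' => ∑ j, t j • Real.circleAverage (fun Y' => g j x' Y') Y R)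
    (fun x' hx' => h1 x' (by rwa [abs_of_pos hR] at hx')),
    Real.circleAverage_fun_sum
      (f := fun j x' => t j • Real.circleAverage (fun Y' => g j x' Y') Y R)
      fun j _ => ((inner_continuousOn hR (hg j)).circleIntegrable hR.le).const_smul (a := t j)]
  exact Finset.sum_congr rfl fun j _ => Real.circleAverage_fun_smul

theorem small_polydisc {P : Pt → Prop} {x Y a b : ℂ} (hP : ∀ᶠ q in 𝓝 (x, Y, a, b), P q) :
    ∀ᶠ R in 𝓝[>] (0 : ℝ), ∀ x' ∈ closedBall x R, ∀ Y' ∈ closedBall Y R, P (x', Y', a, b) := by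
  obtain ⟨ρ, hρ, hb⟩ := Metric.eventually_nhds_iff_ball.1 hP
  filter_upwards [Ioo_mem_nhdsGT hρ] with R hR x' hx' Y' hY'
  apply hb
  rw [mem_ball, Prod.dist_eq, Prod.dist_eq, dist_self]
  exact max_lt (hx'.trans_lt hR.2) (max_lt (hY'.trans_lt hR.2) hρ)

theorem good_base {x Y a b a' b' : ℂ} (h : good (x, Y, a, b)) : good (x, Y, a', b') := h

theorem Adm0.torus_cont {ε : ℝ} {h : Pt → ℝ} (hh : Adm0 ε h) {x Y : ℂ} {R : ℝ}
    (hg : ∀ x' ∈ closedBall x R, ∀ Y' ∈ closedBall Y R, good (x', Y', 0, 0)) (a b : ℂ) :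
    ContinuousOn (fun q : ℂ × ℂ => h (q.1, q.2, a, b)) (sphere x R ×ˢ sphere Y R) :=
  hh.cont.comp (f := fun q : ℂ × ℂ => ((q.1, q.2, a, b) : Pt)) (by fun_prop) fun q hq =>
    good_base (hg q.1 (sphere_subset_closedBall hq.1) q.2 (sphere_subset_closedBall hq.2))

/-- two-step Harnack inequality. -/
theorem Adm0.le_tavg {ε : ℝ} {h : Pt → ℝ} (hh : Adm0 ε h) {x Y : ℂ} {R : ℝ} (hR : 0 < R)
    (hg : ∀ x' ∈ closedBall x R, ∀ Y' ∈ closedBall Y R, good (x', Y', 0, 0)) (a b : ℂ)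
    {x₁ Y₁ : ℂ} (hx : x₁ ∈ ball x R) (hY : Y₁ ∈ ball Y R) :
    h (x₁, Y₁, a, b) ≤ (R + ‖x₁ - x‖) / (R - ‖x₁ - x‖) * ((R + ‖Y₁ - Y‖) / (R - ‖Y₁ - Y‖) *
      tavg (fun x' Y' => h (x', Y', a, b)) x Y R) := by
  have hY' := ball_subset_closedBall hY
  have hn : ‖x₁ - x‖ < R := mem_ball_iff_norm.1 hx
  have hc1 : ContinuousOn (fun x' => h (x', Y₁, a, b)) (closedBall x R) :=
    hh.cont.comp (f := fun x' : ℂ => ((x', Y₁, a, b) : Pt)) (by fun_prop) fun x' hx' =>
      good_base (hg x' hx' Y₁ hY')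
  have h1 := harnack_le (u := fun x' => h (x', Y₁, a, b)) hR hc1
    (fun ζ hζ => hh.lsm (fun x' => (x', Y₁, a, b)) ζ (by fun_prop)
      (good_base (hg ζ (ball_subset_closedBall hζ) Y₁ hY')))
    (fun ζ hζ => hh.nonneg _ (good_base (hg ζ (sphere_subset_closedBall hζ) Y₁ hY'))) hx
  refine h1.trans (mul_le_mul_of_nonneg_left ?_ (div_nonneg (by positivity) (by linarith)))
  have h2 := Real.circleAverage_fun_smul (a := (R + ‖Y₁ - Y‖) / (R - ‖Y₁ - Y‖))
    (f := fun x' => Real.circleAverage (fun Y' => h (x', Y', a, b)) Y R) (c := x) (R := R)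
  unfold tavg
  rw [← smul_eq_mul, ← h2]
  refine Real.circleAverage_mono ((hc1.mono sphere_subset_closedBall).circleIntegrable hR.le)
    (((inner_continuousOn (f := fun x' Y' => h (x', Y', a, b)) hR
      (hh.torus_cont hg a b)).circleIntegrable hR.le).const_smul) fun x' hx' => ?_
  rw [abs_of_pos hR] at hx'
  have hx'' := sphere_subset_closedBall hx'
  exact harnack_le (u := fun Y' => h (x', Y', a, b)) hR
    (hh.cont.comp (f := fun Y' : ℂ => ((x', Y', a, b) : Pt)) (by fun_prop) fun Y' hY' =>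
      good_base (hg x' hx'' Y' hY'))
    (fun ζ hζ => hh.lsm (fun Y' => (x', Y', a, b)) ζ (by fun_prop)
      (good_base (hg x' hx'' ζ (ball_subset_closedBall hζ))))
    (fun ζ hζ => hh.nonneg _ (good_base (hg x' hx'' ζ (sphere_subset_closedBall hζ)))) hY

theorem ultra_tendsto (𝒰 : Ultrafilter ℕ) {f : ℕ → ℝ} {C : ℝ} (hf : ∀ k, 0 ≤ f k ∧ f k ≤ C) :
    Tendsto f 𝒰 (𝓝 (limUnder (𝒰 : Filter ℕ) f)) := by
  obtain ⟨a, -, ha⟩ := (isCompact_Icc (a := (0 : ℝ)) (b := C)).ultrafilter_le_nhds' (𝒰.map f)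
    (by rw [Ultrafilter.mem_map]; exact univ_mem' hf)
  exact tendsto_nhds_limUnder ⟨a, ha⟩

variable {𝒰 : Ultrafilter ℕ} {ε : ℕ → ℝ} {h : ℕ → Pt → ℝ}

attribute [local irreducible] ulim tavg in
theorem Ctx.herm (H : Ctx 𝒰 ε h) (x Y : ℂ) (hp : good (x, Y, 0, 0)) :
    Herm fun a b => ulim 𝒰 h (x, Y, a, b) := by
  obtain ⟨lam, hlam, hint⟩ := herm_interp 0 1 one_ne_zero
  set t : Fin 4 → ℂ := fun j => 0 + ((1 : ℝ) : ℂ) * ![0, 1, -1, Complex.I] j with ht
  set A : ℕ → ℝ → ℂ → ℂ → ℝ := fun k R a b => tavg (fun x' Y' => h k (x', Y', a, b)) x Y R with hA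
  set AL : ℝ → ℂ → ℂ → ℝ := fun R a b => limUnder (𝒰 : Filter ℕ) fun k => A k R a b with hAL
  have hg := small_polydisc (eventually_good hp)
  have hpos : ∀ᶠ R in 𝓝[>] (0 : ℝ), 0 < R := self_mem_nhdsWithin
  have hlin : ∀ᶠ R in 𝓝[>] (0 : ℝ), ∀ k a b, A k R a b = ∑ j, lam j a b * A k R 1 (t j) := by
    filter_upwards [hg, hpos] with R hg hR k a b
    exact tavg_sum (g := fun j x' Y' => h k (x', Y', 1, t j)) (fun j => lam j a b) hR
      (fun j => (H.adm k).toAdm0.torus_cont hg 1 (t j)) fun x' hx' Y' hY' =>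
        hint _ ((H.adm k).herm x' Y'
          (hg x' (sphere_subset_closedBall hx') Y' (sphere_subset_closedBall hY'))) a b
  have hconv : ∀ a b, ∀ᶠ R in 𝓝[>] (0 : ℝ), Tendsto (fun k => A k R a b) 𝒰 (𝓝 (AL R a b)) := by
    intro a b
    obtain ⟨C, hC⟩ := H.bdd (x, Y, a, b) (good_base hp)
    filter_upwards [hg, hpos, small_polydisc hC] with R hg hR hC
    refine ultra_tendsto 𝒰 (C := C) fun k => ⟨tavg_nonneg hR fun x' hx' Y' hY' =>
      (H.adm k).toAdm0.nonneg _ (good_base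
        (hg x' (sphere_subset_closedBall hx') Y' (sphere_subset_closedBall hY'))), ?_⟩
    exact tavg_le hR ((H.adm k).toAdm0.torus_cont hg a b) fun x' hx' Y' hY' =>
      hC x' (sphere_subset_closedBall hx') Y' (sphere_subset_closedBall hY') k
  have hconv4 : ∀ᶠ R in 𝓝[>] (0 : ℝ), ∀ j,
      Tendsto (fun k => A k R 1 (t j)) 𝒰 (𝓝 (AL R 1 (t j))) :=
    eventually_all.2 fun j => hconv 1 (t j)
  have hALlin : ∀ a b, ∀ᶠ R in 𝓝[>] (0 : ℝ), AL R a b = ∑ j, lam j a b * AL R 1 (t j) := by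
    intro a b
    filter_upwards [hlin, hconv a b, hconv4] with R h1 h2 h3
    refine tendsto_nhds_unique h2 ?_
    simp only [h1 _ a b]
    exact tendsto_finsetSum _ fun j _ => (h3 j).const_mul _
  have hlow : ∀ a b, ∀ᶠ R in 𝓝[>] (0 : ℝ), ulim 𝒰 h (x, Y, a, b) ≤ AL R a b := by
    intro a b
    filter_upwards [hg, hpos, hlin, hALlin a b, hconv4] with R hg hR h1 h2 h3
    have hx : Tendsto (fun q : Pt × ℕ => ‖q.1.1 - x‖) (𝓝 (x, Y, a, b) ×ˢ (𝒰 : Filter ℕ))
        (𝓝 0) := by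
      have : Continuous fun q : Pt => ‖q.1 - x‖ := by fun_prop
      simpa [Function.comp_def] using
        (this.tendsto (x, Y, a, b)).comp (tendsto_fst (g := (𝒰 : Filter ℕ)))
    have hY : Tendsto (fun q : Pt × ℕ => ‖q.1.2.1 - Y‖) (𝓝 (x, Y, a, b) ×ˢ (𝒰 : Filter ℕ))
        (𝓝 0) := by
      have : Continuous fun q : Pt => ‖q.2.1 - Y‖ := by fun_prop
      simpa [Function.comp_def] using
        (this.tendsto (x, Y, a, b)).comp (tendsto_fst (g := (𝒰 : Filter ℕ)))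
    have hl : ∀ j, Tendsto (fun q : Pt × ℕ => lam j q.1.2.2.1 q.1.2.2.2)
        (𝓝 (x, Y, a, b) ×ˢ (𝒰 : Filter ℕ)) (𝓝 (lam j a b)) := by
      intro j
      have : Continuous fun q : Pt => lam j q.2.2.1 q.2.2.2 :=
        (hlam j).continuous.comp (continuous_snd.comp continuous_snd)
      exact (this.tendsto (x, Y, a, b)).comp (tendsto_fst (g := (𝒰 : Filter ℕ)))
    have hlim : Tendsto (fun q : Pt × ℕ => (R + ‖q.1.1 - x‖) / (R - ‖q.1.1 - x‖) *
        ((R + ‖q.1.2.1 - Y‖) / (R - ‖q.1.2.1 - Y‖) *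
          ∑ j, lam j q.1.2.2.1 q.1.2.2.2 * A q.2 R 1 (t j)))
        (𝓝 (x, Y, a, b) ×ˢ (𝒰 : Filter ℕ)) (𝓝 (AL R a b)) := by
      have := ((hx.const_add R).div (hx.const_sub R) (by simpa using hR.ne')).mul
        (((hY.const_add R).div (hY.const_sub R) (by simpa using hR.ne')).mul
          (tendsto_finsetSum Finset.univ fun j _ => (hl j).mul ((h3 j).comp tendsto_snd)))
      rw [h2]
      simpa [div_self hR.ne'] using this
    refine H.ulim_le_of_tendsto (good_base hp) hlim ?_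
    filter_upwards [hx.eventually (gt_mem_nhds hR), hY.eventually (gt_mem_nhds hR)] with q h4 h5
    rw [← h1]
    exact (H.adm q.2).toAdm0.le_tavg hR hg q.1.2.2.1 q.1.2.2.2 (mem_ball_iff_norm.2 h4)
      (mem_ball_iff_norm.2 h5)
  have hup : ∀ a b c, ulim 𝒰 h (x, Y, a, b) < c → ∀ᶠ R in 𝓝[>] (0 : ℝ), AL R a b ≤ c := by
    intro a b c hc
    obtain ⟨pa, ha, pb, hb, hab⟩ := eventually_prod_iff.1 (H.eventually_le (good_base hp) hc)
    filter_upwards [hg, hpos, small_polydisc ha, hconv a b] with R hg hR h1 h2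
    refine le_of_tendsto h2 ?_
    filter_upwards [hb] with k hk
    exact tavg_le hR ((H.adm k).toAdm0.torus_cont hg a b) fun x' hx' Y' hY' =>
      hab (h1 x' (sphere_subset_closedBall hx') Y' (sphere_subset_closedBall hY')) hk
  have hten : ∀ a b, Tendsto (fun R => AL R a b) (𝓝[>] (0 : ℝ)) (𝓝 (ulim 𝒰 h (x, Y, a, b))) := by
    intro a b
    rw [tendsto_order]
    refine ⟨fun c hc => (hlow a b).mono fun R hR => hc.trans_le hR, fun c hc => ?_⟩
    obtain ⟨c', h1, h2⟩ := exists_between hc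
    exact (hup a b c' h1).mono fun R hR => hR.trans_lt h2
  have hfin : ∀ a b, ulim 𝒰 h (x, Y, a, b) = ∑ j, ulim 𝒰 h (x, Y, 1, t j) * lam j a b := by
    intro a b
    refine tendsto_nhds_unique (hten a b) ?_
    refine Tendsto.congr' ((hALlin a b).mono fun R hR => hR.symm) ?_
    refine tendsto_finsetSum _ fun j _ => ?_
    rw [mul_comm]
    exact (hten 1 (t j)).const_mul _
  rw [show (fun a b => ulim 𝒰 h (x, Y, a, b)) =
    fun a b => ∑ j, ulim 𝒰 h (x, Y, 1, t j) * lam j a b from funext₂ hfin]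
  exact Herm.sum Finset.univ fun j _ => (hlam j).const_mul _

end Crest.Agent.R258

end
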