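import Crest.Agent.R258.Dual
import Crest.Agent.R258.BundleAlg
import Crest.Agent.R258.Alg

/-! From a Griffiths positive metric on `E_k` to an admissible function.

`h (x,Y,v₀,v₁) = ∑_{x'^k = x} ∑_{y'^(2k) = Y} dualSq (H (0,0) ![x', y']) (Φ⁻¹ v)` where, with
`y = y'^k`, `u 1 = (v₁ + x y¹² v₀)/(y⁸-1)`, `u 0 = (v₀ + x u 1)/y⁵` inverts `u ↦ (al, be)`.
Near a point the roots are `ρ(ζ) * r`, `r` a root at the centre, `ρ = (X ζ / X c)^(1/k)`.
Growth: for `p' = ![x', y']` choose the chart `β` with `tau (0,0) β p'` in the closed unit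
bidisc; `dual_exists`, the compatibility of `H` and a lower bound of `H β` on the compact bidisc
give `dualSq ≤ C ‖(gk k (0,0) β p')ᵀ u‖² = C |lineTrans|² ‖MM u‖² ≤ 112 C |lineTrans|² ‖qq‖`. -/

set_option autoImplicit false

noncomputable section

namespace Crest.Agent.R258

open Filter Topology Metric Set Crest.AlgGeometry.QuadricBundle

namespace Push

theorem dualSq_smul (H : Matrix (Fin 2) (Fin 2) ℂ) (t : ℂ) (u : Fin 2 → ℂ) :
    dualSq H (t • u) = ‖t‖ ^ 2 * dualSq H u := by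
  have h := (dualSq_herm H 1).smul t (u 0) (u 1)
  simp only [Matrix.one_mulVec] at h
  have e1 : (![t * u 0, t * u 1] : Fin 2 → ℂ) = t • u := by
    ext i; fin_cases i <;> simp
  have e2 : (![u 0, u 1] : Fin 2 → ℂ) = u := by
    ext i; fin_cases i <;> simp
  rwa [e1, e2] at h

theorem dualSq_zero (H : Matrix (Fin 2) (Fin 2) ℂ) : dualSq H 0 = 0 := by simp [dualSq]

theorem dualSq_nonneg {H : Matrix (Fin 2) (Fin 2) ℂ} (hH : open ComplexOrder in H.PosDef)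
    (u : Fin 2 → ℂ) : 0 ≤ dualSq H u := by
  by_cases hu : u = 0
  · rw [hu, dualSq_zero]
  · exact (dualSq_pos hH hu).le

/-- upper bound of the dual metric on the closed unit bidisc of every chart. -/
theorem dual_bound {g : Transition 2} {H : MetricData 2} (hH : IsHermitianMetric g H) :
    ∃ C : ℝ, 0 ≤ C ∧ ∀ (β : Chart) (q u : Fin 2 → ℂ), ‖q‖ ≤ 1 →
      dualSq (H β q) u ≤ C * ‖u‖ ^ 2 := by
  have h1 : ∀ β : Chart, ∃ C : ℝ, 0 ≤ C ∧ ∀ (q u : Fin 2 → ℂ), ‖q‖ ≤ 1 →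
      dualSq (H β q) u ≤ C * ‖u‖ ^ 2 := by
    intro β
    have hc := dualSq_continuous (H := H β) (fun i j => (hH.smooth β i j).continuous)
      (hH.posDef β)
    have hK : IsCompact (closedBall (0 : Fin 2 → ℂ) 1 ×ˢ closedBall (0 : Fin 2 → ℂ) 1) :=
      (isCompact_closedBall _ _).prod (isCompact_closedBall _ _)
    obtain ⟨C, hC⟩ := hK.exists_bound_of_continuousOn hc.continuousOn
    refine ⟨max C 0, le_max_right _ _, fun q u hq => ?_⟩
    by_cases hu : u = 0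
    · rw [hu, dualSq_zero]; simp
    · have hn : 0 < ‖u‖ := norm_pos_iff.2 hu
      have hnc : ((‖u‖ : ℝ) : ℂ) ≠ 0 := by exact_mod_cast hn.ne'
      have e : u = ((‖u‖ : ℝ) : ℂ) • ((((‖u‖ : ℝ) : ℂ))⁻¹ • u) := by
        rw [smul_smul, mul_inv_cancel₀ hnc, one_smul]
      have hb := hC (q, (((‖u‖ : ℝ) : ℂ))⁻¹ • u) ⟨by simpa using hq, by
        simp [norm_smul, inv_mul_cancel₀ hn.ne']⟩
      have hb' : dualSq (H β q) ((((‖u‖ : ℝ) : ℂ))⁻¹ • u) ≤ max C 0 :=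
        ((le_abs_self _).trans hb).trans (le_max_left _ _)
      conv_lhs => rw [e, dualSq_smul]
      rw [Complex.norm_real, norm_norm, mul_comm]
      exact mul_le_mul_of_nonneg_right hb' (sq_nonneg _)
  choose C hC0 hC using h1
  refine ⟨∑ β, C β, Finset.sum_nonneg fun β _ => hC0 β, fun β q u hq => ?_⟩
  refine (hC β q u hq).trans (mul_le_mul_of_nonneg_right ?_ (sq_nonneg _))
  exact Finset.single_le_sum (f := C) (fun β _ => hC0 β) (Finset.mem_univ β)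

/-- the dual metric does not increase under a change of frame. -/
theorem dual_change {H₀ H₁ g g' : Matrix (Fin 2) (Fin 2) ℂ}
    (h₀ : open ComplexOrder in H₀.PosDef) (h₁ : open ComplexOrder in H₁.PosDef)
    (hc : H₁ = g.transpose * H₀ * g.map (starRingEnd ℂ)) (hg : g * g' = 1) (u : Fin 2 → ℂ) :
    dualSq H₀ u ≤ dualSq H₁ (g.transpose.mulVec u) := by
  obtain ⟨e, he1, he2⟩ := dual_exists h₀ u
  set e' := g'.mulVec e with he'
  have hee : e = g.mulVec e' := by rw [he', Matrix.mulVec_mulVec, hg, Matrix.one_mulVec]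
  have hcs := dual_cs h₁ (g.transpose.mulVec u) e'
  have e1 : (∑ i, (g.transpose.mulVec u) i * e' i) = ∑ i, u i * e i := by
    rw [hee]
    simp [Matrix.mulVec, dotProduct, Fin.sum_univ_two]
    ring
  have e2 : (∑ i, ∑ j, H₁ i j * e' i * (starRingEnd ℂ) (e' j)) =
      ∑ i, ∑ j, H₀ i j * e i * (starRingEnd ℂ) (e j) := by
    rw [hee, hc]
    simp [Matrix.mulVec, dotProduct, Fin.sum_univ_two, Matrix.mul_apply]
    ring
  rw [e1, e2, he1, he2, Complex.norm_real, Real.norm_eq_abs, sq_abs] at hcs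
  have h0 := dualSq_nonneg h₀ u
  rcases h0.eq_or_lt with h | h
  · rw [← h]; exact dualSq_nonneg h₁ _
  · rw [sq] at hcs
    exact le_of_mul_le_mul_right hcs h

/-- the `n`-th roots of `x`. -/
def rts (n : ℕ) (x : ℂ) : Finset ℂ := (Polynomial.nthRoots n x).toFinset

theorem mem_rts {n : ℕ} (hn : n ≠ 0) {x r : ℂ} : r ∈ rts n x ↔ r ^ n = x := by
  simp [rts, Polynomial.mem_nthRoots (Nat.pos_of_ne_zero hn)]

theorem card_rts (n : ℕ) (x : ℂ) : (rts n x).card ≤ n :=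
  (Multiset.toFinset_card_le _).trans (Polynomial.card_nthRoots n x)

theorem rts_nonempty {n : ℕ} (hn : n ≠ 0) (x : ℂ) : (rts n x).Nonempty := by
  obtain ⟨z, hz⟩ := IsAlgClosed.exists_pow_nat_eq x (Nat.pos_of_ne_zero hn)
  exact ⟨z, (mem_rts hn).2 hz⟩

/-- local branch factor. -/
def rho (n : ℕ) (x₀ x : ℂ) : ℂ := (x / x₀) ^ ((n : ℂ)⁻¹)

theorem rho_pow {n : ℕ} (hn : n ≠ 0) (x₀ x : ℂ) : rho n x₀ x ^ n = x / x₀ :=
  Complex.cpow_nat_inv_pow _ hn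

theorem rho_self (n : ℕ) {x₀ : ℂ} (hx₀ : x₀ ≠ 0) : rho n x₀ x₀ = 1 := by
  simp [rho, div_self hx₀]

theorem rho_analyticAt (n : ℕ) {x₀ : ℂ} (hx₀ : x₀ ≠ 0) : AnalyticAt ℂ (rho n x₀) x₀ := by
  unfold rho
  refine AnalyticAt.cpow (by fun_prop (disch := exact hx₀)) analyticAt_const ?_
  simp [div_self hx₀]

theorem sum_rts {n : ℕ} (hn : n ≠ 0) {x₀ x : ℂ} (hx₀ : x₀ ≠ 0) (hx : x ≠ 0) (f : ℂ → ℝ) :
    ∑ r ∈ rts n x, f r = ∑ r ∈ rts n x₀, f (rho n x₀ x * r) := by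
  have hρ : rho n x₀ x ≠ 0 := by
    intro h
    have := rho_pow hn x₀ x
    rw [h, zero_pow hn] at this
    exact (div_ne_zero hx hx₀) this.symm
  symm
  refine Finset.sum_nbij' (fun r => rho n x₀ x * r) (fun r => (rho n x₀ x)⁻¹ * r) ?_ ?_ ?_ ?_ ?_
  · intro r hr
    rw [mem_rts hn] at hr ⊢
    rw [mul_pow, rho_pow hn, hr, div_mul_cancel₀ _ hx₀]
  · intro r hr
    rw [mem_rts hn] at hr ⊢
    rw [mul_pow, inv_pow, rho_pow hn, hr]
    field_simp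
  · intro r _; simp [hρ]
  · intro r _; simp [hρ]
  · intro r _; rfl

/-- inverse of `u ↦ (al 1 x y u, be 1 x y u)`. -/
def uinv (x y v₀ v₁ : ℂ) : Fin 2 → ℂ :=
  ![(v₀ + x * ((v₁ + x * y ^ 12 * v₀) / (y ^ 8 - 1))) / y ^ 5, (v₁ + x * y ^ 12 * v₀) / (y ^ 8 - 1)]

theorem al_uinv (x y v₀ v₁ : ℂ) (hy : y ≠ 0) : al 1 x y (uinv x y v₀ v₁) = v₀ := by
  simp only [al, uinv, Matrix.cons_val_zero, Matrix.cons_val_one]
  rw [mul_div_cancel₀ _ (pow_ne_zero 5 hy)]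
  ring

theorem be_uinv (x y v₀ v₁ : ℂ) (hy : y ≠ 0) (hy' : y ^ 8 ≠ 1) :
    be 1 x y (uinv x y v₀ v₁) = v₁ := by
  rw [be, al_uinv x y v₀ v₁ hy]
  simp only [uinv, Matrix.cons_val_zero, Matrix.cons_val_one]
  rw [mul_div_cancel₀ _ (sub_ne_zero.2 hy')]
  ring

theorem uinv_eq (x y v₀ v₁ : ℂ) : uinv x y v₀ v₁ =
    (!![(1 + x * (x * y ^ 12 / (y ^ 8 - 1))) / y ^ 5, x / (y ^ 8 - 1) / y ^ 5;
      x * y ^ 12 / (y ^ 8 - 1), 1 / (y ^ 8 - 1)] : Matrix (Fin 2) (Fin 2) ℂ).mulVec ![v₀, v₁] := by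
  ext i
  fin_cases i <;> simp [uinv, Matrix.mulVec, dotProduct, Fin.sum_univ_two] <;> ring

/-- one term of the push-forward. -/
def FF (k : ℕ) (H : MetricData 2) (x' y' v₀ v₁ : ℂ) : ℝ :=
  dualSq (H (0, 0) ![x', y']) (uinv (x' ^ k) (y' ^ k) v₀ v₁)

/-- the push-forward of the dual metric. -/
def hh (k : ℕ) (H : MetricData 2) (p : Pt) : ℝ :=
  ∑ r ∈ rts k p.1, ∑ s ∈ rts (2 * k) p.2.1, FF k H r s p.2.2.1 p.2.2.2

theorem hh_local (k : ℕ) (hk : k ≠ 0) (H : MetricData 2) {p₀ p : Pt} (h₀ : good p₀) (hp : good p) :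
    hh k H p = ∑ r ∈ rts k p₀.1, ∑ s ∈ rts (2 * k) p₀.2.1,
      FF k H (rho k p₀.1 p.1 * r) (rho (2 * k) p₀.2.1 p.2.1 * s) p.2.2.1 p.2.2.2 := by
  have hk2 : 2 * k ≠ 0 := by omega
  rw [hh, sum_rts hk h₀.1 hp.1]
  refine Finset.sum_congr rfl fun r _ => ?_
  rw [sum_rts hk2 h₀.2.1 hp.2.1]

theorem root_good {k : ℕ} (hk : k ≠ 0) {Y s : ℂ} (hY : Y ≠ 0) (hY' : Y ^ 4 ≠ 1)
    (hs : s ∈ rts (2 * k) Y) : (s ^ k) ^ 2 = Y ∧ s ^ k ≠ 0 ∧ (s ^ k) ^ 8 ≠ 1 := by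
  have hk2 : 2 * k ≠ 0 := by omega
  rw [mem_rts hk2] at hs
  have h1 : (s ^ k) ^ 2 = Y := by rw [← hs, ← pow_mul, mul_comm]
  refine ⟨h1, fun h => hY (by rw [← h1, h]; simp), ?_⟩
  have : (s ^ k) ^ 8 = ((s ^ k) ^ 2) ^ 4 := by ring
  rw [this, h1]; exact hY'

theorem an21 (p : Pt) : AnalyticAt ℂ (fun q : Pt => q.2.1) p :=
  AnalyticAt.comp (f := fun q : Pt => q.2) analyticAt_fst analyticAt_snd

theorem an22 (p : Pt) : AnalyticAt ℂ (fun q : Pt => q.2.2) p :=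
  AnalyticAt.comp (f := fun q : Pt => q.2) analyticAt_snd analyticAt_snd

theorem an221 (p : Pt) : AnalyticAt ℂ (fun q : Pt => q.2.2.1) p :=
  AnalyticAt.comp (f := fun q : Pt => q.2.2) analyticAt_fst (an22 p)

theorem an222 (p : Pt) : AnalyticAt ℂ (fun q : Pt => q.2.2.2) p :=
  AnalyticAt.comp (f := fun q : Pt => q.2.2) analyticAt_snd (an22 p)

/-- the base point and the covector of a local term are analytic in `p`. -/
theorem term_analytic (k : ℕ) (hk : k ≠ 0) {p₀ : Pt} (h₀ : good p₀) (r : ℂ) {s : ℂ}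
    (hs : s ∈ rts (2 * k) p₀.2.1) :
    AnalyticAt ℂ (fun p : Pt => (![rho k p₀.1 p.1 * r, rho (2 * k) p₀.2.1 p.2.1 * s] : Fin 2 → ℂ))
      p₀ ∧
    AnalyticAt ℂ (fun p : Pt => uinv ((rho k p₀.1 p.1 * r) ^ k)
      ((rho (2 * k) p₀.2.1 p.2.1 * s) ^ k) p.2.2.1 p.2.2.2) p₀ := by
  obtain ⟨-, hs1, hs2⟩ := root_good hk h₀.2.1 h₀.2.2 hs
  have a1 : AnalyticAt ℂ (fun p : Pt => rho k p₀.1 p.1) p₀ :=
    AnalyticAt.comp (f := fun p : Pt => p.1) (rho_analyticAt k h₀.1) analyticAt_fst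
  have a2 : AnalyticAt ℂ (fun p : Pt => rho (2 * k) p₀.2.1 p.2.1) p₀ :=
    AnalyticAt.comp (f := fun p : Pt => p.2.1) (rho_analyticAt (2 * k) h₀.2.1) (an21 p₀)
  have b1 : AnalyticAt ℂ (fun p : Pt => (rho k p₀.1 p.1 * r) ^ k) p₀ :=
    (a1.mul analyticAt_const).pow k
  have b2 : AnalyticAt ℂ (fun p : Pt => (rho (2 * k) p₀.2.1 p.2.1 * s) ^ k) p₀ :=
    (a2.mul analyticAt_const).pow k
  have v0 : AnalyticAt ℂ (fun p : Pt => p.2.2.1) p₀ := an221 p₀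
  have v1 : AnalyticAt ℂ (fun p : Pt => p.2.2.2) p₀ := an222 p₀
  have n1 : ((rho (2 * k) p₀.2.1 p₀.2.1 * s) ^ k) ^ 8 - 1 ≠ 0 := by
    rw [rho_self _ h₀.2.1, one_mul]; exact sub_ne_zero.2 hs2
  have n2 : ((rho (2 * k) p₀.2.1 p₀.2.1 * s) ^ k) ^ 5 ≠ 0 := by
    rw [rho_self _ h₀.2.1, one_mul]; exact pow_ne_zero 5 hs1
  have c1 : AnalyticAt ℂ (fun p : Pt => (p.2.2.2 + (rho k p₀.1 p.1 * r) ^ k *
      ((rho (2 * k) p₀.2.1 p.2.1 * s) ^ k) ^ 12 * p.2.2.1) /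
        (((rho (2 * k) p₀.2.1 p.2.1 * s) ^ k) ^ 8 - 1)) p₀ :=
    (v1.add ((b1.mul (b2.pow 12)).mul v0)).div ((b2.pow 8).sub analyticAt_const) n1
  constructor
  · rw [analyticAt_pi_iff]
    intro i
    fin_cases i
    · exact a1.mul analyticAt_const
    · exact a2.mul analyticAt_const
  · rw [analyticAt_pi_iff]
    intro i
    fin_cases i
    · exact (v0.add (b1.mul c1)).div (b2.pow 5) n2
    · exact c1

theorem sq_le_rpow {a b : ℝ} {k m : ℕ} (hk : k ≠ 0) (hm : k ≤ m) (ha : 0 ≤ a) (hb : 0 ≤ b)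
    (h : a ^ m = b) : 1 + a ^ 2 ≤ 2 * (1 + b) ^ (2 / (k : ℝ)) := by
  have hk' : (0 : ℝ) < k := by exact_mod_cast Nat.pos_of_ne_zero hk
  have h1 : 1 ≤ (1 + b) ^ (2 / (k : ℝ)) := Real.one_le_rpow (by linarith) (by positivity)
  have h2 : a ^ 2 ≤ (1 + b) ^ (2 / (k : ℝ)) := by
    rcases le_total a 1 with h3 | h3
    · exact (pow_le_one₀ ha h3).trans h1
    · have e : a ^ 2 = (a ^ k) ^ (2 / (k : ℝ)) := by
        rw [← Real.rpow_natCast a k, ← Real.rpow_mul ha, mul_div_cancel₀ _ hk'.ne']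
        norm_cast
      rw [e]
      apply Real.rpow_le_rpow (by positivity) _ (by positivity)
      have := pow_le_pow_right₀ h3 hm
      linarith
  linarith

theorem adm0_add {ε : ℝ} {f g : Pt → ℝ} (hf : Adm0 ε f) (hg : Adm0 ε g) :
    Adm0 ε fun p => f p + g p where
  herm x Y h := (hf.herm x Y h).add (hg.herm x Y h)
  pos p hp hv := add_pos (hf.pos p hp hv) (hg.pos p hp hv)
  cont := hf.cont.add hg.cont
  lsm γ c hγ hc := (hf.lsm γ c hγ hc).add (hg.lsm γ c hγ hc)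
  growth := by
    obtain ⟨B₁, h₁, hB₁⟩ := hf.growth
    obtain ⟨B₂, h₂, hB₂⟩ := hg.growth
    refine ⟨B₁ + B₂, add_nonneg h₁ h₂, fun p hp => ?_⟩
    have := add_le_add (hB₁ p hp) (hB₂ p hp)
    linarith

theorem adm0_sig1 {ε : ℝ} {f : Pt → ℝ} (hf : Adm0 ε f) : Adm0 ε fun p => f (sig1 p) where
  herm x Y h := by
    have := (hf.herm (-x) Y ⟨neg_ne_zero.2 h.1, h.2⟩).comp 1 0 0 (-1)
    simpa [sig1] using this
  pos p hp hv := hf.pos _ (good_sig1 hp) (by simpa [sig1] using hv)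
  cont := hf.cont.comp (by unfold sig1; fun_prop) fun p hp => good_sig1 hp
  lsm γ c hγ hc := by
    refine hf.lsm (fun ζ => sig1 (γ ζ)) c ?_ (good_sig1 hc)
    have : AnalyticAt ℂ sig1 (γ c) :=
      analyticAt_fst.neg.prod ((an21 _).prod ((an221 _).prod (an222 _).neg))
    exact this.comp hγ
  growth := by
    obtain ⟨B, h₁, hB⟩ := hf.growth
    refine ⟨B, h₁, fun p hp => ?_⟩
    have := hB _ (good_sig1 hp)
    rw [wq_sig1] at this
    simpa [sig1] using this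

theorem sig2_analyticAt {p : Pt} (hp : good p) : AnalyticAt ℂ sig2 p := by
  unfold sig2
  have h1 : AnalyticAt ℂ (fun q : Pt => q.1⁻¹) p := analyticAt_fst.inv hp.1
  exact h1.prod ((an21 p).prod ((analyticAt_fst.mul (an222 p)).prod
    (analyticAt_fst.mul (an221 p))))

theorem adm0_sig2 {ε : ℝ} {f : Pt → ℝ} (hf : Adm0 ε f) : Adm0 ε fun p => f (sig2 p) where
  herm x Y h := by
    have := (hf.herm x⁻¹ Y ⟨inv_ne_zero h.1, h.2⟩).comp 0 x x 0
    simpa [sig2] using this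
  pos p hp hv := hf.pos _ (good_sig2 hp) (by
    rcases hv with h | h
    · exact Or.inr (mul_ne_zero hp.1 h)
    · exact Or.inl (mul_ne_zero hp.1 h))
  cont := hf.cont.comp (fun p hp => (sig2_analyticAt hp).continuousAt.continuousWithinAt)
    fun p hp => good_sig2 hp
  lsm γ c hγ hc :=
    hf.lsm (fun ζ => sig2 (γ ζ)) c ((sig2_analyticAt hc).comp hγ) (good_sig2 hc)
  growth := by
    obtain ⟨B, h₁, hB⟩ := hf.growth
    refine ⟨B, h₁, fun p hp => ?_⟩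
    have := hB _ (good_sig2 hp)
    rw [wq_sig2 hp] at this
    simp only [sig2, norm_inv, inv_inv] at this
    rwa [mul_comm (1 + ‖p.1‖⁻¹)] at this

end Push

open Push

theorem dual_growth (k : ℕ) (hk : k ≠ 0) {H : MetricData 2} (hH : IsHermitianMetric (gk k) H) :
    ∃ B : ℝ, 0 ≤ B ∧ ∀ (x' y' : ℂ) (u : Fin 2 → ℂ), dualSq (H (0, 0) ![x', y']) u ≤
      B * ((1 + ‖x'‖ ^ 2) * (1 + ‖y'‖ ^ 2)) * ‖qq (0, 0) (x' ^ k) (y' ^ k) u‖ := by
  obtain ⟨C, hC0, hC⟩ := dual_bound hH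
  refine ⟨C * 112, by positivity, fun x' y' u => ?_⟩
  have sel : ∀ x : ℂ, ∃ a : Fin 2, ((0 : Fin 2) ≠ a → x ≠ 0) ∧
      ‖(if (0 : Fin 2) = a then x else x⁻¹)‖ ≤ 1 ∧
      ‖(if (0 : Fin 2) = a then x ^ k else (x ^ k)⁻¹)‖ ≤ 1 ∧
      ‖(if (0 : Fin 2) = a then 1 else x ^ (1 : ℤ))‖ ^ 2 ≤ 1 + ‖x‖ ^ 2 := by
    intro x
    rcases le_or_gt ‖x‖ 1 with h | h
    · refine ⟨0, fun h => absurd rfl h, by simpa using h, ?_, by simp⟩
      simp only [if_true, norm_pow]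
      exact pow_le_one₀ (norm_nonneg _) h
    · refine ⟨1, fun _ h0 => ?_, ?_, ?_, by simp⟩
      · rw [h0, norm_zero] at h; linarith
      · simp only [zero_ne_one, if_false, norm_inv]
        exact inv_le_one_of_one_le₀ h.le
      · simp only [zero_ne_one, if_false, norm_inv, norm_pow]
        exact inv_le_one_of_one_le₀ (one_le_pow₀ h.le)
  obtain ⟨a, ha0, ha1, ha2, ha3⟩ := sel x'
  obtain ⟨b, hb0, hb1, hb2, hb3⟩ := sel y'
  set p : Fin 2 → ℂ := ![x', y'] with hp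
  have hov : p ∈ overlap (0, 0) (a, b) := ⟨ha0, hb0⟩
  have hov0 : p ∈ overlap (0, 0) (0, 0) := ⟨fun h => absurd rfl h, fun h => absurd rfl h⟩
  have hco := (gk_cocycle k hk).cocycle (0, 0) (a, b) (0, 0) p ⟨hov, hov0⟩
  rw [(gk_cocycle k hk).refl] at hco
  have h1 := dual_change (hH.posDef (0, 0) p) (hH.posDef (a, b) (tau (0, 0) (a, b) p))
    (hH.compat (0, 0) (a, b) p hov) hco u
  have hq : ‖tau (0, 0) (a, b) p‖ ≤ 1 := by
    rw [pi_norm_le_iff_of_nonneg zero_le_one]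
    intro i
    fin_cases i
    · exact ha1
    · exact hb1
  have h2 := hC (a, b) _ ((gk k (0, 0) (a, b) p).transpose.mulVec u) hq
  have e1 : (gk k (0, 0) (a, b) p).transpose.mulVec u =
      lineTrans 1 1 (0, 0) (a, b) p • (MM (0, 0) (a, b) (x' ^ k) (y' ^ k)).mulVec u := by
    simp only [gk, Matrix.transpose_smul, Matrix.transpose_transpose, Matrix.smul_mulVec]
    rfl
  have h3 := qq_bound (a, b) ha2 hb2 ((MM (0, 0) (a, b) (x' ^ k) (y' ^ k)).mulVec u)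
  rw [← qq_MM (0, 0) (a, b) (fun h => pow_ne_zero k (ha0 h)) (fun h => pow_ne_zero k (hb0 h)) u]
    at h3
  have h4 : ‖lineTrans 1 1 (0, 0) (a, b) p‖ ^ 2 ≤ (1 + ‖x'‖ ^ 2) * (1 + ‖y'‖ ^ 2) := by
    rw [lineTrans, norm_mul, mul_pow]
    exact mul_le_mul ha3 hb3 (sq_nonneg _) (by positivity)
  rw [e1, norm_smul, mul_pow] at h2
  rw [e1] at h1
  have h5 := mul_le_mul h4 h3 (sq_nonneg _) (by positivity)
  have h6 := mul_le_mul_of_nonneg_left h5 hC0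
  calc _ ≤ _ := h1
    _ ≤ _ := h2
    _ ≤ _ := h6
    _ = _ := by ring

theorem adm0_of_metric (k : ℕ) (hk : k ≠ 0) {H : MetricData 2}
    (hH : IsHermitianMetric (gk k) H) (hG : IsGriffithsPositive H) :
    ∃ h, Adm0 (2 / (k : ℝ)) h := by
  have hk2 : 2 * k ≠ 0 := by omega
  refine ⟨hh k H, ?_, ?_, ?_, ?_, ?_⟩
  · intro x Y _
    refine Herm.sum (rts k x) (f := fun r v₀ v₁ => ∑ s ∈ rts (2 * k) Y, FF k H r s v₀ v₁)
      fun r _ => Herm.sum (rts (2 * k) Y) (f := fun s v₀ v₁ => FF k H r s v₀ v₁) fun s _ => ?_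
    simp only [FF, uinv_eq]
    exact dualSq_herm _ _
  · intro p hp hv
    refine Finset.sum_pos (fun r _ => Finset.sum_pos (fun s hs => ?_) (rts_nonempty hk2 _))
      (rts_nonempty hk _)
    obtain ⟨-, hs1, hs2⟩ := root_good hk hp.2.1 hp.2.2 hs
    refine dualSq_pos (hH.posDef _ _) fun h0 => ?_
    have h1 := al_uinv (r ^ k) (s ^ k) p.2.2.1 p.2.2.2 hs1
    have h2 := be_uinv (r ^ k) (s ^ k) p.2.2.1 p.2.2.2 hs1 hs2
    rw [h0] at h1 h2
    simp only [al, be, Pi.zero_apply, mul_zero, sub_self] at h1 h2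
    rcases hv with h | h
    · exact h h1.symm
    · exact h h2.symm
  · intro p₀ h₀
    have hc := dualSq_continuous (H := H (0, 0)) (fun i j => (hH.smooth (0, 0) i j).continuous)
      (hH.posDef (0, 0))
    have : ContinuousAt (fun p : Pt => ∑ r ∈ rts k p₀.1, ∑ s ∈ rts (2 * k) p₀.2.1,
        FF k H (rho k p₀.1 p.1 * r) (rho (2 * k) p₀.2.1 p.2.1 * s) p.2.2.1 p.2.2.2) p₀ := by
      refine tendsto_finsetSum _ fun r _ => tendsto_finsetSum _ fun s hs => ?_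
      obtain ⟨t1, t2⟩ := term_analytic k hk h₀ r hs
      exact hc.continuousAt.comp (t1.continuousAt.prodMk t2.continuousAt)
    exact this.continuousWithinAt.congr (fun p hp => hh_local k hk H h₀ hp)
      (hh_local k hk H h₀ h₀)
  · intro γ c hγ hc
    have hev : ∀ᶠ ζ in 𝓝 c, good (γ ζ) := hγ.continuousAt.eventually (isOpen_good.mem_nhds hc)
    refine LSM.congr (u := fun ζ => ∑ r ∈ rts k (γ c).1, ∑ s ∈ rts (2 * k) (γ c).2.1,
        FF k H (rho k (γ c).1 (γ ζ).1 * r) (rho (2 * k) (γ c).2.1 (γ ζ).2.1 * s)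
          (γ ζ).2.2.1 (γ ζ).2.2.2) ?_ ?_
    · refine LSM.sum _ fun r _ => LSM.sum _ fun s hs => ?_
      obtain ⟨t1, t2⟩ := term_analytic k hk hc r hs
      exact dual_lsm hH hG (0, 0) _ _ c (t1.comp hγ) (t2.comp hγ)
    · filter_upwards [hev] with ζ hζ
      exact (hh_local k hk H hc hζ).symm
  · obtain ⟨B, hB0, hB⟩ := dual_growth k hk hH
    refine ⟨k * (2 * k * (B * 4)), by positivity, fun p hp => ?_⟩
    set T : ℝ := ((1 + ‖p.1‖) * (1 + ‖p.1‖⁻¹) * (1 + ‖p.2.1‖)) ^ (2 / (k : ℝ)) with hT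
    have hT0 : 0 ≤ T := by positivity
    have hterm : ∀ r ∈ rts k p.1, ∀ s ∈ rts (2 * k) p.2.1,
        FF k H r s p.2.2.1 p.2.2.2 ≤ B * 4 * T * ‖wq p‖ := by
      intro r hr s hs
      obtain ⟨hs0, hs1, hs2⟩ := root_good hk hp.2.1 hp.2.2 hs
      rw [mem_rts hk] at hr
      rw [mem_rts hk2] at hs
      have h1 := hB r s (uinv (r ^ k) (s ^ k) p.2.2.1 p.2.2.2)
      rw [← wq_al_be _ _ _ hs1 hs2, al_uinv _ _ _ _ hs1, be_uinv _ _ _ _ hs1 hs2, hs0] at h1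
      have e : ((r ^ k, p.2.1, p.2.2.1, p.2.2.2) : Pt) = p := by rw [hr]
      rw [e] at h1
      have b1 := sq_le_rpow hk le_rfl (norm_nonneg r) (norm_nonneg p.1)
        (by rw [← norm_pow, hr])
      have b2 := sq_le_rpow hk (show k ≤ 2 * k by omega) (norm_nonneg s) (norm_nonneg p.2.1)
        (by rw [← norm_pow, hs])
      have b3 : 1 ≤ (1 + ‖p.1‖⁻¹) ^ (2 / (k : ℝ)) :=
        Real.one_le_rpow (by simp) (by positivity)
      have b4 : (1 + ‖r‖ ^ 2) * (1 + ‖s‖ ^ 2) ≤ 4 * T := by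
        rw [hT, Real.mul_rpow (by positivity) (by positivity),
          Real.mul_rpow (by positivity) (by positivity)]
        have c1 : 0 ≤ (1 + ‖p.1‖) ^ (2 / (k : ℝ)) := by positivity
        have c2 : 0 ≤ (1 + ‖p.2.1‖) ^ (2 / (k : ℝ)) := by positivity
        have c3 := mul_le_mul b1 b2 (by positivity) (by positivity)
        have c4 := mul_le_mul_of_nonneg_left b3 (mul_nonneg c1 c2)
        nlinarith
      refine h1.trans ?_
      have := mul_le_mul_of_nonneg_right (mul_le_mul_of_nonneg_left b4 hB0) (norm_nonneg (wq p))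
      linarith
    have hK0 : 0 ≤ B * 4 * T * ‖wq p‖ := by positivity
    have hin : ∀ r ∈ rts k p.1, ∑ s ∈ rts (2 * k) p.2.1, FF k H r s p.2.2.1 p.2.2.2 ≤
        2 * k * (B * 4 * T * ‖wq p‖) := by
      intro r hr
      refine (Finset.sum_le_card_nsmul _ _ _ (hterm r hr)).trans ?_
      rw [nsmul_eq_mul]
      refine mul_le_mul_of_nonneg_right ?_ hK0
      exact_mod_cast card_rts (2 * k) p.2.1
    refine (Finset.sum_le_card_nsmul _ _ _ hin).trans ?_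
    rw [nsmul_eq_mul]
    have hcard : ((rts k p.1).card : ℝ) ≤ k := by exact_mod_cast card_rts k p.1
    refine (mul_le_mul_of_nonneg_right hcard (by positivity)).trans (le_of_eq ?_)
    ring

/-- `h' = h + h ∘ sig1`, `h'' = h' + h' ∘ sig2`. -/
theorem Adm0.symmetrize {ε : ℝ} {h : Pt → ℝ} (hh : Adm0 ε h) : ∃ h', Adm ε h' := by
  have h1 := adm0_add hh (adm0_sig1 hh)
  have h2 := adm0_add h1 (adm0_sig2 h1)
  have s11 : ∀ p : Pt, sig1 (sig1 p) = p := fun p => by simp [sig1]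
  have s21 : ∀ p : Pt, sig2 (sig1 p) = sig1 (sig2 p) := fun p => by simp [sig1, sig2]
  have s22 : ∀ p : Pt, good p → sig2 (sig2 p) = p := fun p hp => by
    simp [sig2, inv_mul_cancel_left₀ hp.1]
  refine ⟨_, h2, fun p _ => ?_, fun p hp => ?_⟩
  · simp only [s11, s21]; ring
  · simp only [s22 p hp]; ring

end Crest.Agent.R258

end
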