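import Crest.Agent.R258.Ample
import Crest.Agent.R258.Push
import Crest.Agent.R258.Limit
import Crest.Agent.R258.Final

set_option autoImplicit false

noncomputable section

namespace Crest.Agent.R258

open Filter Topology Crest.AlgGeometry.QuadricBundle

theorem main : ∃ g : Transition 2, IsHoloCocycle g ∧ IsAmple g ∧
    ∀ H : MetricData 2, IsHermitianMetric g H → ¬ IsGriffithsPositive H := by
  by_contra hcon
  have key : ∀ k : ℕ, ∃ h, Adm (2 / ((k + 2 : ℕ) : ℝ)) h := by
    intro k
    by_contra hk
    apply hcon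
    refine ⟨gk (k + 2), gk_cocycle _ (by omega), gk_ample _ (by omega), fun H hH hG => hk ?_⟩
    obtain ⟨h, hh⟩ := adm0_of_metric (k + 2) (by omega) hH hG
    exact hh.symmetrize
  choose h hh using key
  obtain ⟨U, hU⟩ := exists_lim (fun k => 2 / ((k + 2 : ℕ) : ℝ)) h (fun k => by
    have h2 : (2 : ℝ) ≤ ((k + 2 : ℕ) : ℝ) := by exact_mod_cast Nat.le_add_left 2 k
    refine ⟨by positivity, ?_⟩
    rw [div_le_one (by linarith)]
    exact h2) ((tendsto_const_div_atTop_nhds_zero_nat 2).comp (tendsto_add_atTop_nat 2)) hh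
  exact no_lim U hU

end Crest.Agent.R258

end
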