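import Crest.Agent.R258.Sub

/-! Polynomial functions and the Liouville type lemma with punctures. -/

set_option autoImplicit false

noncomputable section

namespace Crest.Agent.R258

open Filter Topology Metric Set

theorem IsPoly.const (a : ℂ) : IsPoly 0 fun _ => a := by
  exact ⟨Polynomial.C a, by simp, fun _ => by simp⟩

theorem IsPoly.id : IsPoly 1 fun ζ => ζ := by
  exact ⟨Polynomial.X, by simp, fun _ => by simp⟩

theorem IsPoly.mono {n m : ℕ} {f : ℂ → ℂ} (h : IsPoly n f) (hnm : n ≤ m) : IsPoly m f := by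
  obtain ⟨p, hp, h⟩ := h
  exact ⟨p, hp.trans hnm, h⟩

theorem IsPoly.add {n : ℕ} {f g : ℂ → ℂ} (hf : IsPoly n f) (hg : IsPoly n g) :
    IsPoly n fun ζ => f ζ + g ζ := by
  obtain ⟨p, hp, h⟩ := hf
  obtain ⟨q, hq, h'⟩ := hg
  exact ⟨p + q, (Polynomial.natDegree_add_le p q).trans (max_le hp hq), fun ζ => by simp [h, h']⟩

theorem IsPoly.neg {n : ℕ} {f : ℂ → ℂ} (hf : IsPoly n f) : IsPoly n fun ζ => -f ζ := by
  obtain ⟨p, hp, h⟩ := hf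
  exact ⟨-p, by simpa using hp, fun ζ => by simp [h]⟩

theorem IsPoly.sub {n : ℕ} {f g : ℂ → ℂ} (hf : IsPoly n f) (hg : IsPoly n g) :
    IsPoly n fun ζ => f ζ - g ζ := by
  simpa only [sub_eq_add_neg] using hf.add hg.neg

theorem IsPoly.mul {n m : ℕ} {f g : ℂ → ℂ} (hf : IsPoly n f) (hg : IsPoly m g) :
    IsPoly (n + m) fun ζ => f ζ * g ζ := by
  obtain ⟨p, hp, h⟩ := hf
  obtain ⟨q, hq, h'⟩ := hg
  exact ⟨p * q, Polynomial.natDegree_mul_le.trans (add_le_add hp hq), fun ζ => by simp [h, h']⟩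

theorem IsPoly.pow {n : ℕ} {f : ℂ → ℂ} (hf : IsPoly n f) (k : ℕ) :
    IsPoly (k * n) fun ζ => f ζ ^ k := by
  obtain ⟨p, hp, h⟩ := hf
  exact ⟨p ^ k, Polynomial.natDegree_pow_le.trans (Nat.mul_le_mul_left k hp),
    fun ζ => by simp [h]⟩

theorem IsPoly.differentiable {n : ℕ} {f : ℂ → ℂ} (hf : IsPoly n f) : Differentiable ℂ f := by
  obtain ⟨p, -, h⟩ := hf
  have : f = fun ζ => p.eval ζ := funext h
  rw [this]
  exact p.differentiable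

theorem IsPoly.growth {n : ℕ} {f : ℂ → ℂ} (hf : IsPoly n f) :
    ∃ C : ℝ, 0 ≤ C ∧ ∀ ζ, ‖f ζ‖ ≤ C * (1 + ‖ζ‖) ^ n := by
  obtain ⟨p, hp, h⟩ := hf
  refine ⟨∑ i ∈ Finset.range (n + 1), ‖p.coeff i‖, by positivity, fun ζ => ?_⟩
  rw [h, Polynomial.eval_eq_sum_range' (Nat.lt_succ_of_le hp), Finset.sum_mul]
  refine (norm_sum_le _ _).trans (Finset.sum_le_sum fun i hi => ?_)
  rw [norm_mul, norm_pow]
  have h0 := norm_nonneg ζ
  refine mul_le_mul_of_nonneg_left ?_ (norm_nonneg _)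
  exact (pow_le_pow_left₀ h0 (by linarith) i).trans
    (pow_le_pow_right₀ (by linarith) (Nat.lt_succ_iff.1 (Finset.mem_range.1 hi)))

theorem IsPoly.finite_zeros {n : ℕ} {f : ℂ → ℂ} (hf : IsPoly n f) {ζ₀ : ℂ} (h0 : f ζ₀ ≠ 0) :
    {ζ | f ζ = 0}.Finite := by
  obtain ⟨p, -, h⟩ := hf
  have hp : p ≠ 0 := by
    rintro rfl
    exact h0 (by simp [h])
  simpa only [h, Polynomial.IsRoot.def] using Polynomial.finite_setOfPred_isRoot hp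

theorem isPoly_bb (w : Wt) (i : Fin 4) : IsPoly 6 fun Y => bb Y w i := by
  open Polynomial in
  fin_cases i
  · exact ⟨X ^ 5 * (4 * C w.1 * X + 2 * C w.2.2), by compute_degree, fun ζ => by simp [bb]⟩
  · exact ⟨-(4 * C w.2.1 + 2 * C w.2.2 * X), by compute_degree!, fun ζ => by simp [bb]⟩
  · exact ⟨-((X ^ 2 - 1) ^ 2 * (C w.1 * (1 + 2 * X ^ 2) + C w.2.1 * (2 + X ^ 2) + C w.2.2 * X)),
      by compute_degree, fun ζ => by simp [bb]⟩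
  · exact ⟨(X ^ 2 + 1) ^ 2 * (C w.1 * (2 * X ^ 2 - 1) + C w.2.1 * (2 - X ^ 2) + C w.2.2 * X),
      by compute_degree, fun ζ => by simp [bb]⟩

theorem isPoly_RR (w : Wt) : IsPoly 36 fun Y => RR Y w := by
  exact ((((isPoly_bb w 0).mul (isPoly_bb w 1)).mul (isPoly_bb w 2)).mul (isPoly_bb w 3)).mul
    (((isPoly_bb w 1).sub (isPoly_bb w 0)).pow 2)

/-- Liouville type lemma with punctures, on a curve `S` lying properly over the `ζ`-plane.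
Proof: on `r ≤ ‖ζ - ζ₀‖` the function is at most
`B * (‖R ζ‖ (1+‖ζ‖)^n / ‖ζ - ζ₀‖^(n+d+1))^s`, which is small when `‖R ζ‖` is small or `ζ` is
large; apply `maxPrinciple` (bound `M + η`) on
`S ∩ π⁻¹ {r ≤ ‖ζ - ζ₀‖ ≤ L, η' ≤ ‖R ζ‖}`, the barrier being locally `‖g‖²` with
`g = const * ((R² / (ζ-ζ₀)^N) / (value at the centre)) ^ (s/2)`. -/
theorem liouville {Z : Type*} [TopologicalSpace Z] (π : Z → ℂ) (hπ : Continuous π) (S : Set Z)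
    (hcomp : ∀ K : Set ℂ, IsCompact K → IsCompact (S ∩ π ⁻¹' K))
    (u : Z → ℝ) (R : ℂ → ℂ) (d n : ℕ) (hR : IsPoly d R) (s : ℝ) (hs : 0 < s)
    (hu : ContinuousOn u {c | c ∈ S ∧ R (π c) ≠ 0})
    (hloc : ∀ c ∈ S, R (π c) ≠ 0 → ∃ γ : ℂ → Z, γ (π c) = c ∧
      (∀ᶠ ζ in 𝓝 (π c), γ ζ ∈ S ∧ π (γ ζ) = ζ) ∧
      ∀ g : ℂ → ℂ, AnalyticAt ℂ g (π c) → LSM (fun ζ => ‖g ζ‖ ^ 2 * u (γ ζ)) (π c))
    (B : ℝ) (hB : ∀ c ∈ S, R (π c) ≠ 0 → u c * ‖R (π c)‖ ^ s ≤ B * ((1 + ‖π c‖) ^ n) ^ s)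
    (ζ₀ : ℂ) (r : ℝ) (hr : 0 < r) (M : ℝ) (hM : 0 ≤ M)
    (hcirc : ∀ c ∈ S, R (π c) ≠ 0 → ‖π c - ζ₀‖ = r →
      u c * (‖R (π c)‖ ^ 2 / ‖π c - ζ₀‖ ^ (n + d + 1)) ^ s ≤ M) :
    ∀ c ∈ S, R (π c) ≠ 0 → r ≤ ‖π c - ζ₀‖ →
      u c * (‖R (π c)‖ ^ 2 / ‖π c - ζ₀‖ ^ (n + d + 1)) ^ s ≤ M := by
  intro c₀ hc₀ hR₀ hr₀
  refine le_of_forall_pos_le_add fun η hη => ?_
  have hRc : Continuous R := hR.differentiable.continuous
  obtain ⟨C, hC0, hC⟩ := hR.growth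
  set κ : ℝ := (1 + ‖ζ₀‖) / r + 1 with hκ
  have hκ0 : 0 < κ := by positivity
  have hκρ : ∀ ζ : ℂ, r ≤ ‖ζ - ζ₀‖ → 1 + ‖ζ‖ ≤ κ * ‖ζ - ζ₀‖ := by
    intro ζ h
    have h1 : ‖ζ‖ ≤ ‖ζ - ζ₀‖ + ‖ζ₀‖ := by simpa using norm_add_le (ζ - ζ₀) ζ₀
    have h2 : (1 + ‖ζ₀‖) / r * r ≤ (1 + ‖ζ₀‖) / r * ‖ζ - ζ₀‖ := by gcongr
    rw [div_mul_cancel₀ _ hr.ne'] at h2
    rw [hκ]
    linarith
  set τ : ℝ := (η / (|B| + 1)) ^ s⁻¹ with hτ
  have hτ0 : 0 < τ := by positivity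
  have hτs : τ ^ s = η / (|B| + 1) := Real.rpow_inv_rpow (by positivity) hs.ne'
  have hρ₀ : 0 < ‖π c₀ - ζ₀‖ := hr.trans_le hr₀
  have hRn₀ : 0 < ‖R (π c₀)‖ := norm_pos_iff.2 hR₀
  set t : ℝ := min (τ / κ ^ n) (‖R (π c₀)‖ / ‖π c₀ - ζ₀‖ ^ (d + 1)) with ht
  have ht0 : 0 < t := lt_min (by positivity) (by positivity)
  set A : Set ℂ := {ζ | r ≤ ‖ζ - ζ₀‖ ∧ t * ‖ζ - ζ₀‖ ^ (d + 1) ≤ ‖R ζ‖} with hA
  have hAc : IsCompact A := by
    refine Metric.isCompact_of_isClosed_isBounded ?_ ?_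
    · have c1 : IsClosed {ζ : ℂ | r ≤ ‖ζ - ζ₀‖} := isClosed_le continuous_const (by fun_prop)
      have c2 : IsClosed {ζ : ℂ | t * ‖ζ - ζ₀‖ ^ (d + 1) ≤ ‖R ζ‖} :=
        isClosed_le (by fun_prop) (by fun_prop)
      exact c1.inter c2
    · refine (Metric.isBounded_closedBall (x := ζ₀) (r := C * κ ^ d / t)).subset ?_
      rintro ζ ⟨h1, h2⟩
      have hρ : 0 < ‖ζ - ζ₀‖ := hr.trans_le h1
      rw [mem_closedBall, dist_eq_norm, le_div_iff₀ ht0]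
      have h3 : ‖R ζ‖ ≤ C * (κ * ‖ζ - ζ₀‖) ^ d :=
        (hC ζ).trans (by gcongr; exact hκρ ζ h1)
      have h4 : (‖ζ - ζ₀‖ * t) * ‖ζ - ζ₀‖ ^ d ≤ (C * κ ^ d) * ‖ζ - ζ₀‖ ^ d := by
        calc (‖ζ - ζ₀‖ * t) * ‖ζ - ζ₀‖ ^ d = t * ‖ζ - ζ₀‖ ^ (d + 1) := by ring
          _ ≤ C * (κ * ‖ζ - ζ₀‖) ^ d := h2.trans h3
          _ = _ := by ring
      exact le_of_mul_le_mul_right h4 (by positivity)
  have hAR : ∀ ζ ∈ A, R ζ ≠ 0 := by
    rintro ζ ⟨h1, h2⟩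
    have hρ : 0 < ‖ζ - ζ₀‖ := hr.trans_le h1
    exact norm_pos_iff.1 (lt_of_lt_of_le (by positivity) h2)
  set q : ℂ → ℝ := fun ζ => (‖R ζ‖ ^ 2 / ‖ζ - ζ₀‖ ^ (n + d + 1)) ^ s with hq
  have hqc : ContinuousOn q A := by
    refine ContinuousOn.rpow_const (ContinuousOn.div (by fun_prop) (by fun_prop) ?_)
      fun _ _ => Or.inr hs.le
    rintro ζ ⟨h1, -⟩
    have hρ : 0 < ‖ζ - ζ₀‖ := hr.trans_le h1
    positivity
  have hmem : c₀ ∈ S ∩ π ⁻¹' A := by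
    refine ⟨hc₀, hr₀, ?_⟩
    rw [← le_div_iff₀ (by positivity)]
    exact min_le_right _ _
  refine maxPrinciple (hcomp A hAc) π hπ.continuousOn (fun c => u c * q (π c)) ?_ (M + η) ?_ c₀ hmem
  · exact (hu.mono fun c hc => ⟨hc.1, hAR _ hc.2⟩).mul
      (hqc.comp hπ.continuousOn fun c hc => hc.2)
  rintro c ⟨hcS, hcA⟩
  have hRne := hAR _ hcA
  obtain ⟨h1, h2⟩ := hcA
  have hρ : 0 < ‖π c - ζ₀‖ := hr.trans_le h1
  rcases h1.eq_or_lt with h1e | h1l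
  · left
    exact (hcirc c hcS hRne h1e.symm).trans (by linarith)
  rcases h2.eq_or_lt with h2e | h2l
  · left
    have e1 : q (π c) = ‖R (π c)‖ ^ s * (‖R (π c)‖ / ‖π c - ζ₀‖ ^ (n + d + 1)) ^ s := by
      simp only [hq]
      rw [← Real.mul_rpow (norm_nonneg _) (by positivity)]
      rw [pow_two, mul_div_assoc]
    have e2 : (1 + ‖π c‖) ^ n * (‖R (π c)‖ / ‖π c - ζ₀‖ ^ (n + d + 1)) ≤ τ := by
      calc (1 + ‖π c‖) ^ n * (‖R (π c)‖ / ‖π c - ζ₀‖ ^ (n + d + 1))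
          ≤ (κ * ‖π c - ζ₀‖) ^ n * (‖R (π c)‖ / ‖π c - ζ₀‖ ^ (n + d + 1)) := by
            gcongr; exact hκρ _ h1
        _ = κ ^ n * t := by
            rw [← h2e, mul_pow, add_assoc, pow_add _ n]; field_simp
        _ ≤ κ ^ n * (τ / κ ^ n) := by gcongr; exact min_le_left _ _
        _ = τ := by field_simp
    have e3 : ((1 + ‖π c‖) ^ n) ^ s * (‖R (π c)‖ / ‖π c - ζ₀‖ ^ (n + d + 1)) ^ s ≤
        η / (|B| + 1) := by
      rw [← Real.mul_rpow (by positivity) (by positivity), ← hτs]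
      exact Real.rpow_le_rpow (by positivity) e2 hs.le
    calc u c * q (π c)
        = u c * ‖R (π c)‖ ^ s * (‖R (π c)‖ / ‖π c - ζ₀‖ ^ (n + d + 1)) ^ s := by rw [e1]; ring
      _ ≤ |B| * ((1 + ‖π c‖) ^ n) ^ s * (‖R (π c)‖ / ‖π c - ζ₀‖ ^ (n + d + 1)) ^ s := by
          refine mul_le_mul_of_nonneg_right ((hB c hcS hRne).trans ?_) (by positivity)
          exact mul_le_mul_of_nonneg_right (le_abs_self B) (by positivity)
      _ ≤ |B| * (η / (|B| + 1)) := by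
          rw [mul_assoc]; exact mul_le_mul_of_nonneg_left e3 (abs_nonneg B)
      _ ≤ η := by
          rw [← mul_div_assoc, div_le_iff₀ (by positivity)]
          nlinarith [abs_nonneg B]
      _ ≤ M + η := by linarith
  right
  obtain ⟨γ, hγ0, hγ, hlsm⟩ := hloc c hcS hRne
  have hopen : ∀ᶠ ζ in 𝓝 (π c), ζ ∈ A := by
    have a1 : ∀ᶠ ζ in 𝓝 (π c), r < ‖ζ - ζ₀‖ :=
      (isOpen_lt continuous_const (by fun_prop)).mem_nhds h1l
    have a2 : ∀ᶠ ζ in 𝓝 (π c), t * ‖ζ - ζ₀‖ ^ (d + 1) < ‖R ζ‖ :=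
      (isOpen_lt (by fun_prop) (by fun_prop)).mem_nhds h2l
    filter_upwards [a1, a2] with ζ b1 b2 using ⟨b1.le, b2.le⟩
  refine ⟨γ, hγ0, ?_, ?_⟩
  · filter_upwards [hγ, hopen] with ζ b1 b2
    exact ⟨⟨b1.1, by rw [mem_preimage, b1.2]; exact b2⟩, b1.2⟩
  · set h : ℂ → ℂ := fun ζ => R ζ ^ 2 / (ζ - ζ₀) ^ (n + d + 1) with hh
    have hne : π c - ζ₀ ≠ 0 := norm_pos_iff.1 hρ
    have hh0 : h (π c) ≠ 0 := div_ne_zero (pow_ne_zero _ hRne) (pow_ne_zero _ hne)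
    have hha : AnalyticAt ℂ h (π c) :=
      ((hR.differentiable.analyticAt _).pow 2).div
        ((analyticAt_id.sub analyticAt_const).pow _) (pow_ne_zero _ hne)
    have hg : AnalyticAt ℂ (fun ζ => ((‖h (π c)‖ ^ (s / 2) : ℝ) : ℂ) *
        (h ζ / h (π c)) ^ ((s / 2 : ℝ) : ℂ)) (π c) := by
      refine analyticAt_const.mul (AnalyticAt.cpow (hha.div analyticAt_const hh0)
        analyticAt_const ?_)
      simp [div_self hh0]
    refine (hlsm _ hg).congr ?_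
    filter_upwards [hγ] with ζ b1
    rw [b1.2, mul_comm]
    congr 1
    have hn0 : 0 < ‖h (π c)‖ := norm_pos_iff.2 hh0
    rw [norm_mul, Complex.norm_cpow_real, Complex.norm_real, Real.norm_eq_abs,
      abs_of_nonneg (by positivity), ← Real.mul_rpow (by positivity) (by positivity), norm_div (h ζ),
      mul_div_cancel₀ _ hn0.ne', ← Real.rpow_natCast, ← Real.rpow_mul (norm_nonneg _)]
    have e4 : s / 2 * ((2 : ℕ) : ℝ) = s := by push_cast; ring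
    rw [e4]
    simp only [hq, hh, norm_div, norm_pow]

end Crest.Agent.R258

end
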